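import Crest.Agent.R149.ALStep

/-!
# Row 149, task R149-ALConc: an approximate triple point at every level

Fix `k`.  `B i x = sSup (gg k x '' Icc (i - wk k) (i + wk k))` (i = 2,3,4) is convex in `x = (β,y)` on the strip `β ∈ [7/8,9/8]` (`gg_cvx`, `bddAbove`),
`B i ≤ MM`, and on the ball of radius `rk k`: `MM ≤ max (max_i B i) (MM - gam)`, so `MM = max_i B i`; `hh` gives
`B i (x+d) ≤ MM x + vb i a + i b + n/5` for `n = max |a| |b| ≤ tk T k` (`0 < tk`).
`MM k` is continuous on the closed square `K` of radius `1/16` about `(1, 15/2)` (`Inv.lip` both ways).  Let `x` minimise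
`MM - c·(x - c0)`, `c = (-19/6, 3)`, on `K`.  `x` is interior by `bd`: `Amax - c·d - 11 = max (5a/3) (-5a/6 + |b|) ≥ (2/3) max |a| |b|`, so on the boundary
the function is `≥ 11 + 1/24 - 1/500 > 11 + 1/500 ≥` value at the centre.  All three branches are active at `x`: if `B i x < MM x`,
move by `s u`, `u = (1,0)` (i=3), `(-1/2,-1)` (i=2), `(-1/2,1)` (i=4): for `j ≠ i`, `(v_j - c)·u ≤ -7/12`, so `B j (x+su) ≤ MM x + s c·u - (7/12-1/5)s`, and
`B i (x+su) ≤ (1-s/t) B i x + (s/t) B i (x+tu) < MM x + s c·u` for small `s`; contradiction.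
Then for any `d` with `x + d` in the strip and small `s > 0`: convexity on the segment from `x - s d` to `x + d` and `hh` for `-s d` give
`MM (x+d) ≥ B i (x+d) ≥ MM x + vb i a + i b - n/5`.
`Inv.lip_global`: convexity of `MM k` (sup of `gg`) on the segment from `x` through `x'` to `x' + s (x' - x)` and `Inv.lip` at `x'`.
-/

set_option autoImplicit false
set_option maxHeartbeats 800000

open Filter Topology Set

namespace Crest.Agent.R149

variable {σ : ℕ → ℝ → ℝ → ℝ} {σI : ℝ → ℝ → ℝ} {T δ : ℕ → ℝ}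

namespace ConcAux

open StepAux

theorem tk_pos (h : ALHyp σ σI T δ) (k : ℕ) : 0 < tk T k := by
  unfold tk
  split_ifs
  · norm_num
  · have := gam_pos h k
    positivity

theorem tk_le (h : ALHyp σ σI T δ) (k : ℕ) : tk T k ≤ 1 / 32 := by
  unfold tk
  split_ifs with h0
  · exact le_rfl
  · obtain ⟨k, rfl⟩ := Nat.exists_eq_succ_of_ne_zero h0
    have h1 := gam_small h k
    have h2 : 1 / (128000000 * (2 : ℝ) ^ k) ≤ 1 / 128000000 :=
      one_div_le_one_div_of_le (by norm_num) (by linarith [two_pow_ge k])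
    change gam T (k + 1) / 17 ≤ _
    linarith

theorem rk_gt (k : ℕ) : 1 / 16 < rk k := by
  unfold rk
  have : (0 : ℝ) < 1 / (32 * 2 ^ k) := by positivity
  linarith

theorem MM_cvx (h : ALHyp σ σI T δ) (k : ℕ) {β β' y y' s : ℝ} (hβ : β ∈ Icc (7 / 8 : ℝ) (9 / 8))
    (hβ' : β' ∈ Icc (7 / 8 : ℝ) (9 / 8)) (h0 : 0 ≤ s) (h1 : s ≤ 1) :
    MM σ T k ((1 - s) * β + s * β') ((1 - s) * y + s * y') ≤
      (1 - s) * MM σ T k β y + s * MM σ T k β' y' := by
  refine MM_le _ _ _ fun κ hκ => ?_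
  refine (h.gg_cvx k hκ (by linarith [hβ.1]) (by linarith [hβ'.1]) h0 h1).trans ?_
  exact add_le_add (mul_le_mul_of_nonneg_left (h.le_MM k hβ y hκ) (by linarith))
    (mul_le_mul_of_nonneg_left (h.le_MM k hβ' y' hκ) h0)

theorem near_nonneg {k i : ℕ} (hi : i ∈ ({2, 3, 4} : Finset ℕ)) {κ : ℝ} (hκ : |κ - i| ≤ wk k) :
    0 ≤ κ := by
  have hi2 : (2 : ℝ) ≤ i := by
    simp only [Finset.mem_insert, Finset.mem_singleton] at hi
    rcases hi with rfl | rfl | rfl <;> norm_num
  linarith [(abs_le.1 hκ).1, wk_le k]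

/-- at a minimiser all branches are active -/
theorem active (h : ALHyp σ σI T δ) {k : ℕ} (hI : Inv σ T k) {β y : ℝ} (hβ : |β - 1| ≤ 1 / 32)
    (hy : |y - 15 / 2| ≤ 1 / 32)
    (hmin : ∀ a b : ℝ, |a| ≤ 1 / 32 → |b| ≤ 1 / 32 →
      MM σ T k β y + (-19 / 6) * a + 3 * b ≤ MM σ T k (β + a) (y + b))
    {i : ℕ} (hi : i ∈ ({2, 3, 4} : Finset ℕ)) {p q : ℝ} (hp : |p| ≤ 1) (hq : |q| ≤ 1)
    (hpq : ∀ j ∈ ({2, 3, 4} : Finset ℕ), j ≠ i →
      vb j * p + j * q ≤ (-19 / 6) * p + 3 * q - 7 / 12) {ε : ℝ} (hε : 0 < ε) :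
    ∃ κ : ℝ, |κ - i| ≤ wk k ∧ MM σ T k β y - ε ≤ gg σ T k β y κ := by
  by_contra hcon
  push Not at hcon
  have ht0 := tk_pos h k
  have ht1 := tk_le h k
  have hr := rk_gt k
  set t := tk T k with ht
  obtain ⟨s, hs0, hst, hsε⟩ : ∃ s : ℝ, 0 < s ∧ s ≤ t / 2 ∧ s ≤ ε / 40 :=
    ⟨min (t / 2) (ε / 40), lt_min (by positivity) (by positivity), min_le_left _ _, min_le_right _ _⟩
  have hab : ∀ c : ℝ, 0 ≤ c → |c * p| ≤ c ∧ |c * q| ≤ c := by
    intro c hc
    rw [abs_mul, abs_mul, abs_of_nonneg hc]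
    exact ⟨mul_le_of_le_one_right hc hp, mul_le_of_le_one_right hc hq⟩
  have hsp := (hab s hs0.le).1
  have hsq := (hab s hs0.le).2
  have htp := (hab t ht0.le).1
  have htq := (hab t ht0.le).2
  have hβ' : |β + s * p - 1| ≤ rk k := by
    have := abs_add_le (β - 1) (s * p)
    rw [show β + s * p - 1 = β - 1 + s * p by ring]
    linarith
  have hy' : |y + s * q - 15 / 2| ≤ rk k := by
    have := abs_add_le (y - 15 / 2) (s * q)
    rw [show y + s * q - 15 / 2 = y - 15 / 2 + s * q by ring]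
    linarith
  have hβr : |β - 1| ≤ rk k := by linarith
  have hyr : |y - 15 / 2| ≤ rk k := by linarith
  have key : MM σ T k (β + s * p) (y + s * q) ≤
      max (MM σ T k β y + (-19 / 6) * (s * p) + 3 * (s * q) - s / 3)
        (MM σ T k (β + s * p) (y + s * q) - gam T k) := by
    refine MM_le _ _ _ fun κ hκ => ?_
    by_cases hc : ∀ j ∈ ({2, 3, 4} : Finset ℕ), wk k < |κ - j|
    · exact le_max_of_le_right (hI.gap _ _ hβ' hy' κ hκ hc)
    · push Not at hc
      obtain ⟨j, hj, hκj⟩ := hc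
      refine le_max_of_le_left ?_
      by_cases hji : j = i
      · subst hji
        have h1 := hI.hh β y hβr hyr j hj κ hκj (t * p) (t * q) htp htq
        have h2 := (abs_le.1 (lin_bd hj (t * p) (t * q))).2
        have h3 : max |t * p| |t * q| ≤ t := max_le htp htq
        have h4 : tauk k * max |t * p| |t * q| ≤ 1 / 5 * t :=
          mul_le_mul (tauk_le k) h3 (le_max_of_le_left (abs_nonneg _)) (by norm_num)
        have h5 : gg σ T k (β + t * p) (y + t * q) κ ≤ MM σ T k β y + 9 * t := by linarith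
        have hθ0 : 0 ≤ s / t := by positivity
        have hθ1 : s / t ≤ 1 / 2 := by rw [div_le_iff₀ ht0]; linarith
        have h6 := h.gg_cvx k hκ (β := β) (β' := β + t * p) (y := y) (y' := y + t * q) (s := s / t)
          (by linarith [(abs_le.1 hβ).1]) (by linarith [(abs_le.1 hβ).1, (abs_le.1 htp).1]) hθ0
          (by linarith)
        have e1 : (1 - s / t) * β + s / t * (β + t * p) = β + s * p := by field_simp; ring
        have e2 : (1 - s / t) * y + s / t * (y + t * q) = y + s * q := by field_simp; ring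
        rw [e1, e2] at h6
        have h7 := mul_le_mul_of_nonneg_left (hcon κ hκj).le (by linarith : 0 ≤ 1 - s / t)
        have h8 := mul_le_mul_of_nonneg_left h5 hθ0
        have e3 : s / t * (MM σ T k β y + 9 * t) = s / t * MM σ T k β y + 9 * s := by
          field_simp
        have h9 : s / t * ε ≤ 1 / 2 * ε := mul_le_mul_of_nonneg_right hθ1 hε.le
        rw [e3] at h8
        have h10 := abs_le.1 hsp
        have h11 := abs_le.1 hsq
        nlinarith [h10.1, h10.2, h11.1, h11.2]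
      · have h1 := hI.hh β y hβr hyr j hj κ hκj (s * p) (s * q) (by linarith) (by linarith)
        have h3 : max |s * p| |s * q| ≤ s := max_le hsp hsq
        have h4 : tauk k * max |s * p| |s * q| ≤ 1 / 5 * s :=
          mul_le_mul (tauk_le k) h3 (le_max_of_le_left (abs_nonneg _)) (by norm_num)
        have h5 := mul_le_mul_of_nonneg_left (hpq j hj hji) hs0.le
        nlinarith
  have hm := hmin (s * p) (s * q) (by linarith) (by linarith)
  rcases le_max_iff.1 key with h1 | h1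
  · linarith
  · linarith [gam_pos h k]

theorem lower (h : ALHyp σ σI T δ) {k : ℕ} (hI : Inv σ T k) {β y : ℝ} (hβ : |β - 1| ≤ 1 / 32)
    (hy : |y - 15 / 2| ≤ 1 / 32) {i : ℕ} (hi : i ∈ ({2, 3, 4} : Finset ℕ))
    (hact : ∀ ε : ℝ, 0 < ε → ∃ κ : ℝ, |κ - i| ≤ wk k ∧ MM σ T k β y - ε ≤ gg σ T k β y κ) {a b : ℝ}
    (hab : β + a ∈ Icc (7 / 8 : ℝ) (9 / 8)) :
    MM σ T k β y + vb i * a + i * b - max |a| |b| / 5 ≤ MM σ T k (β + a) (y + b) := by
  have ht0 := tk_pos h k
  have ht1 := tk_le h k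
  have hr := rk_gt k
  set t := tk T k with ht
  set n := max |a| |b| with hn
  have hn0 : 0 ≤ n := le_max_of_le_left (abs_nonneg a)
  set s := t / (n + 1) with hs
  have hs0 : 0 < s := by positivity
  have hsn : s * n ≤ t := by
    rw [hs, div_mul_eq_mul_div, div_le_iff₀ (by positivity)]; nlinarith
  have ea : |-(s * a)| = s * |a| := by rw [abs_neg, abs_mul, abs_of_pos hs0]
  have eb : |-(s * b)| = s * |b| := by rw [abs_neg, abs_mul, abs_of_pos hs0]
  have hmax : max |-(s * a)| |-(s * b)| = s * n := by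
    rw [ea, eb, hn, mul_max_of_nonneg _ _ hs0.le]
  have ha' : |-(s * a)| ≤ t := (le_max_left _ _).trans (hmax ▸ hsn)
  have hb' : |-(s * b)| ≤ t := (le_max_right _ _).trans (hmax ▸ hsn)
  refine le_of_forall_pos_le_add fun η hη => ?_
  obtain ⟨κ, hκ, hge⟩ := hact (η * s / (1 + s)) (by positivity)
  have hκ0 := near_nonneg hi hκ
  have h1 := hI.hh β y (by linarith) (by linarith) i hi κ hκ _ _ ha' hb'
  rw [hmax] at h1
  have h2 : tauk k * (s * n) ≤ 1 / 5 * (s * n) :=
    mul_le_mul_of_nonneg_right (tauk_le k) (by positivity)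
  have hθ0 : 0 ≤ s / (1 + s) := by positivity
  have hθ1 : s / (1 + s) ≤ 1 := by rw [div_le_one (by positivity)]; linarith
  have h3 := h.gg_cvx k hκ0 (β := β + -(s * a)) (β' := β + a) (y := y + -(s * b)) (y' := y + b)
    (s := s / (1 + s)) (by linarith [(abs_le.1 hβ).1, (abs_le.1 ha').1]) (by linarith [hab.1])
    hθ0 hθ1
  have e1 : (1 - s / (1 + s)) * (β + -(s * a)) + s / (1 + s) * (β + a) = β := by field_simp; ring
  have e2 : (1 - s / (1 + s)) * (y + -(s * b)) + s / (1 + s) * (y + b) = y := by field_simp; ring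
  rw [e1, e2] at h3
  have h4 := h.le_MM k hab (y + b) hκ0
  have h5 : (1 + s) * gg σ T k β y κ ≤ gg σ T k (β + -(s * a)) (y + -(s * b)) κ +
      s * gg σ T k (β + a) (y + b) κ := by
    have := mul_le_mul_of_nonneg_left h3 (by positivity : 0 ≤ 1 + s)
    refine this.trans (le_of_eq ?_)
    field_simp; ring
  have h6 : (1 + s) * MM σ T k β y - η * s ≤ (1 + s) * gg σ T k β y κ := by
    have := mul_le_mul_of_nonneg_left hge (by positivity : 0 ≤ 1 + s)
    refine le_trans (le_of_eq ?_) this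
    field_simp
  have h7 := mul_le_mul_of_nonneg_left h4 hs0.le
  have h8 : s * (MM σ T k β y + vb i * a + i * b - n / 5) ≤ s * (MM σ T k (β + a) (y + b) + η) := by
    nlinarith
  exact le_of_mul_le_mul_left h8 hs0

end ConcAux

open StepAux ConcAux

theorem Inv.lip_global (h : ALHyp σ σI T δ) {k : ℕ} (hI : Inv σ T k) {β y β' y' : ℝ} (hβ : |β - 1| ≤ 1 / 16)
    (hy : |y - 15 / 2| ≤ 1 / 16) (hβ' : |β' - 1| ≤ 1 / 16) (hy' : |y' - 15 / 2| ≤ 1 / 16) :
    MM σ T k β' y' ≤ MM σ T k β y + 9 * max |β' - β| |y' - y| := by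
  have ht0 := tk_pos h k
  have hr := rk_gt k
  obtain ⟨s, hs0, hst, hsr⟩ : ∃ s : ℝ, 0 < s ∧ s ≤ tk T k ∧ s ≤ rk k - 1 / 16 :=
    ⟨min (tk T k) (rk k - 1 / 16), lt_min ht0 (by linarith), min_le_left _ _, min_le_right _ _⟩
  have ha1 : |β' - β| ≤ 1 := by
    have := abs_sub_le β' 1 β
    rw [abs_sub_comm 1 β] at this
    linarith
  have hb1 : |y' - y| ≤ 1 := by
    have := abs_sub_le y' (15 / 2) y
    rw [abs_sub_comm (15 / 2) y] at this
    linarith
  have ea : |s * (β' - β)| = s * |β' - β| := by rw [abs_mul, abs_of_pos hs0]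
  have eb : |s * (y' - y)| = s * |y' - y| := by rw [abs_mul, abs_of_pos hs0]
  have ha : |s * (β' - β)| ≤ s := ea ▸ mul_le_of_le_one_right hs0.le ha1
  have hb : |s * (y' - y)| ≤ s := eb ▸ mul_le_of_le_one_right hs0.le hb1
  have hβ'' : |β' + s * (β' - β) - 1| ≤ rk k := by
    have := abs_add_le (β' - 1) (s * (β' - β))
    rw [show β' + s * (β' - β) - 1 = β' - 1 + s * (β' - β) by ring]
    linarith
  have hy'' : |y' + s * (y' - y) - 15 / 2| ≤ rk k := by
    have := abs_add_le (y' - 15 / 2) (s * (y' - y))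
    rw [show y' + s * (y' - y) - 15 / 2 = y' - 15 / 2 + s * (y' - y) by ring]
    linarith
  have h1 := Inv.lip h hI (β := β') (y := y') (by linarith) (by linarith) hβ'' hy'' (by linarith)
    (by linarith)
  rw [ea, eb, ← mul_max_of_nonneg _ _ hs0.le] at h1
  have hθ0 : 0 ≤ 1 / (1 + s) := by positivity
  have hθ1 : 1 / (1 + s) ≤ 1 := by rw [div_le_one (by positivity)]; linarith
  have h2 := MM_cvx h k (β := β) (β' := β' + s * (β' - β)) (y := y) (y' := y' + s * (y' - y))
    (mem_Icc_of (by linarith)) (mem_Icc_of (hβ''.trans (rk_le k))) hθ0 hθ1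
  have e1 : (1 - 1 / (1 + s)) * β + 1 / (1 + s) * (β' + s * (β' - β)) = β' := by field_simp; ring
  have e2 : (1 - 1 / (1 + s)) * y + 1 / (1 + s) * (y' + s * (y' - y)) = y' := by field_simp; ring
  rw [e1, e2] at h2
  have h3 : (1 + s) * MM σ T k β' y' ≤ s * MM σ T k β y +
      MM σ T k (β' + s * (β' - β)) (y' + s * (y' - y)) := by
    have := mul_le_mul_of_nonneg_left h2 (by positivity : 0 ≤ 1 + s)
    refine this.trans (le_of_eq ?_)
    field_simp; ring
  have h4 : s * MM σ T k β' y' ≤ s * (MM σ T k β y + 9 * max |β' - β| |y' - y|) := by nlinarith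
  exact le_of_mul_le_mul_left h4 hs0

theorem Inv.triple (h : ALHyp σ σI T δ) {k : ℕ} (hI : Inv σ T k) :
    ∃ β y : ℝ, |β - 1| ≤ 1 / 16 ∧ |y - 15 / 2| ≤ 1 / 16 ∧ ∀ i ∈ ({2, 3, 4} : Finset ℕ), ∀ a b : ℝ,
      β + a ∈ Icc (7 / 8 : ℝ) (9 / 8) →
        MM σ T k β y + vb i * a + i * b - max |a| |b| / 5 ≤ MM σ T k (β + a) (y + b) := by
  set K : Set (ℝ × ℝ) := Metric.closedBall ((1 : ℝ), (15 / 2 : ℝ)) (1 / 16) with hK
  have hmem : ∀ x : ℝ × ℝ, x ∈ K ↔ |x.1 - 1| ≤ 1 / 16 ∧ |x.2 - 15 / 2| ≤ 1 / 16 := by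
    intro x
    rw [hK, Metric.mem_closedBall, Prod.dist_eq, max_le_iff, Real.dist_eq, Real.dist_eq]
  have hlip : LipschitzOnWith 9 (fun x : ℝ × ℝ => MM σ T k x.1 x.2) K := by
    refine LipschitzOnWith.of_le_add_mul 9 fun x hx x' hx' => ?_
    have := Inv.lip_global h hI ((hmem x').1 hx').1 ((hmem x').1 hx').2 ((hmem x).1 hx).1
      ((hmem x).1 hx).2
    rw [Prod.dist_eq, Real.dist_eq, Real.dist_eq]
    exact_mod_cast this
  have hcont : ContinuousOn
      (fun x : ℝ × ℝ => MM σ T k x.1 x.2 - ((-19 / 6) * (x.1 - 1) + 3 * (x.2 - 15 / 2))) K :=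
    hlip.continuousOn.sub (by fun_prop)
  have hc0 : ((1 : ℝ), (15 / 2 : ℝ)) ∈ K := Metric.mem_closedBall_self (by norm_num)
  obtain ⟨⟨β, y⟩, hx, hmin⟩ := (isCompact_closedBall _ _).exists_isMinOn ⟨_, hc0⟩ hcont
  obtain ⟨hβ, hy⟩ := (hmem _).1 hx
  simp only at hβ hy
  have hpos : (0 : ℝ) ≤ 1 / (1000 * 2 ^ k) := by positivity
  have h0 : MM σ T k β y - ((-19 / 6) * (β - 1) + 3 * (y - 15 / 2)) ≤
      MM σ T k 1 (15 / 2) - ((-19 / 6) * (1 - 1) + 3 * (15 / 2 - 15 / 2)) := hmin hc0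
  have h1 := (abs_le.1 (hI.bd 1 (15 / 2) (by norm_num) (by norm_num))).2
  have h2 := (abs_le.1 (hI.bd β y (by linarith) (by linarith))).1
  have e0 : Amax 1 (15 / 2) = 11 := by simp [Amax, Aff]
  have e2 : Aff 2 β y = 11 + (-4) * (β - 1) + 2 * (y - 15 / 2) := by unfold Aff vb; norm_num
  have e3 : Aff 3 β y = 11 + (-3 / 2) * (β - 1) + 3 * (y - 15 / 2) := by unfold Aff vb; norm_num
  have e4 : Aff 4 β y = 11 + (-4) * (β - 1) + 4 * (y - 15 / 2) := by unfold Aff vb; norm_num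
  have l2 : Aff 2 β y ≤ Amax β y := le_max_left _ _
  have l3 : Aff 3 β y ≤ Amax β y := le_max_of_le_right (le_max_left _ _)
  have l4 : Aff 4 β y ≤ Amax β y := le_max_of_le_right (le_max_right _ _)
  have hβ' : |β - 1| ≤ 1 / 32 := by rw [abs_le]; constructor <;> linarith
  have hy' : |y - 15 / 2| ≤ 1 / 32 := by rw [abs_le]; constructor <;> linarith
  have hmin' : ∀ a b : ℝ, |a| ≤ 1 / 32 → |b| ≤ 1 / 32 →
      MM σ T k β y + (-19 / 6) * a + 3 * b ≤ MM σ T k (β + a) (y + b) := by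
    intro a b ha hb
    have hm : ((β + a, y + b) : ℝ × ℝ) ∈ K := by
      rw [hmem]
      have f1 := abs_add_le (β - 1) a
      have f2 := abs_add_le (y - 15 / 2) b
      simp only
      rw [show β + a - 1 = β - 1 + a by ring, show y + b - 15 / 2 = y - 15 / 2 + b by ring]
      constructor <;> linarith
    have : MM σ T k β y - ((-19 / 6) * (β - 1) + 3 * (y - 15 / 2)) ≤
      MM σ T k (β + a) (y + b) - ((-19 / 6) * (β + a - 1) + 3 * (y + b - 15 / 2)) := hmin hm
    linarith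
  refine ⟨β, y, hβ, hy, fun i hi a b hab => lower h hI hβ' hy' hi (fun ε hε => ?_) hab⟩
  have hi' := hi
  simp only [Finset.mem_insert, Finset.mem_singleton] at hi'
  rcases hi' with rfl | rfl | rfl
  · refine active h hI hβ' hy' hmin' hi (p := -1 / 2) (q := -1) (by norm_num [abs_le])
      (by norm_num) ?_ hε
    intro j hj hji
    simp only [Finset.mem_insert, Finset.mem_singleton] at hj
    rcases hj with rfl | rfl | rfl <;> first | exact absurd rfl hji | norm_num [vb]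
  · refine active h hI hβ' hy' hmin' hi (p := 1) (q := 0) (by norm_num) (by norm_num) ?_ hε
    intro j hj hji
    simp only [Finset.mem_insert, Finset.mem_singleton] at hj
    rcases hj with rfl | rfl | rfl <;> first | exact absurd rfl hji | norm_num [vb]
  · refine active h hI hβ' hy' hmin' hi (p := -1 / 2) (q := 1) (by norm_num [abs_le])
      (by norm_num) ?_ hε
    intro j hj hji
    simp only [Finset.mem_insert, Finset.mem_singleton] at hj
    rcases hj with rfl | rfl | rfl <;> first | exact absurd rfl hji | norm_num [vb]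

end Crest.Agent.R149
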