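import Crest.Agent.R149.ALBase
import Crest.Agent.R149.ALConc

/-!
# Row 149, task R149-AL: passage to the limit

`P β y = sSup ((fun κ => y κ + σI β κ) '' Ici 0)` (bounded by `crudeI`).  `MM k β y → P β y` for `β ∈ [7/8,9/8]` (choose `K` with
`2 + (y+2) κ - κ²/8 ≤ 0` for `κ ≥ K`; on `[0,K]` use `lim` and `T k → 0`; `σI β 0 = 0` from `lim`, `zero`).  Take the points `x_k` of `Inv.triple`, a convergent
subsequence `x_k → x* = (βc, y*)` (`IsCompact.tendsto_subseq` on `Icc ×ˢ Icc`); applying `triple` with `d_k = x* + d - x_k` and `lip_global` gives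
`P (x*+d) ≥ P x* + vb i a + i b - max |a| |b| / 5`.
Finally for `κ ∈ [16/5,33/10]`: `σI βc κ ≤ P x* - y* κ`; a supporting line of the concave `σI (βc ± t)` at `κ` with slope `-y'` gives
`σI (βc ± t) κ ≥ P (βc ± t) y' - y' κ`; put `b = y' - y*`, `max |a| |b| ≤ t + |b|`.  For `+t`: `b ≤ 0`: `i = 3`; `b ≥ 0`: combine `i = 3, 4` with weights
`19/5 - κ`, `κ - 14/5`.  For `-t`: `i = 4` if `b ≥ 0`, `i = 2` if `b ≤ 0`.
-/

set_option autoImplicit false

open Filter Topology Set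

namespace Crest.Agent.R149

namespace ALlim

variable {σ : ℕ → ℝ → ℝ → ℝ} {σI : ℝ → ℝ → ℝ} {T δ : ℕ → ℝ}

/-- the limiting Legendre transform -/
noncomputable def P (σI : ℝ → ℝ → ℝ) (β y : ℝ) : ℝ := sSup ((fun κ => y * κ + σI β κ) '' Ici 0)

theorem le_P (h : ALHyp σ σI T δ) {β : ℝ} (hβ : β ∈ Icc (7 / 8 : ℝ) (9 / 8)) (y : ℝ) {κ : ℝ}
    (hκ : 0 ≤ κ) : y * κ + σI β κ ≤ P σI β y := by
  refine le_csSup ⟨2 + 2 * (y + 2) ^ 2, ?_⟩ ⟨κ, hκ, rfl⟩
  rintro _ ⟨κ, hκ, rfl⟩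
  have := h.crudeI β hβ κ hκ
  simp only
  nlinarith [sq_nonneg (κ - 4 * (y + 2))]

theorem P_le (β y : ℝ) {m : ℝ} (hm : ∀ κ, 0 ≤ κ → y * κ + σI β κ ≤ m) : P σI β y ≤ m :=
  csSup_le ⟨_, 0, Set.mem_Ici.2 le_rfl, rfl⟩ (by rintro _ ⟨κ, hκ, rfl⟩; exact hm κ hκ)

theorem σI_zero (h : ALHyp σ σI T δ) {β : ℝ} (hβ : β ∈ Icc (7 / 8 : ℝ) (9 / 8)) : σI β 0 = 0 := by
  refine abs_nonpos_iff.1 (le_of_forall_pos_le_add fun ε hε => ?_)
  obtain ⟨k, hk⟩ := (h.lim β hβ 0 ε hε).exists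
  have := hk 0 ⟨le_rfl, le_rfl⟩
  rwa [h.zero, zero_sub, abs_neg, ← zero_add ε] at this

theorem tendsto_MM (h : ALHyp σ σI T δ) {β : ℝ} (hβ : β ∈ Icc (7 / 8 : ℝ) (9 / 8)) (y : ℝ) :
    Tendsto (fun k => MM σ T k β y) atTop (𝓝 (P σI β y)) := by
  set K := 8 * (|y| + 4) with hK
  have hy := le_abs_self y
  have hy0 := abs_nonneg y
  have big : ∀ κ, K ≤ κ → 2 + (y + 2) * κ - κ ^ 2 / 8 ≤ 0 := fun κ hκ => by nlinarith
  have hP0 : 0 ≤ P σI β y := by
    have := le_P h hβ y (le_refl 0)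
    rwa [σI_zero h hβ, mul_zero, add_zero] at this
  have hβ0 : 0 ≤ β := by linarith [hβ.1]
  rw [Metric.tendsto_atTop']
  intro ε hε
  have h1 := h.lim β hβ K (ε / 3) (by positivity)
  have h2 : ∀ᶠ k in atTop, β * T k * K ^ 2 / 2 ≤ ε / 3 := by
    have : Tendsto (fun k => β * T k * K ^ 2 / 2) atTop (𝓝 (β * 0 * K ^ 2 / 2)) :=
      ((h.Tlim.const_mul β).mul_const _).div_const _
    rw [mul_zero, zero_mul, zero_div] at this
    exact this.eventually (ge_mem_nhds (by positivity))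
  obtain ⟨N, hN⟩ := eventually_atTop.1 (h1.and h2)
  refine ⟨N, fun k hk => ?_⟩
  obtain ⟨a1, a2⟩ := hN k hk.le
  have hT := (h.Tpos k).le
  have u1 : MM σ T k β y ≤ P σI β y + 2 * ε / 3 := by
    refine MM_le k β y fun κ hκ => ?_
    rcases le_total κ K with c | c
    · have b1 := (abs_le.1 (a1 κ ⟨hκ, c⟩)).2
      have b2 := le_P h hβ y hκ
      have b3 : β * T k * κ ^ 2 ≤ β * T k * K ^ 2 := by gcongr
      unfold gg; linarith
    · linarith [h.gg_crude k hβ y hκ, big κ c]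
  have u2 : P σI β y ≤ MM σ T k β y + ε / 3 := by
    refine P_le β y fun κ hκ => ?_
    rcases le_total κ K with c | c
    · have b1 := (abs_le.1 (a1 κ ⟨hκ, c⟩)).1
      have b2 := h.le_MM k hβ y hκ
      have b3 : 0 ≤ β * T k * κ ^ 2 := by positivity
      unfold gg at b2; linarith
    · linarith [h.crudeI β hβ κ hκ, big κ c, h.MM_nonneg k hβ y]
  rw [Real.dist_eq, abs_lt]
  constructor <;> linarith

theorem support {f : ℝ → ℝ} (hf : ConcaveOn ℝ (Ici 0) f) {κ : ℝ} (hκ : 0 < κ) :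
    ∃ s, ∀ z, 0 ≤ z → f z ≤ f κ + s * (z - κ) := by
  have hb : ∀ w, 0 ≤ w → w < κ → ∀ x ∈ (fun z => (f z - f κ) / (z - κ)) '' Ioi κ,
      x ≤ (f κ - f w) / (κ - w) := by
    rintro w hw hwκ _ ⟨z, hz, rfl⟩
    exact hf.slope_anti_adjacent hw (show (0 : ℝ) ≤ z from hκ.le.trans (le_of_lt hz)) hwκ hz
  refine ⟨sSup ((fun z => (f z - f κ) / (z - κ)) '' Ioi κ), fun z hz => ?_⟩
  rcases lt_trichotomy z κ with c | c | c
  · have := csSup_le (nonempty_Ioi.image _) (hb z hz c)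
    rw [le_div_iff₀ (sub_pos.2 c)] at this
    linarith
  · simp [c]
  · have := le_csSup ⟨_, hb 0 le_rfl hκ⟩
      (⟨z, c, rfl⟩ : (f z - f κ) / (z - κ) ∈ (fun z => (f z - f κ) / (z - κ)) '' Ioi κ)
    rw [div_le_iff₀ (sub_pos.2 c)] at this
    linarith

theorem inv_all (h : ALHyp σ σI T δ) (k : ℕ) : Inv σ T k := by
  induction k with
  | zero => exact h.inv_zero
  | succ k ih => exact h.inv_succ ih

theorem triple_lim (h : ALHyp σ σI T δ) :
    ∃ β y : ℝ, |β - 1| ≤ 1 / 16 ∧ ∀ i ∈ ({2, 3, 4} : Finset ℕ), ∀ a b : ℝ,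
      β + a ∈ Icc (7 / 8 : ℝ) (9 / 8) →
        P σI β y + vb i * a + i * b - max |a| |b| / 5 ≤ P σI (β + a) (y + b) := by
  choose β y h1 h2 h3 using fun k => (inv_all h k).triple h
  have hc : IsCompact (Icc (15 / 16 : ℝ) (17 / 16) ×ˢ Icc (119 / 16 : ℝ) (121 / 16)) :=
    isCompact_Icc.prod isCompact_Icc
  obtain ⟨⟨βc, yc⟩, hx, φ, hφ, hlim⟩ := hc.tendsto_subseq (x := fun k => (β k, y k)) (fun k => by
    have a1 := abs_le.1 (h1 k)
    have a2 := abs_le.1 (h2 k)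
    exact ⟨⟨by linarith [a1.1], by linarith [a1.2]⟩, ⟨by linarith [a2.1], by linarith [a2.2]⟩⟩)
  obtain ⟨⟨c1, c2⟩, c3, c4⟩ := hx
  simp only at c1 c2 c3 c4
  have d1 : |βc - 1| ≤ 1 / 16 := abs_le.2 ⟨by linarith, by linarith⟩
  have d2 : |yc - 15 / 2| ≤ 1 / 16 := abs_le.2 ⟨by linarith, by linarith⟩
  have lβ : Tendsto (fun j => β (φ j)) atTop (𝓝 βc) := (continuous_fst.tendsto _).comp hlim
  have ly : Tendsto (fun j => y (φ j)) atTop (𝓝 yc) := (continuous_snd.tendsto _).comp hlim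
  refine ⟨βc, yc, d1, fun i hi a b hab => ?_⟩
  have m1 := (tendsto_MM h (β := βc) ⟨by linarith, by linarith⟩ yc).comp hφ.tendsto_atTop
  have m2 := (tendsto_MM h hab (yc + b)).comp hφ.tendsto_atTop
  have m3 : Tendsto (fun j => MM σ T (φ j) βc yc - 9 * max |βc - β (φ j)| |yc - y (φ j)| +
      vb i * (βc + a - β (φ j)) + i * (yc + b - y (φ j)) -
      max |βc + a - β (φ j)| |yc + b - y (φ j)| / 5) atTop
      (𝓝 (P σI βc yc - 9 * max |βc - βc| |yc - yc| + vb i * (βc + a - βc) + i * (yc + b - yc) -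
      max |βc + a - βc| |yc + b - yc| / 5)) :=
    (((m1.sub (((lβ.const_sub _).abs.max (ly.const_sub _).abs).const_mul _)).add
      ((lβ.const_sub _).const_mul _)).add ((ly.const_sub _).const_mul _)).sub
      (((lβ.const_sub _).abs.max (ly.const_sub _).abs).div_const _)
  simp only [sub_self, abs_zero, max_self, mul_zero, sub_zero, add_sub_cancel_left] at m3
  refine le_of_tendsto_of_tendsto' m3 m2 fun j => ?_
  have e1 := h3 (φ j) i hi (βc + a - β (φ j)) (yc + b - y (φ j)) (by simpa using hab)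
  have e2 := (inv_all h (φ j)).lip_global h (h1 (φ j)) (h2 (φ j)) d1 d2
  simp only [add_sub_cancel, Function.comp] at e1 ⊢
  linarith

end ALlim

open ALlim in
theorem abstract_kink {σ : ℕ → ℝ → ℝ → ℝ} {σI : ℝ → ℝ → ℝ} {T δ : ℕ → ℝ} (h : ALHyp σ σI T δ) :
    ∃ βc ∈ Icc (15 / 16 : ℝ) (17 / 16), ∀ κ ∈ Icc (16 / 5 : ℝ) (33 / 10), ∀ t ∈ Ioo (0 : ℝ) (1 / 32),
      σI βc κ - 3 * t ≤ σI (βc + t) κ ∧ σI βc κ + 19 / 5 * t ≤ σI (βc - t) κ := by
  obtain ⟨β, y, h1, h2⟩ := triple_lim h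
  obtain ⟨c1, c2⟩ := abs_le.1 h1
  refine ⟨β, ⟨by linarith, by linarith⟩, fun κ hκ t ht => ?_⟩
  obtain ⟨k1, k2⟩ := hκ
  obtain ⟨t1, t2⟩ := ht
  have h3 := le_P h (β := β) ⟨by linarith, by linarith⟩ y (κ := κ) (by linarith)
  have key : ∀ a : ℝ, |a| = t → ∃ b : ℝ, ∀ i ∈ ({2, 3, 4} : Finset ℕ),
      σI β κ + vb i * a + (i - κ) * b - (t + |b|) / 5 ≤ σI (β + a) κ := by
    intro a ha
    have ha' := abs_le.1 ha.le
    have hm : β + a ∈ Icc (7 / 8 : ℝ) (9 / 8) := ⟨by linarith [ha'.1], by linarith [ha'.2]⟩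
    obtain ⟨s, hs⟩ := support (h.ccv _ hm) (κ := κ) (by linarith)
    refine ⟨-s - y, fun i hi => ?_⟩
    have e1 := h2 i hi a (-s - y) hm
    have e2 : P σI (β + a) (y + (-s - y)) ≤ σI (β + a) κ - s * κ :=
      P_le _ _ fun z hz => by linarith [hs z hz]
    have e3 : max |a| |-s - y| ≤ t + |-s - y| :=
      max_le (by linarith [abs_nonneg (-s - y)]) (by linarith)
    linarith
  constructor
  · obtain ⟨b, hb⟩ := key t (abs_of_pos t1)
    have e3 := hb 3 (by simp)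
    have e4 := hb 4 (by simp)
    simp only [vb, if_true, Nat.cast_ofNat, show (4 : ℕ) ≠ 3 by decide, if_false] at e3 e4
    rcases le_total b 0 with c | c
    · rw [abs_of_nonpos c] at e3
      nlinarith
    · rw [abs_of_nonneg c] at e3 e4
      have f3 := mul_le_mul_of_nonneg_left e3 (show (0 : ℝ) ≤ 19 / 5 - κ by linarith)
      have f4 := mul_le_mul_of_nonneg_left e4 (show (0 : ℝ) ≤ κ - 14 / 5 by linarith)
      nlinarith
  · obtain ⟨b, hb⟩ := key (-t) (by rw [abs_neg, abs_of_pos t1])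
    have e2 := hb 2 (by simp)
    have e4 := hb 4 (by simp)
    simp only [vb, Nat.cast_ofNat, show (4 : ℕ) ≠ 3 by decide, show (2 : ℕ) ≠ 3 by decide,
      if_false] at e2 e4
    rw [sub_eq_add_neg β t]
    rcases le_total b 0 with c | c
    · rw [abs_of_nonpos c] at e2
      nlinarith
    · rw [abs_of_nonneg c] at e4
      nlinarith

end Crest.Agent.R149
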