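import Crest.Agent.R149.ALDefs

/-!
# Row 149, task R149-ALBase: the invariants at level 0

`w = wk 0 = 1/2000`, `gam T 0 = 1/32000000`, `tk T 0 = 1/32`, `rk 0 = 3/32`, `tauk 0 = 1/10`.
`F = Fb β`: `F 1 = 0, F 2 = 6β, F k = βk(k-1)+5(k-1)` for `k ≥ 3` (β ∈ [7/8,9/8]); with `F 0 := 0` it is convex (increments `0, 6β, 10, 6β+5, 8β+5, …`).
For `|β-1|, |y-15/2| ≤ 1/8` and `κ ∈ [j, j+1]`, `j ≤ 4`, feed `baseU` with the chord of `F` on `[j,j+1]`: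
`(A,B) = (0,0), (6β,6β), (20-6β,10), (12β+5, 6β+5), (20β+5, 8β+5)` (check `B k - A ≤ Fb β k`: `interval_cases`-like for small `k`, and
`(k-j)(k-j-1) ≥ 0` for integers); for `κ ≥ 5` with the tangent `B = 2βκ+5-β`, `A = βκ²+5` of `q k = βk²+(5-β)k-5`.
With `κ = j + θ`: `gg 0 β y κ ≤ (1+κ)/10⁶ + (1-θ) A_j + θ A_{j+1} - βθ(1-θ)/2` where `A₀ = 0`, `A₁ = y+β/2 ≤ A₂ - 2`, `A_i = Aff i`,
`A₅ = 5y - 15β/2 - 20 ≤ A₄ - 2/5`; for `κ ≥ 5`, `gg ≤ (1+κ)/10⁶ + yκ - βκ²/2 - (5-β)κ + 5 ≤ A₅ + 6/10⁶`.  Also `|A₃-A₂|, |A₄-A₃| ≤ 7/16`.  Hence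
(a) `gg 0 β y κ ≤ Aff i β y + 1/4000` if `|κ - i| ≤ w`; (b) `gg 0 β y κ ≤ Amax β y - 1/6000` on the gap;
(c) `MM 0 β y ≥ Aff i β y - 15/10⁶` (`baseL`, `le_MM`).  `gap` from (b),(c); `bd` from (a),(b),(c) (`MM_le`);
`hh` from (a) at `(β+a, y+b)`, (c) and `ALHyp.improve` with `τ = 0`, `e = 1/4000 + 15/10⁶`, `t = 1/32`.
-/

set_option autoImplicit false

open Filter Topology Set

namespace Crest.Agent.R149

namespace ALBase

theorem chord {β : ℝ} (hβ : β ∈ Icc (7 / 8 : ℝ) (9 / 8)) {A B : ℝ} (h1 : B - A ≤ 0) (h2 : 2 * B - A ≤ 6 * β)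
    (h3 : ∀ k : ℕ, 3 ≤ k → B * k - A ≤ β * k * (k - 1) + 5 * (k - 1)) (k : ℕ) (hk : 1 ≤ k) :
    B * k - A ≤ Fb β k := by
  obtain ⟨hl, hu⟩ := hβ
  unfold Fb
  rcases (by omega : k = 1 ∨ k = 2 ∨ 3 ≤ k) with rfl | rfl | hk3
  · simp only [Nat.cast_one, sub_self, mul_zero, add_zero, min_self, mul_one]
    exact h1
  · refine le_min ?_ ?_ <;> push_cast <;> linarith
  · have h4 := h3 k hk3
    have hk' : (3 : ℝ) ≤ k := by exact_mod_cast hk3
    refine le_min (h4.trans ?_) h4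
    have : 0 ≤ (2 * β * k - 5) * (k - 1) := mul_nonneg (by nlinarith) (by linarith)
    nlinarith

theorem int_quad (k j : ℕ) : (0 : ℝ) ≤ ((k : ℝ) - j) * (k - j - 1) := by
  rcases le_or_gt k j with h | h
  · have : (k : ℝ) ≤ j := by exact_mod_cast h
    exact mul_nonneg_of_nonpos_of_nonpos (by linarith) (by linarith)
  · have : (j : ℝ) + 1 ≤ k := by exact_mod_cast h
    exact mul_nonneg (by linarith) (by linarith)

variable {σ : ℕ → ℝ → ℝ → ℝ} {σI : ℝ → ℝ → ℝ} {T δ : ℕ → ℝ}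

theorem gg_le (h : ALHyp σ σI T δ) {β : ℝ} (hβ : β ∈ Icc (7 / 8 : ℝ) (9 / 8)) (y : ℝ) {A B : ℝ} (hA : 0 ≤ A)
    (h1 : B - A ≤ 0) (h2 : 2 * B - A ≤ 6 * β)
    (h3 : ∀ k : ℕ, 3 ≤ k → B * k - A ≤ β * k * (k - 1) + 5 * (k - 1)) {κ : ℝ} (hκ : 0 ≤ κ) :
    gg σ T 0 β y κ ≤ (1 + κ) / 10 ^ 6 + y * κ + A - B * κ + β * κ ^ 2 / 2 := by
  have := h.baseU β hβ A B hA (chord hβ h1 h2 h3) κ hκ
  unfold gg
  rw [h.T0]
  linarith

theorem u0 (h : ALHyp σ σI T δ) {β : ℝ} (hβ : β ∈ Icc (7 / 8 : ℝ) (9 / 8)) (y : ℝ) {κ : ℝ} (hκ : 0 ≤ κ) :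
    gg σ T 0 β y κ ≤ (1 + κ) / 10 ^ 6 + y * κ + β * κ ^ 2 / 2 := by
  have := gg_le h hβ y (A := 0) (B := 0) le_rfl (by simp) (by linarith [hβ.1]) (fun k hk => by
    have hk' : (3 : ℝ) ≤ k := by exact_mod_cast hk
    have : 0 ≤ β * k * (k - 1) := mul_nonneg (mul_nonneg (by linarith [hβ.1]) (by linarith)) (by linarith)
    linarith) hκ
  linarith

theorem u1 (h : ALHyp σ σI T δ) {β : ℝ} (hβ : β ∈ Icc (7 / 8 : ℝ) (9 / 8)) (y : ℝ) {κ : ℝ} (hκ : 0 ≤ κ) :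
    gg σ T 0 β y κ ≤ (1 + κ) / 10 ^ 6 + y * κ + 6 * β - 6 * β * κ + β * κ ^ 2 / 2 :=
  gg_le h hβ y (by linarith [hβ.1]) (by simp) (by linarith) (fun k hk => by
    have hk' : (3 : ℝ) ≤ k := by exact_mod_cast hk
    have : 0 ≤ (β * k + 5 - 6 * β) * (k - 1) :=
      mul_nonneg (by nlinarith [hβ.1, hβ.2]) (by linarith)
    nlinarith) hκ

theorem u2 (h : ALHyp σ σI T δ) {β : ℝ} (hβ : β ∈ Icc (7 / 8 : ℝ) (9 / 8)) (y : ℝ) {κ : ℝ} (hκ : 0 ≤ κ) :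
    gg σ T 0 β y κ ≤ (1 + κ) / 10 ^ 6 + y * κ + (20 - 6 * β) - 10 * κ + β * κ ^ 2 / 2 :=
  gg_le h hβ y (by linarith [hβ.2]) (by linarith [hβ.2]) (by linarith) (fun k hk => by
    rcases hk.eq_or_lt with rfl | hk4
    · push_cast; linarith
    · have hk' : (4 : ℝ) ≤ k := by exact_mod_cast hk4
      have : 0 ≤ (β * (k + 2) - 5) * (k - 3) :=
        mul_nonneg (by nlinarith [hβ.1, hβ.2]) (by linarith)
      nlinarith) hκ

theorem u3 (h : ALHyp σ σI T δ) {β : ℝ} (hβ : β ∈ Icc (7 / 8 : ℝ) (9 / 8)) (y : ℝ) {κ : ℝ} (hκ : 0 ≤ κ) :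
    gg σ T 0 β y κ ≤ (1 + κ) / 10 ^ 6 + y * κ + (12 * β + 5) - (6 * β + 5) * κ + β * κ ^ 2 / 2 :=
  gg_le h hβ y (by linarith [hβ.1]) (by linarith [hβ.1]) (by linarith [hβ.1]) (fun k _ => by
    have := mul_nonneg (show 0 ≤ β by linarith [hβ.1]) (int_quad k 3)
    push_cast at this
    nlinarith) hκ

theorem u4 (h : ALHyp σ σI T δ) {β : ℝ} (hβ : β ∈ Icc (7 / 8 : ℝ) (9 / 8)) (y : ℝ) {κ : ℝ} (hκ : 0 ≤ κ) :
    gg σ T 0 β y κ ≤ (1 + κ) / 10 ^ 6 + y * κ + (20 * β + 5) - (8 * β + 5) * κ + β * κ ^ 2 / 2 :=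
  gg_le h hβ y (by linarith [hβ.1]) (by linarith [hβ.1]) (by linarith [hβ.1]) (fun k _ => by
    have := mul_nonneg (show 0 ≤ β by linarith [hβ.1]) (int_quad k 4)
    push_cast at this
    nlinarith) hκ

theorem u5 (h : ALHyp σ σI T δ) {β : ℝ} (hβ : β ∈ Icc (7 / 8 : ℝ) (9 / 8)) (y : ℝ) {κ : ℝ} (hκ : 5 ≤ κ) :
    gg σ T 0 β y κ ≤ (1 + κ) / 10 ^ 6 + y * κ + (β * κ ^ 2 + 5) - (2 * β * κ + 5 - β) * κ + β * κ ^ 2 / 2 := by
  have hβ0 : 0 ≤ β := by linarith [hβ.1]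
  refine gg_le h hβ y (by positivity) ?_ ?_ (fun k _ => ?_) (by linarith)
  · have := mul_nonneg hβ0 (sq_nonneg (κ - 1))
    nlinarith
  · have := mul_nonneg hβ0 (show 0 ≤ κ ^ 2 - 4 * κ - 5 by nlinarith)
    nlinarith [hβ.1]
  · have := mul_nonneg hβ0 (sq_nonneg ((k : ℝ) - κ))
    nlinarith

theorem aff2 (β y : ℝ) : Aff 2 β y = 2 * y - 4 * β := by
  simp only [Aff, vb]; norm_num; ring
theorem aff3 (β y : ℝ) : Aff 3 β y = 3 * y - 3 * β / 2 - 10 := by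
  simp only [Aff, vb]; norm_num; ring
theorem aff4 (β y : ℝ) : Aff 4 β y = 4 * y - 4 * β - 15 := by
  simp only [Aff, vb]; norm_num; ring

/-- (a) -/
theorem near (h : ALHyp σ σI T δ) {β y : ℝ} (hβ : |β - 1| ≤ 1 / 8) (hy : |y - 15 / 2| ≤ 1 / 8) {i : ℕ}
    (hi : i ∈ ({2, 3, 4} : Finset ℕ)) {κ : ℝ} (hκ : |κ - i| ≤ 1 / 2000) :
    gg σ T 0 β y κ ≤ Aff i β y + 1 / 4000 := by
  obtain ⟨b1, b2⟩ := abs_le.1 hβ
  obtain ⟨y1, y2⟩ := abs_le.1 hy
  obtain ⟨k1, k2⟩ := abs_le.1 hκ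
  have hβ' : β ∈ Icc (7 / 8 : ℝ) (9 / 8) := ⟨by linarith, by linarith⟩
  have hβ0 : 0 ≤ β := by linarith
  simp only [Finset.mem_insert, Finset.mem_singleton] at hi
  rcases hi with rfl | rfl | rfl <;> push_cast at k1 k2
  · rw [aff2]
    rcases le_total κ 2 with hk | hk
    · have := u1 h hβ' y (κ := κ) (by linarith)
      have e1 := mul_nonneg hβ0 (mul_nonneg (show 0 ≤ κ - 1 by linarith) (show 0 ≤ 2 - κ by linarith))
      have e2 := mul_nonneg (show 0 ≤ y - 9 * β / 2 by linarith) (show 0 ≤ 2 - κ by linarith)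
      nlinarith
    · have := u2 h hβ' y (κ := κ) (by linarith)
      have e1 := mul_nonneg hβ0 (mul_nonneg (show 0 ≤ κ - 2 by linarith) (show 0 ≤ 3 - κ by linarith))
      have e2 := mul_nonneg (show 0 ≤ 7 / 16 - (y + 5 * β / 2 - 10) by linarith) (show 0 ≤ κ - 2 by linarith)
      nlinarith
  · rw [aff3]
    rcases le_total κ 3 with hk | hk
    · have := u2 h hβ' y (κ := κ) (by linarith)
      have e1 := mul_nonneg hβ0 (mul_nonneg (show 0 ≤ κ - 2 by linarith) (show 0 ≤ 3 - κ by linarith))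
      have e2 := mul_nonneg (show 0 ≤ 7 / 16 + (y + 5 * β / 2 - 10) by linarith) (show 0 ≤ 3 - κ by linarith)
      nlinarith
    · have := u3 h hβ' y (κ := κ) (by linarith)
      have e1 := mul_nonneg hβ0 (mul_nonneg (show 0 ≤ κ - 3 by linarith) (show 0 ≤ 4 - κ by linarith))
      have e2 := mul_nonneg (show 0 ≤ 7 / 16 - (y - 5 * β / 2 - 5) by linarith) (show 0 ≤ κ - 3 by linarith)
      nlinarith
  · rw [aff4]
    rcases le_total κ 4 with hk | hk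
    · have := u3 h hβ' y (κ := κ) (by linarith)
      have e1 := mul_nonneg hβ0 (mul_nonneg (show 0 ≤ κ - 3 by linarith) (show 0 ≤ 4 - κ by linarith))
      have e2 := mul_nonneg (show 0 ≤ 7 / 16 + (y - 5 * β / 2 - 5) by linarith) (show 0 ≤ 4 - κ by linarith)
      nlinarith
    · have := u4 h hβ' y (κ := κ) (by linarith)
      have e1 := mul_nonneg hβ0 (mul_nonneg (show 0 ≤ κ - 4 by linarith) (show 0 ≤ 5 - κ by linarith))
      have e2 := mul_nonneg (show 0 ≤ - (y - 7 * β / 2 - 5) by linarith) (show 0 ≤ κ - 4 by linarith)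
      nlinarith

theorem le_Amax {i : ℕ} (hi : i ∈ ({2, 3, 4} : Finset ℕ)) (β y : ℝ) : Aff i β y ≤ Amax β y := by
  simp only [Finset.mem_insert, Finset.mem_singleton] at hi
  unfold Amax
  rcases hi with rfl | rfl | rfl
  · exact le_max_left _ _
  · exact le_max_of_le_right (le_max_left _ _)
  · exact le_max_of_le_right (le_max_right _ _)

/-- (b) -/
theorem far (h : ALHyp σ σI T δ) {β y : ℝ} (hβ : |β - 1| ≤ 1 / 8) (hy : |y - 15 / 2| ≤ 1 / 8) {κ : ℝ}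
    (hκ : 0 ≤ κ) (hfar : ∀ i ∈ ({2, 3, 4} : Finset ℕ), 1 / 2000 < |κ - i|) :
    gg σ T 0 β y κ ≤ Amax β y - 1 / 6000 := by
  obtain ⟨b1, b2⟩ := abs_le.1 hβ
  obtain ⟨y1, y2⟩ := abs_le.1 hy
  have hβ' : β ∈ Icc (7 / 8 : ℝ) (9 / 8) := ⟨by linarith, by linarith⟩
  have hβ0 : 0 ≤ β := by linarith
  have f2 := lt_abs.1 (hfar 2 (by simp))
  have f3 := lt_abs.1 (hfar 3 (by simp))
  have f4 := lt_abs.1 (hfar 4 (by simp))
  push_cast at f2 f3 f4
  have a2 := le_Amax (i := 2) (by simp) β y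
  have a3 := le_Amax (i := 3) (by simp) β y
  have a4 := le_Amax (i := 4) (by simp) β y
  rw [aff2] at a2
  rw [aff3] at a3
  rw [aff4] at a4
  set M := Amax β y
  rcases le_total κ 1 with k1 | k1
  · have := u0 h hβ' y hκ
    have e1 := mul_nonneg hβ0 (mul_nonneg hκ (show 0 ≤ 1 - κ by linarith))
    have e2 := mul_nonneg (show 0 ≤ y + β / 2 by linarith) (show 0 ≤ 1 - κ by linarith)
    nlinarith
  rcases le_total κ 2 with k2 | k2
  · have k2' : κ ≤ 2 - 1 / 2000 := by rcases f2 with f | f <;> linarith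
    have := u1 h hβ' y hκ
    have e1 := mul_nonneg hβ0 (mul_nonneg (show 0 ≤ κ - 1 by linarith) (show 0 ≤ 2 - κ by linarith))
    have e2 := mul_nonneg (show 0 ≤ y - 9 * β / 2 - 2 by linarith) (show 0 ≤ 2 - κ by linarith)
    nlinarith
  have k2' : 2 + 1 / 2000 ≤ κ := by rcases f2 with f | f <;> linarith
  rcases le_total κ 3 with k3 | k3
  · have k3' : κ ≤ 3 - 1 / 2000 := by rcases f3 with f | f <;> linarith
    have := u2 h hβ' y hκ
    have e0 : 1999 / 4000000 ≤ (κ - 2) * (3 - κ) := by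
      nlinarith [mul_nonneg (sub_nonneg.2 k2') (sub_nonneg.2 k3')]
    have e1 := mul_le_mul (show 7 / 8 ≤ β by linarith) e0 (by norm_num) hβ0
    have e2 := mul_nonneg (sub_nonneg.2 a2) (show 0 ≤ 3 - κ by linarith)
    have e3 := mul_nonneg (sub_nonneg.2 a3) (show 0 ≤ κ - 2 by linarith)
    nlinarith
  have k3' : 3 + 1 / 2000 ≤ κ := by rcases f3 with f | f <;> linarith
  rcases le_total κ 4 with k4 | k4
  · have k4' : κ ≤ 4 - 1 / 2000 := by rcases f4 with f | f <;> linarith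
    have := u3 h hβ' y hκ
    have e0 : 1999 / 4000000 ≤ (κ - 3) * (4 - κ) := by
      nlinarith [mul_nonneg (sub_nonneg.2 k3') (sub_nonneg.2 k4')]
    have e1 := mul_le_mul (show 7 / 8 ≤ β by linarith) e0 (by norm_num) hβ0
    have e2 := mul_nonneg (sub_nonneg.2 a3) (show 0 ≤ 4 - κ by linarith)
    have e3 := mul_nonneg (sub_nonneg.2 a4) (show 0 ≤ κ - 3 by linarith)
    nlinarith
  have k4' : 4 + 1 / 2000 ≤ κ := by rcases f4 with f | f <;> linarith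
  rcases le_total κ 5 with k5 | k5
  · have := u4 h hβ' y hκ
    have e1 := mul_nonneg hβ0 (mul_nonneg (show 0 ≤ κ - 4 by linarith) (show 0 ≤ 5 - κ by linarith))
    have e2 := mul_nonneg (show 0 ≤ - (y - 7 * β / 2 - 5) - 2 / 5 by linarith) (show 0 ≤ κ - 4 by linarith)
    nlinarith
  · have := u5 h hβ' y k5
    have e1 := mul_nonneg hβ0 (sq_nonneg (κ - 5))
    have e2 := mul_nonneg (show 0 ≤ 4 * β + 5 - y - 1 / 2 by linarith) (show 0 ≤ κ - 5 by linarith)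
    nlinarith

/-- (c) -/
theorem low (h : ALHyp σ σI T δ) {β y : ℝ} (hβ : |β - 1| ≤ 1 / 8) (hy : |y - 15 / 2| ≤ 1 / 8) {i : ℕ}
    (hi : i ∈ ({2, 3, 4} : Finset ℕ)) : Aff i β y - 15 / 10 ^ 6 ≤ MM σ T 0 β y := by
  obtain ⟨b1, b2⟩ := abs_le.1 hβ
  obtain ⟨y1, y2⟩ := abs_le.1 hy
  have hβ' : β ∈ Icc (7 / 8 : ℝ) (9 / 8) := ⟨by linarith, by linarith⟩
  have hβ0 : 0 ≤ β := by linarith
  obtain ⟨κ, hκ, hσ⟩ := h.baseL i hi
  have h1 := hσ β hβ'
  obtain ⟨k1, k2⟩ := abs_le.1 hκ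
  have hF : Fb β i ≤ 3 * β * i * (i - 1) := min_le_left _ _
  have hF' : Fb β i ≤ β * i * (i - 1) + 5 * (i - 1) := min_le_right _ _
  have hi2 : (2 : ℝ) ≤ i ∧ (i : ℝ) ≤ 4 := by
    simp only [Finset.mem_insert, Finset.mem_singleton] at hi
    rcases hi with rfl | rfl | rfl <;> norm_num
  refine le_trans ?_ (h.le_MM 0 hβ' y (κ := κ) (by linarith [hi2.1]))
  unfold gg
  rw [h.T0]
  have e1 := mul_nonneg hβ0 (sq_nonneg (κ - i))
  have e2 := mul_nonneg (show 0 ≤ y + β * i by nlinarith [hi2.1]) (show 0 ≤ κ - i + 1 / 10 ^ 6 by linarith)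
  have e3 : β * i ≤ 9 / 2 := by nlinarith [hi2.1, hi2.2]
  have e4 : Aff i β y ≤ y * i - Fb β i + β * i ^ 2 / 2 := by
    simp only [Finset.mem_insert, Finset.mem_singleton] at hi
    rcases hi with rfl | rfl | rfl
    · rw [aff2]; push_cast at hF ⊢; linarith
    · rw [aff3]; push_cast at hF' ⊢; linarith
    · rw [aff4]; push_cast at hF' ⊢; linarith
  nlinarith

theorem low' (h : ALHyp σ σI T δ) {β y : ℝ} (hβ : |β - 1| ≤ 1 / 8) (hy : |y - 15 / 2| ≤ 1 / 8) :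
    Amax β y - 15 / 10 ^ 6 ≤ MM σ T 0 β y := by
  have a2 := low h hβ hy (i := 2) (by simp)
  have a3 := low h hβ hy (i := 3) (by simp)
  have a4 := low h hβ hy (i := 4) (by simp)
  have : Amax β y ≤ MM σ T 0 β y + 15 / 10 ^ 6 :=
    max_le (by linarith) (max_le (by linarith) (by linarith))
  linarith

end ALBase

theorem ALHyp.inv_zero {σ : ℕ → ℝ → ℝ → ℝ} {σI : ℝ → ℝ → ℝ} {T δ : ℕ → ℝ} (h : ALHyp σ σI T δ) :
    Inv σ T 0 := by
  have hw : wk 0 = 1 / 2000 := by norm_num [wk]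
  have hg : gam T 0 = 1 / 32000000 := by simp [gam, h.T0]
  have ht : tk T 0 = 1 / 32 := by simp [tk]
  have hr : rk 0 = 3 / 32 := by norm_num [rk]
  have hτ : tauk 0 = 1 / 10 := by norm_num [tauk]
  refine ⟨fun β y hβ hy κ hκ hfar => ?_, fun β y hβ hy i hi κ hκ a b ha hb => ?_, fun β y hβ hy => ?_⟩
  · rw [hr] at hβ hy
    rw [hw] at hfar
    have h1 := ALBase.far h (hβ.trans (by norm_num)) (hy.trans (by norm_num)) hκ hfar
    have h2 := ALBase.low' h (hβ.trans (by norm_num)) (hy.trans (by norm_num))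
    rw [hg]
    linarith
  · rw [hr] at hβ hy
    rw [hw] at hκ
    rw [ht] at ha hb
    obtain ⟨b1, b2⟩ := abs_le.1 hβ
    obtain ⟨y1, y2⟩ := abs_le.1 hy
    have hκ0 : 0 ≤ κ := by
      have h1 := (abs_le.1 hκ).1
      have : (2 : ℝ) ≤ i := by
        simp only [Finset.mem_insert, Finset.mem_singleton] at hi
        rcases hi with rfl | rfl | rfl <;> norm_num
      linarith
    have hβ' : β ∈ Icc (7 / 8 : ℝ) (9 / 8) := ⟨by linarith, by linarith⟩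
    have h2 := ALBase.low h (hβ.trans (by norm_num)) (hy.trans (by norm_num)) hi
    have h3 := h.improve 0 hκ0 (β := β) (y := y) (m := MM σ T 0 β y) (e := 1 / 4000 + 15 / 10 ^ 6) (p := vb i)
      (q := i) (τ := 0) (t := 1 / 32) (by norm_num) (by linarith) (h.le_MM 0 hβ' y hκ0) (fun a b ha hb => by
        obtain ⟨a1, a2⟩ := abs_le.1 ha
        obtain ⟨c1, c2⟩ := abs_le.1 hb
        have h4 := ALBase.near h (β := β + a) (y := y + b) (abs_le.2 ⟨by linarith, by linarith⟩)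
          (abs_le.2 ⟨by linarith, by linarith⟩) hi hκ
        have h5 : Aff i (β + a) (y + b) = Aff i β y + vb i * a + i * b := by
          unfold Aff; ring
        linarith) ha hb
    have hn : 0 ≤ max |a| |b| := le_max_of_le_left (abs_nonneg a)
    rw [hτ]
    nlinarith
  · have h2 := ALBase.low' h hβ hy
    have h1 : MM σ T 0 β y ≤ Amax β y + 1 / 4000 := by
      refine MM_le 0 β y fun κ hκ => ?_
      by_cases hfar : ∀ i ∈ ({2, 3, 4} : Finset ℕ), 1 / 2000 < |κ - i|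
      · linarith [ALBase.far h hβ hy hκ hfar]
      · push Not at hfar
        obtain ⟨i, hi, hκi⟩ := hfar
        linarith [ALBase.near h hβ hy hi hκi, ALBase.le_Amax hi β y]
    rw [abs_le]
    constructor <;> norm_num <;> linarith

end Crest.Agent.R149
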