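import Crest.Agent.R149.Defs

/-!
# Row 149, abstract lemma (pure real analysis): definitions

Points are `x = (β, y)`, `c0 = (1, 15/2)`, sup norm.  `gg k β y κ = y κ + σ k β κ + β T k κ²/2`, `MM k β y = sup_{κ ≥ 0} gg k β y κ`
(finite for `β ∈ [7/8, 9/8]` by `crude`, `≥ 0` by `zero`).
Affine functions `Aff 2 = 2y - 4β`, `Aff 3 = 3y - 3β/2 - 10`, `Aff 4 = 4y - 4β - 15` (all `= 11` at `c0`), with gradients `(vb i, i)`.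
-/

set_option autoImplicit false

open Filter Topology Set

namespace Crest.Agent.R149

structure ALHyp (σ : ℕ → ℝ → ℝ → ℝ) (σI : ℝ → ℝ → ℝ) (T δ : ℕ → ℝ) : Prop where
  T0 : T 0 = 1
  Tpos : ∀ k, 0 < T k
  Tanti : ∀ k, T (k + 1) ≤ T k
  Tlim : Tendsto T atTop (𝓝 0)
  δnn : ∀ k, 0 ≤ δ k
  δle : ∀ k, δ k ≤ T (k + 1) / (10 ^ 12 * 8 ^ k)
  cvx : ∀ k κ, 0 ≤ κ → ConvexOn ℝ (Ioi 0) (fun β => σ k β κ)
  zero : ∀ k β, σ k β 0 = 0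
  crude : ∀ k, ∀ β ∈ Icc (7 / 8 : ℝ) (9 / 8), ∀ κ, 0 ≤ κ →
    σ k β κ + β * T k * κ ^ 2 / 2 ≤ 2 * (1 + κ) - κ ^ 2 / 8
  crudeI : ∀ β ∈ Icc (7 / 8 : ℝ) (9 / 8), ∀ κ, 0 ≤ κ → σI β κ ≤ 2 * (1 + κ) - κ ^ 2 / 8
  lp : ∀ k, ∀ β ∈ Icc (7 / 8 : ℝ) (9 / 8), ∀ A B : ℝ, A ≤ 4000 → |B| ≤ 100 →
    (∀ κ, 0 ≤ κ → σ k β κ + β * (T k - T (k + 1)) * κ ^ 2 / 2 ≤ A + B * κ) →
    ∀ κ ∈ Icc (0 : ℝ) 80, σ (k + 1) β κ ≤ A + B * κ + δ k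
  up : ∀ k, ∀ β ∈ Icc (7 / 8 : ℝ) (9 / 8), ∀ κ ∈ Icc (0 : ℝ) 80,
    σ k β κ + β * (T k - T (k + 1)) * κ ^ 2 / 2 - δ k ≤ σ (k + 1) β κ
  baseU : ∀ β ∈ Icc (7 / 8 : ℝ) (9 / 8), ∀ A B : ℝ, 0 ≤ A →
    (∀ k : ℕ, 1 ≤ k → B * k - A ≤ Fb β k) → ∀ κ, 0 ≤ κ → σ 0 β κ ≤ (1 + κ) / 10 ^ 6 + A - B * κ
  baseL : ∀ i ∈ ({2, 3, 4} : Finset ℕ), ∃ κ : ℝ, |κ - i| ≤ 1 / 10 ^ 6 ∧
    ∀ β ∈ Icc (7 / 8 : ℝ) (9 / 8), -Fb β i - 1 / 10 ^ 6 ≤ σ 0 β κ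
  lim : ∀ β ∈ Icc (7 / 8 : ℝ) (9 / 8), ∀ K ε : ℝ, 0 < ε →
    ∀ᶠ k in atTop, ∀ κ ∈ Icc (0 : ℝ) K, |σ k β κ - σI β κ| ≤ ε
  ccv : ∀ β ∈ Icc (7 / 8 : ℝ) (9 / 8), ConcaveOn ℝ (Ici 0) (σI β)

noncomputable def gg (σ : ℕ → ℝ → ℝ → ℝ) (T : ℕ → ℝ) (k : ℕ) (β y κ : ℝ) : ℝ :=
  y * κ + σ k β κ + β * T k * κ ^ 2 / 2

noncomputable def MM (σ : ℕ → ℝ → ℝ → ℝ) (T : ℕ → ℝ) (k : ℕ) (β y : ℝ) : ℝ :=
  sSup (gg σ T k β y '' Ici 0)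

/-- β-component of the gradient of `Aff i` -/
noncomputable def vb (i : ℕ) : ℝ := if i = 3 then -3 / 2 else -4

noncomputable def Aff (i : ℕ) (β y : ℝ) : ℝ := 11 + vb i * (β - 1) + i * (y - 15 / 2)

noncomputable def Amax (β y : ℝ) : ℝ := max (Aff 2 β y) (max (Aff 3 β y) (Aff 4 β y))

noncomputable def wk (k : ℕ) : ℝ := (2 - 1 / 2 ^ k) / 2000
noncomputable def gam (T : ℕ → ℝ) (k : ℕ) : ℝ := T k / (32000000 * 4 ^ k)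
noncomputable def tk (T : ℕ → ℝ) (k : ℕ) : ℝ := if k = 0 then 1 / 32 else gam T k / 17
noncomputable def rk (k : ℕ) : ℝ := 1 / 16 + 1 / (32 * 2 ^ k)
noncomputable def tauk (k : ℕ) : ℝ := 1 / 5 - 1 / (10 * 2 ^ k)

/-- the invariants at level `k` -/
structure Inv (σ : ℕ → ℝ → ℝ → ℝ) (T : ℕ → ℝ) (k : ℕ) : Prop where
  gap : ∀ β y : ℝ, |β - 1| ≤ rk k → |y - 15 / 2| ≤ rk k → ∀ κ : ℝ, 0 ≤ κ →
    (∀ i ∈ ({2, 3, 4} : Finset ℕ), wk k < |κ - i|) → gg σ T k β y κ ≤ MM σ T k β y - gam T k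
  hh : ∀ β y : ℝ, |β - 1| ≤ rk k → |y - 15 / 2| ≤ rk k → ∀ i ∈ ({2, 3, 4} : Finset ℕ), ∀ κ : ℝ,
    |κ - i| ≤ wk k → ∀ a b : ℝ, |a| ≤ tk T k → |b| ≤ tk T k →
      gg σ T k (β + a) (y + b) κ ≤ MM σ T k β y + vb i * a + i * b + tauk k * max |a| |b|
  bd : ∀ β y : ℝ, |β - 1| ≤ 1 / 8 → |y - 15 / 2| ≤ 1 / 8 →
    |MM σ T k β y - Amax β y| ≤ 1 / 500 - 1 / (1000 * 2 ^ k)

variable {σ : ℕ → ℝ → ℝ → ℝ} {σI : ℝ → ℝ → ℝ} {T δ : ℕ → ℝ}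

theorem ALHyp.gg_crude (h : ALHyp σ σI T δ) (k : ℕ) {β : ℝ} (hβ : β ∈ Icc (7 / 8 : ℝ) (9 / 8)) (y : ℝ)
    {κ : ℝ} (hκ : 0 ≤ κ) : gg σ T k β y κ ≤ 2 + (y + 2) * κ - κ ^ 2 / 8 := by
  have := h.crude k β hβ κ hκ
  unfold gg; linarith

theorem ALHyp.bddAbove (h : ALHyp σ σI T δ) (k : ℕ) {β : ℝ} (hβ : β ∈ Icc (7 / 8 : ℝ) (9 / 8)) (y : ℝ) :
    BddAbove (gg σ T k β y '' Ici 0) := by
  refine ⟨2 + 2 * (y + 2) ^ 2, ?_⟩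
  rintro _ ⟨κ, hκ, rfl⟩
  have := h.gg_crude k hβ y hκ
  nlinarith [sq_nonneg (κ - 4 * (y + 2))]

theorem ALHyp.le_MM (h : ALHyp σ σI T δ) (k : ℕ) {β : ℝ} (hβ : β ∈ Icc (7 / 8 : ℝ) (9 / 8)) (y : ℝ)
    {κ : ℝ} (hκ : 0 ≤ κ) : gg σ T k β y κ ≤ MM σ T k β y :=
  le_csSup (h.bddAbove k hβ y) ⟨κ, hκ, rfl⟩

theorem MM_le (k : ℕ) (β y : ℝ) {m : ℝ} (hm : ∀ κ, 0 ≤ κ → gg σ T k β y κ ≤ m) : MM σ T k β y ≤ m :=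
  csSup_le ⟨_, 0, Set.mem_Ici.2 le_rfl, rfl⟩ (by rintro _ ⟨κ, hκ, rfl⟩; exact hm κ hκ)

theorem ALHyp.MM_nonneg (h : ALHyp σ σI T δ) (k : ℕ) {β : ℝ} (hβ : β ∈ Icc (7 / 8 : ℝ) (9 / 8)) (y : ℝ) :
    0 ≤ MM σ T k β y := by
  have := h.le_MM k hβ y (le_refl 0)
  simpa [gg, h.zero] using this

/-- joint convexity of `gg` in `(β, y)` -/
theorem ALHyp.gg_cvx (h : ALHyp σ σI T δ) (k : ℕ) {κ : ℝ} (hκ : 0 ≤ κ) {β β' y y' s : ℝ} (hβ : 0 < β)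
    (hβ' : 0 < β') (h0 : 0 ≤ s) (h1 : s ≤ 1) :
    gg σ T k ((1 - s) * β + s * β') ((1 - s) * y + s * y') κ ≤
      (1 - s) * gg σ T k β y κ + s * gg σ T k β' y' κ := by
  have := (h.cvx k κ hκ).2 (mem_Ioi.2 hβ) (mem_Ioi.2 hβ') (sub_nonneg.2 h1) h0 (by ring)
  simp only [smul_eq_mul] at this
  unfold gg
  nlinarith

/-- the improvement trick -/
theorem ALHyp.improve (h : ALHyp σ σI T δ) (k : ℕ) {κ : ℝ} (hκ : 0 ≤ κ) {β y m e p q τ t : ℝ}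
    (ht : 0 < t) (htβ : t < β) (hm : gg σ T k β y κ ≤ m)
    (hd : ∀ a b : ℝ, |a| ≤ t → |b| ≤ t → gg σ T k (β + a) (y + b) κ ≤ m + e + p * a + q * b + τ * max |a| |b|)
    {a b : ℝ} (ha : |a| ≤ t) (hb : |b| ≤ t) :
    gg σ T k (β + a) (y + b) κ ≤ m + p * a + q * b + (τ + e / t) * max |a| |b| := by
  set n := max |a| |b| with hn
  have hn0 : 0 ≤ n := le_max_of_le_left (abs_nonneg a)
  rcases hn0.eq_or_lt with h0 | hpos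
  · have ha0 : a = 0 := abs_nonpos_iff.1 ((le_max_left _ _).trans h0.ge)
    have hb0 : b = 0 := abs_nonpos_iff.1 ((le_max_right _ _).trans h0.ge)
    rw [← h0, ha0, hb0]; simpa using hm
  have hnt : n ≤ t := max_le ha hb
  set s := n / t with hs
  have hs0 : 0 < s := div_pos hpos ht
  have hs1 : s ≤ 1 := (div_le_one ht).2 hnt
  have e1 : |a / s| = |a| / s := by rw [abs_div, abs_of_pos hs0]
  have e2 : |b / s| = |b| / s := by rw [abs_div, abs_of_pos hs0]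
  have e3 : n / s = t := by rw [hs]; field_simp
  have hmax : max |a / s| |b / s| = t := by
    rw [e1, e2, max_div_div_right hs0.le, ← hn, e3]
  have ha' : |a / s| ≤ t := hmax ▸ le_max_left _ _
  have hb' : |b / s| ≤ t := hmax ▸ le_max_right _ _
  have h1 := hd _ _ ha' hb'
  rw [hmax] at h1
  have h2 := h.gg_cvx k hκ (β := β) (β' := β + a / s) (y := y) (y' := y + b / s) (s := s) (by linarith)
    (by linarith [(abs_le.1 ha').1]) hs0.le hs1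
  have e4 : (1 - s) * β + s * (β + a / s) = β + a := by field_simp; ring
  have e5 : (1 - s) * y + s * (y + b / s) = y + b := by field_simp; ring
  rw [e4, e5] at h2
  have e6 : s * (m + e + p * (a / s) + q * (b / s) + τ * t) = s * m + p * a + q * b + (τ + e / t) * n := by
    rw [hs]; field_simp; ring
  have h3 := mul_le_mul_of_nonneg_left h1 hs0.le
  have h4 := mul_le_mul_of_nonneg_left hm (sub_nonneg.2 hs1)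
  linarith

end Crest.Agent.R149
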