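import Crest.Agent.R149.ALDefs

/-!
# Row 149, task R149-ALStep: the inductive step

`T k ≤ 1` (T0, Tanti).  Let `T' = T (k+1)`.
(1) `lp` in g-form: for `|β'-1|, |y'-15/2| ≤ 1/8`, `κ* ∈ [0,80]`, `Λ ≤ 20`: if `∀ κ ≥ 0, gg k β' y' κ - β' T' (κ-κ*)²/2 ≤ Λ` then
`gg (k+1) β' y' κ* ≤ Λ + δ k` (take `A = Λ + β' T' κ*²/2 ≤ 4000`, `B = -y' - β' T' κ*`).  For `κ* ≥ 80`, `gg_crude` gives `gg ≤ 0` (any level).
(2) So `|MM (k+1) - MM k| ≤ δ k` on the 1/8-ball (`MM k ≤ 13`, `≥ 10` by `bd`; `up` gives `gg (k+1) ≥ gg k - δ k` for κ ≤ 80); this gives `bd` (`δ k ≤ 10⁻¹² 8^{-k}`).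
(3) `Inv.lip`: for κ near some `i` use `hh` (`|vb i| + i ≤ 8`, `tauk ≤ 1/5`), otherwise `gap` at the new point; so
`MM x' ≤ max (MM x + 9 n) (MM x' - gam)` and `gam > 0`.
(4) `gap`: for κ* in the gap of level `k+1` use (1) with `Λ = MM k x - 3 gam (k+1)`: if κ is in the gap of level `k`, `gam k ≥ 4 gam (k+1)`; otherwise
`|κ - κ*| ≥ wk (k+1) - wk k = 1/(4000·2^k)`, penalty `≥ (7/2) gam (k+1)`.  Then `2 δ k ≤ 2 gam (k+1)`.
(5) `hh`: for `|κ* - i| ≤ wk (k+1)`, `|a|,|b| ≤ tk (k+1) = gam (k+1)/17`, use (1) at `x' = x + d` with `Λ = MM k x + vb i a + i b + tauk k · n`: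
κ near `i`: `hh` of level `k` (`tk (k+1) ≤ tk k`); κ near `j ≠ i`: `hh` for `j`, `|κ-κ*| ≥ 1/2`, penalty `≥ T'/10 ≥ 4 tk (k+1)`; κ in the gap: `gap` at `x'`
(`rk (k+1) + tk (k+1) ≤ rk k`), `Inv.lip`, `17 n ≤ gam k`.  Then `ALHyp.improve` with `m = MM (k+1) x`, `e = 2 δ k`,
`2 δ k / tk (k+1) ≤ 34·128·10⁶·4^k/(10¹² 8^k) ≤ tauk (k+1) - tauk k = 1/(20·2^k)`.
-/

set_option autoImplicit false
set_option maxHeartbeats 800000

open Filter Topology Set

namespace Crest.Agent.R149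

variable {σ : ℕ → ℝ → ℝ → ℝ} {σI : ℝ → ℝ → ℝ} {T δ : ℕ → ℝ}

namespace StepAux

theorem two_pow_ge (k : ℕ) : (1 : ℝ) ≤ 2 ^ k := one_le_pow₀ (by norm_num)

theorem four_pow (k : ℕ) : (4 : ℝ) ^ k = (2 ^ k) ^ 2 := by
  rw [← pow_mul, mul_comm, pow_mul]; norm_num

theorem eight_pow (k : ℕ) : (8 : ℝ) ^ k = (2 ^ k) ^ 3 := by
  rw [← pow_mul, mul_comm, pow_mul]; norm_num

theorem T_le (h : ALHyp σ σI T δ) (k : ℕ) : T k ≤ 1 := by
  induction k with
  | zero => exact h.T0.le
  | succ k ih => exact (h.Tanti k).trans ih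

theorem rk_le (k : ℕ) : rk k ≤ 1 / 8 := by
  unfold rk
  have h1 := two_pow_ge k
  have : 1 / (32 * (2 : ℝ) ^ k) ≤ 1 / 32 := one_div_le_one_div_of_le (by norm_num) (by linarith)
  linarith

theorem wk_le (k : ℕ) : wk k ≤ 1 / 1000 := by
  unfold wk
  have : (0 : ℝ) ≤ 1 / 2 ^ k := by positivity
  linarith

theorem wk_succ (k : ℕ) : wk (k + 1) = wk k + 1 / (4000 * 2 ^ k) := by
  unfold wk
  rw [pow_succ]; field_simp; ring

theorem rk_succ (k : ℕ) : rk (k + 1) = rk k - 1 / (64 * 2 ^ k) := by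
  unfold rk
  rw [pow_succ]; field_simp; ring

theorem tauk_succ (k : ℕ) : tauk (k + 1) = tauk k + 1 / (20 * 2 ^ k) := by
  unfold tauk
  rw [pow_succ]; field_simp; ring

theorem tauk_le (k : ℕ) : tauk k ≤ 1 / 5 := by
  unfold tauk
  have : (0 : ℝ) ≤ 1 / (10 * 2 ^ k) := by positivity
  linarith

theorem tauk_nonneg (k : ℕ) : 0 ≤ tauk k := by
  unfold tauk
  have h1 := two_pow_ge k
  have : 1 / (10 * (2 : ℝ) ^ k) ≤ 1 / 10 := one_div_le_one_div_of_le (by norm_num) (by linarith)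
  linarith

theorem gam_pos (h : ALHyp σ σI T δ) (k : ℕ) : 0 < gam T k := by
  unfold gam
  have := h.Tpos k
  positivity

theorem gam_succ (T : ℕ → ℝ) (k : ℕ) : gam T (k + 1) = T (k + 1) / (128000000 * (2 ^ k) ^ 2) := by
  unfold gam
  rw [pow_succ, four_pow]; congr 1; ring

theorem gam_succ_le (h : ALHyp σ σI T δ) (k : ℕ) : 4 * gam T (k + 1) ≤ gam T k := by
  rw [gam_succ]
  unfold gam
  rw [four_pow]
  have h1 := h.Tanti k
  have e : 4 * (T (k + 1) / (128000000 * ((2 : ℝ) ^ k) ^ 2)) =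
      T (k + 1) / (32000000 * (2 ^ k) ^ 2) := by field_simp; ring
  rw [e]
  exact div_le_div_of_nonneg_right h1 (by positivity)

theorem gam_le_T (h : ALHyp σ σI T δ) (k : ℕ) :
    gam T (k + 1) ≤ T (k + 1) / (128000000 * 2 ^ k) := by
  rw [gam_succ]
  have h1 := two_pow_ge k
  exact div_le_div_of_nonneg_left (h.Tpos _).le (by positivity) (by nlinarith)

theorem δ_le (h : ALHyp σ σI T δ) (k : ℕ) : δ k ≤ gam T (k + 1) / (1000 * 2 ^ k) := by
  refine (h.δle k).trans ?_
  rw [gam_succ, eight_pow, div_div]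
  have h1 := two_pow_ge k
  refine div_le_div_of_nonneg_left (h.Tpos _).le (by positivity) ?_
  have : (0 : ℝ) < ((2 : ℝ) ^ k) ^ 3 := by positivity
  nlinarith

theorem δ_le_gam (h : ALHyp σ σI T δ) (k : ℕ) : δ k ≤ gam T (k + 1) := by
  refine (δ_le h k).trans (div_le_self (gam_pos h _).le ?_)
  linarith [two_pow_ge k]

theorem gam_small (h : ALHyp σ σI T δ) (k : ℕ) : gam T (k + 1) ≤ 1 / (128000000 * 2 ^ k) :=
  (gam_le_T h k).trans (div_le_div_of_nonneg_right (T_le h _) (by positivity))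

theorem mem_Icc_of {β : ℝ} (hβ : |β - 1| ≤ 1 / 8) : β ∈ Icc (7 / 8 : ℝ) (9 / 8) := by
  rw [abs_le] at hβ
  constructor <;> linarith [hβ.1, hβ.2]

theorem gg_nonpos (h : ALHyp σ σI T δ) (k : ℕ) {β y κ : ℝ} (hβ : |β - 1| ≤ 1 / 8)
    (hy : |y - 15 / 2| ≤ 1 / 8) (hκ : 80 ≤ κ) : gg σ T k β y κ ≤ 0 := by
  have := h.gg_crude k (mem_Icc_of hβ) y (by linarith : 0 ≤ κ)
  rw [abs_le] at hy
  nlinarith [hy.1, hy.2]

theorem lpg (h : ALHyp σ σI T δ) (k : ℕ) {β y κ₀ Λ : ℝ} (hβ : |β - 1| ≤ 1 / 8)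
    (hy : |y - 15 / 2| ≤ 1 / 8) (h0 : 0 ≤ κ₀) (h80 : κ₀ ≤ 80) (hΛ : Λ ≤ 20)
    (H : ∀ κ, 0 ≤ κ → gg σ T k β y κ - β * T (k + 1) * (κ - κ₀) ^ 2 / 2 ≤ Λ) :
    gg σ T (k + 1) β y κ₀ ≤ Λ + δ k := by
  have hb := mem_Icc_of hβ
  have hT0 := h.Tpos (k + 1)
  have hT1 := T_le h (k + 1)
  have hc0 : 0 ≤ β * T (k + 1) := mul_nonneg (by linarith [hb.1]) hT0.le
  have hc1 : β * T (k + 1) ≤ 9 / 8 := by nlinarith [hb.1, hb.2]
  have hd0 : 0 ≤ β * T (k + 1) * κ₀ := mul_nonneg hc0 h0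
  have hd1 : β * T (k + 1) * κ₀ ≤ 90 := by nlinarith
  rw [abs_le] at hy
  have := h.lp k β hb (Λ + β * T (k + 1) * κ₀ ^ 2 / 2) (-y - β * T (k + 1) * κ₀)
    (by nlinarith) (by rw [abs_le]; constructor <;> linarith [hy.1, hy.2])
    (fun κ hκ => by
      have := H κ hκ
      unfold gg at this
      nlinarith) κ₀ ⟨h0, h80⟩
  unfold gg
  nlinarith

theorem vb_bd (i : ℕ) : |vb i| ≤ 4 := by
  unfold vb
  split_ifs <;> norm_num [abs_le]

theorem lin_bd {i : ℕ} (hi : i ∈ ({2, 3, 4} : Finset ℕ)) (a b : ℝ) :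
    |vb i * a + i * b| ≤ 8 * max |a| |b| := by
  have h1 : (i : ℝ) ≤ 4 := by
    simp only [Finset.mem_insert, Finset.mem_singleton] at hi
    rcases hi with rfl | rfl | rfl <;> norm_num
  have h2 : |vb i * a| ≤ 4 * max |a| |b| := by
    rw [abs_mul]
    exact mul_le_mul (vb_bd i) (le_max_left _ _) (abs_nonneg _) (by norm_num)
  have h3 : |(i : ℝ) * b| ≤ 4 * max |a| |b| := by
    rw [abs_mul, Nat.abs_cast]
    exact mul_le_mul h1 (le_max_right _ _) (abs_nonneg _) (by norm_num)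
  linarith [abs_add_le (vb i * a) (i * b)]

theorem MM_bd {k : ℕ} (hI : Inv σ T k) {β y : ℝ} (hβ : |β - 1| ≤ 1 / 8)
    (hy : |y - 15 / 2| ≤ 1 / 8) : 10 ≤ MM σ T k β y ∧ MM σ T k β y ≤ 13 := by
  have h1 := hI.bd β y hβ hy
  have h2 : (0 : ℝ) ≤ 1 / (1000 * 2 ^ k) := by positivity
  have hA : ∀ i ∈ ({2, 3, 4} : Finset ℕ), |Aff i β y - 11| ≤ 1 := by
    intro i hi
    have := lin_bd hi (β - 1) (y - 15 / 2)
    have h3 := max_le hβ hy
    unfold Aff
    rw [add_assoc, add_sub_cancel_left]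
    linarith
  have a2 := abs_le.1 (hA 2 (by simp))
  have a3 := abs_le.1 (hA 3 (by simp))
  have a4 := abs_le.1 (hA 4 (by simp))
  have l : Aff 2 β y ≤ Amax β y := le_max_left _ _
  have u : Amax β y ≤ 12 := max_le (by linarith [a2.2]) (max_le (by linarith [a3.2]) (by linarith [a4.2]))
  have e2 : Aff 2 β y = 11 + (-4) * (β - 1) + 2 * (y - 15 / 2) := by
    unfold Aff vb; norm_num
  rw [abs_le] at h1 hβ hy
  constructor <;> linarith [h1.1, h1.2, hβ.1, hβ.2, hy.1, hy.2]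

theorem MM_succ_le (h : ALHyp σ σI T δ) {k : ℕ} (hI : Inv σ T k) {β y : ℝ} (hβ : |β - 1| ≤ 1 / 8)
    (hy : |y - 15 / 2| ≤ 1 / 8) : MM σ T (k + 1) β y ≤ MM σ T k β y + δ k := by
  have hb := mem_Icc_of hβ
  have hM := MM_bd hI hβ hy
  refine MM_le _ _ _ fun κ₀ h0 => ?_
  rcases le_total κ₀ 80 with h80 | h80
  · refine lpg h k hβ hy h0 h80 (by linarith [hM.2]) fun κ hκ => ?_
    have h1 := h.le_MM k hb y hκ
    have h2 : 0 ≤ β * T (k + 1) * (κ - κ₀) ^ 2 / 2 := by
      have := h.Tpos (k + 1)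
      have : 0 ≤ β := by linarith [hb.1]
      positivity
    linarith
  · linarith [gg_nonpos h (k + 1) hβ hy h80, hM.1, h.δnn k]

theorem MM_le_succ (h : ALHyp σ σI T δ) (k : ℕ) {β y : ℝ} (hβ : |β - 1| ≤ 1 / 8)
    (hy : |y - 15 / 2| ≤ 1 / 8) : MM σ T k β y ≤ MM σ T (k + 1) β y + δ k := by
  have hb := mem_Icc_of hβ
  refine MM_le _ _ _ fun κ₀ h0 => ?_
  rcases le_total κ₀ 80 with h80 | h80
  · have h1 := h.up k β hb κ₀ ⟨h0, h80⟩
    have h2 := h.le_MM (k + 1) hb y h0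
    unfold gg at h2 ⊢
    nlinarith
  · linarith [gg_nonpos h k hβ hy h80, h.MM_nonneg (k + 1) hb y, h.δnn k]

end StepAux

open StepAux

theorem Inv.lip (h : ALHyp σ σI T δ) {k : ℕ} (hI : Inv σ T k) {β y a b : ℝ} (hβ : |β - 1| ≤ rk k)
    (hy : |y - 15 / 2| ≤ rk k) (hβ' : |β + a - 1| ≤ rk k) (hy' : |y + b - 15 / 2| ≤ rk k)
    (ha : |a| ≤ tk T k) (hb : |b| ≤ tk T k) :
    MM σ T k (β + a) (y + b) ≤ MM σ T k β y + 9 * max |a| |b| := by
  have hn0 : 0 ≤ max |a| |b| := le_max_of_le_left (abs_nonneg a)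
  have key : MM σ T k (β + a) (y + b) ≤
      max (MM σ T k β y + 9 * max |a| |b|) (MM σ T k (β + a) (y + b) - gam T k) := by
    refine MM_le _ _ _ fun κ hκ => ?_
    by_cases hc : ∀ i ∈ ({2, 3, 4} : Finset ℕ), wk k < |κ - i|
    · exact le_max_of_le_right (hI.gap _ _ hβ' hy' κ hκ hc)
    · push Not at hc
      obtain ⟨i, hi, hκi⟩ := hc
      refine le_max_of_le_left ?_
      have h1 := hI.hh β y hβ hy i hi κ hκi a b ha hb
      have h2 := (abs_le.1 (lin_bd hi a b)).2
      have h3 := mul_le_mul_of_nonneg_right (tauk_le k) hn0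
      linarith
  rcases le_max_iff.1 key with h1 | h1
  · exact h1
  · linarith [gam_pos h k]

theorem ALHyp.inv_succ (h : ALHyp σ σI T δ) {k : ℕ} (hI : Inv σ T k) : Inv σ T (k + 1) := by
  have hu := two_pow_ge k
  have hg0 := gam_pos h (k + 1)
  have hg4 := gam_succ_le h k
  have hδg := δ_le_gam h k
  have hgs := gam_small h k
  have hT0 := h.Tpos (k + 1)
  have hr : rk (k + 1) ≤ rk k := by
    rw [rk_succ]
    have : (0 : ℝ) ≤ 1 / (64 * 2 ^ k) := by positivity
    linarith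
  have hgs1 : gam T (k + 1) ≤ 1 / 128000000 :=
    hgs.trans (one_div_le_one_div_of_le (by norm_num) (by linarith))
  refine ⟨?_, ?_, ?_⟩
  · intro β y hβ hy κ₀ h0 hgap
    have hβ8 := hβ.trans (rk_le _)
    have hy8 := hy.trans (rk_le _)
    have hb := mem_Icc_of hβ8
    have hM := MM_bd hI hβ8 hy8
    have hM' := MM_le_succ h k hβ8 hy8
    rcases le_total κ₀ 80 with h80 | h80
    · have := lpg h k hβ8 hy8 h0 h80 (Λ := MM σ T k β y - 3 * gam T (k + 1)) (by linarith [hM.2])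
        (fun κ hκ => by
          have hpen0 : 0 ≤ β * T (k + 1) * (κ - κ₀) ^ 2 / 2 := by
            have : 0 ≤ β := by linarith [hb.1]
            positivity
          by_cases hc : ∀ i ∈ ({2, 3, 4} : Finset ℕ), wk k < |κ - i|
          · have := hI.gap β y (hβ.trans hr) (hy.trans hr) κ hκ hc
            linarith
          · push Not at hc
            obtain ⟨i, hi, hκi⟩ := hc
            have h1 := hgap i hi
            rw [wk_succ] at h1
            have h2 : 1 / (4000 * 2 ^ k) ≤ |κ - κ₀| := by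
              have := abs_sub_le κ₀ κ i
              rw [abs_sub_comm κ₀ κ] at this
              linarith
            have h3 : (1 / (4000 * 2 ^ k) : ℝ) ^ 2 ≤ (κ - κ₀) ^ 2 := by
              rw [← sq_abs (κ - κ₀)]
              exact pow_le_pow_left₀ (by positivity) h2 2
            have h4 : T (k + 1) * (1 / (4000 * 2 ^ k) : ℝ) ^ 2 = 8 * gam T (k + 1) := by
              rw [gam_succ]; field_simp; ring
            have h5 : 8 * gam T (k + 1) ≤ T (k + 1) * (κ - κ₀) ^ 2 := by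
              rw [← h4]; exact mul_le_mul_of_nonneg_left h3 hT0.le
            have h6 : 7 / 8 * (T (k + 1) * (κ - κ₀) ^ 2) ≤ β * (T (k + 1) * (κ - κ₀) ^ 2) :=
              mul_le_mul_of_nonneg_right hb.1 (by positivity)
            have h7 := h.le_MM k hb y hκ
            nlinarith)
      linarith
    · linarith [gg_nonpos h (k + 1) hβ8 hy8 h80, hM.1]
  · intro β y hβ hy i hi κ₀ hκ₀ a b ha hb
    have hβ8 := hβ.trans (rk_le _)
    have hy8 := hy.trans (rk_le _)
    have hbb := mem_Icc_of hβ8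
    have hM := MM_bd hI hβ8 hy8
    have hM' := MM_le_succ h k hβ8 hy8
    have ht : tk T (k + 1) = gam T (k + 1) / 17 := by unfold tk; rw [if_neg (by omega)]
    have htt : tk T (k + 1) ≤ tk T k := by
      rw [ht]
      unfold tk
      split_ifs
      · linarith
      · linarith
    have hi2 : (2 : ℝ) ≤ i ∧ (i : ℝ) ≤ 4 := by
      simp only [Finset.mem_insert, Finset.mem_singleton] at hi
      rcases hi with rfl | rfl | rfl <;> norm_num
    have hw1 := wk_le (k + 1)
    have hw0 := wk_le k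
    have hκb := abs_le.1 hκ₀
    have h0 : 0 ≤ κ₀ := by linarith [hκb.1, hi2.1]
    have h80 : κ₀ ≤ 80 := by linarith [hκb.2, hi2.2]
    have hrt : rk (k + 1) + tk T (k + 1) ≤ rk k := by
      rw [rk_succ, ht]
      have : 1 / (128000000 * (2 : ℝ) ^ k) ≤ 1 / (64 * 2 ^ k) :=
        one_div_le_one_div_of_le (by positivity) (by linarith)
      linarith
    have himp := h.improve (k + 1) h0 (β := β) (y := y) (m := MM σ T (k + 1) β y) (e := 2 * δ k)
      (p := vb i) (q := i) (τ := tauk k) (t := tk T (k + 1)) (by rw [ht]; positivity)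
      (by rw [ht]; linarith [hbb.1]) (h.le_MM _ hbb y h0)
      (fun a b ha hb => by
        have hn0 : 0 ≤ max |a| |b| := le_max_of_le_left (abs_nonneg a)
        have hn : max |a| |b| ≤ gam T (k + 1) / 17 := ht ▸ max_le ha hb
        have hβ' : |β + a - 1| ≤ rk k := by
          have := abs_add_le (β - 1) a
          rw [show β + a - 1 = β - 1 + a by ring]
          linarith
        have hy' : |y + b - 15 / 2| ≤ rk k := by
          have := abs_add_le (y - 15 / 2) b
          rw [show y + b - 15 / 2 = y - 15 / 2 + b by ring]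
          linarith
        have hb' := mem_Icc_of (hβ'.trans (rk_le _))
        have hlin := abs_le.1 (lin_bd hi a b)
        have htau1 := mul_le_mul_of_nonneg_right (tauk_le k) hn0
        have htau0 := mul_nonneg (tauk_nonneg k) hn0
        have := lpg h k (hβ'.trans (rk_le _)) (hy'.trans (rk_le _)) h0 h80
          (Λ := MM σ T k β y + vb i * a + i * b + tauk k * max |a| |b|)
          (by linarith [hM.2, hlin.2])
          (fun κ hκ => by
            have hpen0 : 0 ≤ (β + a) * T (k + 1) * (κ - κ₀) ^ 2 / 2 := by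
              have : 0 ≤ β + a := by linarith [hb'.1]
              positivity
            by_cases hc : ∀ j ∈ ({2, 3, 4} : Finset ℕ), wk k < |κ - j|
            · have h1 := hI.gap _ _ hβ' hy' κ hκ hc
              have h2 := Inv.lip h hI (hβ.trans hr) (hy.trans hr) hβ' hy' (ha.trans htt)
                (hb.trans htt)
              linarith [hlin.1]
            · push Not at hc
              obtain ⟨j, hj, hκj⟩ := hc
              have h1 := hI.hh β y (hβ.trans hr) (hy.trans hr) j hj κ hκj a b (ha.trans htt)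
                (hb.trans htt)
              by_cases hij : j = i
              · subst hij
                linarith
              · have h2 : (1 : ℝ) ≤ |(j : ℝ) - i| := by
                  have : (1 : ℤ) ≤ |(j : ℤ) - i| := Int.one_le_abs (by omega)
                  exact_mod_cast this
                have h3 : 1 / 2 ≤ |κ - κ₀| := by
                  have e1 := abs_sub_le (j : ℝ) κ i
                  have e2 := abs_sub_le κ κ₀ i
                  rw [abs_sub_comm (j : ℝ) κ] at e1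
                  linarith
                have h4 : (1 / 2 : ℝ) ^ 2 ≤ (κ - κ₀) ^ 2 := by
                  rw [← sq_abs (κ - κ₀)]
                  exact pow_le_pow_left₀ (by norm_num) h3 2
                have h5 : T (k + 1) * (1 / 2) ^ 2 ≤ T (k + 1) * (κ - κ₀) ^ 2 :=
                  mul_le_mul_of_nonneg_left h4 hT0.le
                have h6 : 7 / 8 * (T (k + 1) * (κ - κ₀) ^ 2) ≤
                    (β + a) * (T (k + 1) * (κ - κ₀) ^ 2) :=
                  mul_le_mul_of_nonneg_right hb'.1 (by positivity)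
                have h7 : gam T (k + 1) ≤ T (k + 1) / 128000000 :=
                  (gam_le_T h k).trans
                    (div_le_div_of_nonneg_left hT0.le (by norm_num) (by linarith))
                have hlin' := abs_le.1 (lin_bd hj a b)
                nlinarith [hlin.1, hlin'.2])
        linarith) ha hb
    have hn0 : 0 ≤ max |a| |b| := le_max_of_le_left (abs_nonneg a)
    have hτ : tauk k + 2 * δ k / tk T (k + 1) ≤ tauk (k + 1) := by
      rw [tauk_succ, ht]
      have h1 := δ_le h k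
      have h2 : 2 * δ k / (gam T (k + 1) / 17) ≤ 1 / (20 * 2 ^ k) := by
        rw [div_le_iff₀ (by positivity)]
        have e : 1 / (20 * (2 : ℝ) ^ k) * (gam T (k + 1) / 17) =
            (1000 / 340) * (gam T (k + 1) / (1000 * 2 ^ k)) := by field_simp; ring
        rw [e]
        linarith [h.δnn k]
      linarith
    have := mul_le_mul_of_nonneg_right hτ hn0
    linarith
  · intro β y hβ hy
    have h1 := abs_le.1 (hI.bd β y hβ hy)
    have h2 := MM_succ_le h hI hβ hy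
    have h3 := MM_le_succ h k hβ hy
    have h4 : 1 / (128000000 * (2 : ℝ) ^ k) ≤ 1 / (2000 * 2 ^ k) :=
      one_div_le_one_div_of_le (by positivity) (by linarith)
    have e : 1 / (1000 * (2 : ℝ) ^ (k + 1)) = 1 / (2000 * 2 ^ k) := by
      rw [pow_succ]; congr 1; ring
    have e' : 1 / (1000 * (2 : ℝ) ^ k) = 2 * (1 / (2000 * 2 ^ k)) := by field_simp; ring
    rw [e, abs_le]
    rw [e'] at h1
    constructor <;> linarith [h1.1, h1.2]

end Crest.Agent.R149
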