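import Crest.Agent.R149.Part

/-!
# Row 149, task R149-Dec: cell decompositions of the partition function

Plan.  (1) `card_sizes`: the permutations `g` of `Fin N` map onto the labellings `f0 ∘ g` with the fibre sizes of `f0`, each
with `∏ m_c!` preimages (`DomMulAct.stabilizer_card`); `f0` exists since `∑ m = N` (`finSigmaFinEquiv` or
`Fintype.equivFinOfCardEq` on `Σ c, Fin (m c)`); two labellings with equal fibre sizes differ by a permutation
(`Equiv.ofFiberEquiv`).
(2) `integral_regroup`: for a labelling `f`, choose `e c : Fin (fib f c).card ≃ fib f c` (`Finset.orderIsoOfFin`/`equivFin`);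
the map `y ↦ (i ↦ y (f i) ((e _).symm ⟨i, _⟩))` from `(c : C) → Fin (m c) → Pt` to `Fin N → Pt` is a measurable equivalence
mapping `pi_c pi_j vol|Ac c` to `pi_i vol|Ac (f i)` (`Measure.pi_eq`: check on boxes; preimage of a box is a box of boxes,
`Measure.pi_pi`, `Finset.prod_fiberwise`/`Fintype.prod_sigma`), then use `integral_fintype_prod_eq_prod`.
(3) DU: on `A^N`, `exp (-En Φ' x) ≤ exp K ∑_σ ∑_f 1{∀ i, x i ∈ Ac σ (f i)} ∏_c exp (g m_c) exp (-EnS Φ (fib f c) x)`; write
`pi (vol|A) = (pi vol).restrict (A^N) ≤ pi vol` (`Measure.restrict_pi_pi`), integrate with (2), group the `f` by their size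
vector `m ∈ piFinset (range (N+1))` (`Finset.sum_fiberwise_of_maps_to`, `Finset.prod_univ_sum`) and use (1) as an inequality
(if `∑ m ≠ N` the fibre is empty).
(4) DL: the sets `E_f = {x | ∀ i, x i ∈ Ac (f i)}` for `f` with sizes `m` are pairwise disjoint subsets of `A^N`, on `E_f`
`En Φ x ≤ ∑_c EnS Φ (fib f c) x` (`En_split`).
-/

set_option autoImplicit false

open MeasureTheory Filter Topology Set
open Crest.ProbabilityR.Continuum

namespace Crest.Agent.R149

theorem card_fib {C : Type} [DecidableEq C] {N : ℕ} (f : Fin N → C) (c : C) :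
    Fintype.card {a // f a = c} = (fib f c).card := by
  rw [Fintype.card_subtype]; rfl

theorem sum_card_fib {C : Type} [Fintype C] [DecidableEq C] {N : ℕ} (f : Fin N → C) :
    ∑ c, (fib f c).card = N := by
  have := Finset.card_eq_sum_card_fiberwise (s := (Finset.univ : Finset (Fin N))) (t := (Finset.univ : Finset C))
    (f := f) (fun _ _ => Finset.mem_univ _)
  rw [Finset.card_univ, Fintype.card_fin] at this
  exact this.symm

theorem card_sizes {C : Type} [Fintype C] [DecidableEq C] (m : C → ℕ) {N : ℕ} (hN : ∑ c, m c = N) :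
    (Finset.univ.filter fun f : Fin N → C => ∀ c, (fib f c).card = m c).card * ∏ c, (m c).factorial
      = N.factorial := by
  have e : (Σ c, Fin (m c)) ≃ Fin N := Fintype.equivFinOfCardEq (by simp [Fintype.card_sigma, hN])
  set f0 : Fin N → C := fun i => (e.symm i).1 with hf0
  have h0 : ∀ c, (fib f0 c).card = m c := by
    intro c
    rw [← card_fib]
    have e1 : {a // f0 a = c} ≃ {p : (Σ c, Fin (m c)) // p.1 = c} := e.symm.subtypeEquiv fun _ => Iff.rfl
    rw [Fintype.card_congr (e1.trans (Equiv.sigmaSubtype c)), Fintype.card_fin]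
  have hmaps : ∀ g : Equiv.Perm (Fin N), ∀ c, (fib (f0 ∘ g) c).card = m c := by
    intro g c
    rw [← h0 c, ← card_fib, ← card_fib]
    exact Fintype.card_congr (g.subtypeEquiv fun _ => Iff.rfl)
  have h1 := Finset.card_eq_sum_card_fiberwise (s := (Finset.univ : Finset (Equiv.Perm (Fin N))))
    (t := Finset.univ.filter fun f : Fin N → C => ∀ c, (fib f c).card = m c)
    (f := fun g : Equiv.Perm (Fin N) => f0 ∘ g)
    (fun g _ => by simpa using hmaps g)
  rw [Finset.card_univ, Fintype.card_perm, Fintype.card_fin] at h1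
  rw [h1, ← smul_eq_mul, ← Finset.sum_const]
  refine Finset.sum_congr rfl fun f hf => ?_
  have hf' : ∀ c, (fib f c).card = m c := (Finset.mem_filter.1 hf).2
  have ef : ∀ c, {a // f a = c} ≃ {a // f0 a = c} := fun c =>
    Fintype.equivOfCardEq (by rw [card_fib, card_fib, hf' c, h0 c])
  set g0 : Equiv.Perm (Fin N) := Equiv.ofFiberEquiv ef with hg0
  have hg : ∀ i, f0 (g0 i) = f i := fun i => Equiv.ofFiberEquiv_map ef i
  have h2 := DomMulAct.stabilizer_card f
  simp only [card_fib, hf'] at h2
  rw [← h2, ← Fintype.card_subtype]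
  refine Fintype.card_congr ((Equiv.mulLeft g0).subtypeEquiv fun g => ?_)
  have : f0 ∘ (g0 * g) = f ∘ g := by
    ext i; simp [hg]
  simp only [Equiv.coe_mulLeft, this]

/-- regrouping of coordinates -/
def regroup {C ι X : Type} {κ : C → Type} [MeasurableSpace X] (E : (Σ c, κ c) ≃ ι) :
    ((c : C) → κ c → X) ≃ᵐ (ι → X) where
  toFun y i := y (E.symm i).1 (E.symm i).2
  invFun x c j := x (E ⟨c, j⟩)
  left_inv y := by
    ext c j
    have : E.symm (E ⟨c, j⟩) = ⟨c, j⟩ := E.symm_apply_apply _
    simp only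
    rw [this]
  right_inv x := by
    ext i
    simp
  measurable_toFun := by
    refine measurable_pi_lambda _ fun i => ?_
    exact (measurable_pi_apply (E.symm i).2).comp
      (measurable_pi_apply (X := fun c => κ c → X) (E.symm i).1)
  measurable_invFun := by
    refine measurable_pi_lambda _ fun c => measurable_pi_lambda _ fun j => ?_
    exact measurable_pi_apply _

theorem regroup_apply {C ι X : Type} {κ : C → Type} [MeasurableSpace X] (E : (Σ c, κ c) ≃ ι)
    (y : (c : C) → κ c → X) (c : C) (j : κ c) : regroup E y (E ⟨c, j⟩) = y c j := by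
  have : E.symm (E ⟨c, j⟩) = ⟨c, j⟩ := E.symm_apply_apply _
  change y (E.symm (E ⟨c, j⟩)).1 (E.symm (E ⟨c, j⟩)).2 = y c j
  rw [this]

theorem measurePreserving_regroup {C ι X : Type} {κ : C → Type} [MeasurableSpace X] [Fintype C] [Fintype ι]
    [∀ c, Fintype (κ c)] (E : (Σ c, κ c) ≃ ι) (μ : C → Measure X) [∀ c, SigmaFinite (μ c)] :
    MeasurePreserving (regroup (X := X) E) (Measure.pi fun c => Measure.pi fun _ : κ c => μ c)
      (Measure.pi fun i => μ (E.symm i).1) := by
  refine ⟨(regroup E).measurable, (Measure.pi_eq fun s _ => ?_).symm⟩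
  rw [MeasurableEquiv.map_apply]
  have : (regroup (X := X) E) ⁻¹' (Set.pi univ s) = Set.pi univ fun c => Set.pi univ fun j => s (E ⟨c, j⟩) := by
    ext y
    simp only [mem_preimage, Set.mem_pi, mem_univ, true_imp_iff]
    constructor
    · intro h c j
      have := h (E ⟨c, j⟩)
      rwa [regroup_apply] at this
    · intro h i
      obtain ⟨⟨c, j⟩, rfl⟩ := E.surjective i
      rw [regroup_apply]
      exact h c j
  rw [this, Measure.pi_pi]
  simp only [Measure.pi_pi]
  rw [← E.prod_comp, Fintype.prod_sigma]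
  simp

/-- enumeration of the indices along the fibres -/
noncomputable def fibEquiv {C : Type} [DecidableEq C] {N : ℕ} (f : Fin N → C) :
    (Σ c, Fin (fib f c).card) ≃ Fin N :=
  (Equiv.sigmaCongrRight fun c => (fib f c).equivFin.symm.trans
    (Equiv.subtypeEquivRight fun i => by simp [fib])).trans (Equiv.sigmaFiberEquiv f)

theorem fibEquiv_apply {C : Type} [DecidableEq C] {N : ℕ} (f : Fin N → C) (c : C) (j : Fin (fib f c).card) :
    fibEquiv f ⟨c, j⟩ = ((fib f c).equivFin.symm j : Fin N) := rfl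

theorem fibEquiv_symm_fst {C : Type} [DecidableEq C] {N : ℕ} (f : Fin N → C) (i : Fin N) :
    ((fibEquiv f).symm i).1 = f i := rfl

theorem EnS_eq_En (Φ : ℝ → ℝ) {ι : Type} [DecidableEq ι] (s : Finset ι) (x : ι → Pt) :
    EnS Φ s x = En Φ (fun j : Fin s.card => x (s.equivFin.symm j)) := by
  unfold En EnS
  congr 1
  rw [← Finset.sum_coe_sort s, ← s.equivFin.symm.sum_comp]
  refine Finset.sum_congr rfl fun i _ => ?_
  rw [← Finset.sum_coe_sort s, ← s.equivFin.symm.sum_comp]
  refine Finset.sum_congr rfl fun j _ => ?_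
  simp only [Subtype.coe_inj, EmbeddingLike.apply_eq_iff_eq]

theorem integral_regroup (Φ : ℝ → ℝ) {C : Type} [Fintype C] [DecidableEq C] {N : ℕ} (f : Fin N → C)
    (Ac : C → Set Pt) :
    ∫ x : Fin N → Pt, ∏ c, Real.exp (-EnS Φ (fib f c) x) ∂(Measure.pi fun i => volume.restrict (Ac (f i)))
      = ∏ c, ((fib f c).card.factorial * zz Φ (Ac c) (fib f c).card) := by
  have h := measurePreserving_regroup (fibEquiv f) (fun c => volume.restrict (Ac c))
  simp only [fibEquiv_symm_fst] at h
  rw [← h.integral_comp']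
  have h1 : ∀ (y : (c : C) → Fin (fib f c).card → Pt) (c : C),
      EnS Φ (fib f c) (regroup (fibEquiv f) y) = En Φ (y c) := by
    intro y c
    rw [EnS_eq_En]
    congr 1
    ext1 j
    rw [← fibEquiv_apply, regroup_apply]
  simp only [h1]
  rw [integral_fintype_prod_eq_prod (fun c (z : Fin (fib f c).card → Pt) => Real.exp (-En Φ z))]
  refine Finset.prod_congr rfl fun c _ => ?_
  unfold zz
  rw [mul_div_cancel₀]
  exact Nat.cast_ne_zero.2 (Nat.factorial_ne_zero _)

theorem Stab.integrable_prod {Φ : ℝ → ℝ} (h : Stab Φ) {C : Type} [Fintype C] [DecidableEq C] {N : ℕ}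
    (f : Fin N → C) (A : Fin N → Set Pt) (hA : ∀ i, volume (A i) ≠ ⊤) :
    Integrable (fun x : Fin N → Pt => ∏ c, Real.exp (-EnS Φ (fib f c) x))
      (Measure.pi fun i => volume.restrict (A i)) := by
  obtain ⟨B, hB⟩ := h.stable
  have : ∀ i, IsFiniteMeasure (volume.restrict (A i)) := fun i => isFiniteMeasure_restrict.2 (hA i)
  refine Integrable.of_bound (C := ∏ c, Real.exp (B * (fib f c).card)) ?_ (Eventually.of_forall fun x => ?_)
  · exact (Finset.measurable_prod _ fun c _ =>
      Real.measurable_exp.comp (measurable_EnS h.meas _).neg).aestronglyMeasurable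
  · rw [Real.norm_eq_abs, abs_of_pos (Finset.prod_pos fun c _ => Real.exp_pos _)]
    refine Finset.prod_le_prod (fun c _ => (Real.exp_pos _).le) fun c _ => Real.exp_le_exp.2 ?_
    rw [EnS_eq_En]
    linarith [hB _ (fun j : Fin (fib f c).card => x ((fib f c).equivFin.symm j))]

theorem sum_labels_le {C : Type} [Fintype C] [DecidableEq C] (N : ℕ) (a : C → ℕ → ℝ) (ha : ∀ c n, 0 ≤ a c n) :
    ∑ f : Fin N → C, ∏ c, (((fib f c).card.factorial : ℝ) * a c (fib f c).card) ≤
      N.factorial * ∏ c, ∑ n ∈ Finset.range (N + 1), a c n := by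
  rw [Finset.prod_univ_sum, Finset.mul_sum,
    ← Finset.sum_fiberwise_of_maps_to (s := Finset.univ) (t := Fintype.piFinset fun _ : C => Finset.range (N + 1))
      (g := fun (f : Fin N → C) c => (fib f c).card)]
  · refine Finset.sum_le_sum fun m _ => ?_
    have e1 : ∑ f ∈ Finset.univ.filter (fun f : Fin N → C => (fun c => (fib f c).card) = m),
        ∏ c, (((fib f c).card.factorial : ℝ) * a c (fib f c).card) =
        ((Finset.univ.filter fun f : Fin N → C => ∀ c, (fib f c).card = m c).card * ∏ c, (m c).factorial : ℕ) *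
          ∏ c, a c (m c) := by
      rw [Finset.sum_congr (s₂ := Finset.univ.filter fun f : Fin N → C => ∀ c, (fib f c).card = m c)
        (g := fun _ => ∏ c, (((m c).factorial : ℝ) * a c (m c))) (by simp only [funext_iff])
        (fun f hf => by simp only [(Finset.mem_filter.1 hf).2])]
      rw [Finset.sum_const, Finset.prod_mul_distrib, nsmul_eq_mul]
      push_cast
      ring
    rw [e1]
    refine mul_le_mul_of_nonneg_right ?_ (Finset.prod_nonneg fun c _ => ha _ _)
    by_cases hm : ∑ c, m c = N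
    · rw [card_sizes m hm]
    · have : (Finset.univ.filter fun f : Fin N → C => ∀ c, (fib f c).card = m c) = ∅ := by
        refine Finset.filter_eq_empty_iff.2 fun f _ hf => hm ?_
        rw [← sum_card_fib f]
        exact Finset.sum_congr rfl fun c _ => (hf c).symm
      rw [this]
      simp
  · intro f _
    rw [Fintype.mem_piFinset]
    intro c
    rw [Finset.mem_range, Nat.lt_succ_iff]
    exact (Finset.card_le_univ _).trans (by simp)

/-- upper decomposition -/
theorem DU {Φ : ℝ → ℝ} (hΦ : Stab Φ) (Φ' : ℝ → ℝ) {S C : Type} [Fintype S] [Fintype C] [DecidableEq C]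
    {A : Set Pt} (hA : MeasurableSet A) (Ac : S → C → Set Pt) (hm : ∀ σ c, MeasurableSet (Ac σ c))
    (hfin : ∀ σ c, volume (Ac σ c) ≠ ⊤) (g : ℕ → ℝ) (N : ℕ) (K : ℝ)
    (h : ∀ x : Fin N → Pt, (∀ i, x i ∈ A) → ∃ σ : S, ∃ f : Fin N → C, (∀ i, x i ∈ Ac σ (f i)) ∧
      -En Φ' x ≤ K + ∑ c, (g (fib f c).card - EnS Φ (fib f c) x)) :
    zz Φ' A N ≤ Real.exp K * ∑ σ, ∏ c, ∑ n ∈ Finset.range (N + 1), Real.exp (g n) * zz Φ (Ac σ c) n := by
  set box : S → (Fin N → C) → Set (Fin N → Pt) := fun σ f => Set.pi univ fun i => Ac σ (f i) with hbox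
  have hbm : ∀ σ f, MeasurableSet (box σ f) := fun σ f => MeasurableSet.univ_pi fun i => hm σ (f i)
  set F : (Fin N → C) → (Fin N → Pt) → ℝ := fun f x =>
    (Real.exp K * ∏ c, Real.exp (g (fib f c).card)) * ∏ c, Real.exp (-EnS Φ (fib f c) x) with hF
  have hF0 : ∀ f x, 0 ≤ F f x := fun f x => by simp only [hF]; positivity
  have hint : ∀ σ f, Integrable ((box σ f).indicator (F f)) (Measure.pi fun _ => volume) := by
    intro σ f
    rw [integrable_indicator_iff (hbm σ f)]
    unfold IntegrableOn
    rw [hbox]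
    simp only
    rw [Measure.restrict_pi_pi]
    exact (hΦ.integrable_prod f _ fun i => hfin σ (f i)).const_mul _
  have hval : ∀ σ f, ∫ x, (box σ f).indicator (F f) x ∂(Measure.pi fun _ => volume) =
      Real.exp K * ∏ c, (((fib f c).card.factorial : ℝ) *
        (Real.exp (g (fib f c).card) * zz Φ (Ac σ c) (fib f c).card)) := by
    intro σ f
    rw [integral_indicator (hbm σ f), hbox]
    simp only
    rw [Measure.restrict_pi_pi, hF]
    simp only
    rw [integral_const_mul, integral_regroup Φ f (Ac σ), mul_assoc, ← Finset.prod_mul_distrib]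
    congr 1
    exact Finset.prod_congr rfl fun c _ => by ring
  have h1 : ∫ x : Fin N → Pt, Real.exp (-En Φ' x) ∂(Measure.pi fun _ => volume.restrict A) ≤
      ∫ x, ∑ σ, ∑ f, (box σ f).indicator (F f) x ∂(Measure.pi fun _ => volume) := by
    rw [← Measure.restrict_pi_pi, ← integral_indicator (MeasurableSet.univ_pi fun _ => hA)]
    refine integral_mono_of_nonneg (Eventually.of_forall fun x => ?_)
      (integrable_finsetSum _ fun σ _ => integrable_finsetSum _ fun f _ => hint σ f)
      (Eventually.of_forall fun x => ?_)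
    · exact Set.indicator_nonneg (fun x _ => (Real.exp_pos _).le) x
    · have hnn : ∀ σ f, 0 ≤ (box σ f).indicator (F f) x := fun σ f =>
        Set.indicator_nonneg (fun x _ => hF0 f x) x
      by_cases hx : x ∈ Set.pi univ fun _ : Fin N => A
      · rw [Set.indicator_of_mem hx]
        obtain ⟨σ, f, hxf, hle⟩ := h x fun i => hx i trivial
        have hxb : x ∈ box σ f := fun i _ => hxf i
        calc Real.exp (-En Φ' x) ≤ (box σ f).indicator (F f) x := by
              rw [Set.indicator_of_mem hxb, hF]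
              simp only
              rw [← Real.exp_sum, ← Real.exp_sum, ← Real.exp_add, ← Real.exp_add]
              refine Real.exp_le_exp.2 (hle.trans (le_of_eq ?_))
              rw [add_assoc, ← Finset.sum_add_distrib]
              rfl
          _ ≤ ∑ f, (box σ f).indicator (F f) x :=
              Finset.single_le_sum (f := fun f => (box σ f).indicator (F f) x) (fun f _ => hnn σ f)
                (Finset.mem_univ f)
          _ ≤ _ := Finset.single_le_sum (f := fun σ => ∑ f, (box σ f).indicator (F f) x)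
                (fun σ _ => Finset.sum_nonneg fun f _ => hnn σ f) (Finset.mem_univ σ)
      · rw [Set.indicator_of_notMem hx]
        exact Finset.sum_nonneg fun σ _ => Finset.sum_nonneg fun f _ => hnn σ f
  rw [integral_finsetSum _ fun σ _ => integrable_finsetSum _ fun f _ => hint σ f] at h1
  conv_lhs => unfold zz
  rw [div_le_iff₀ (Nat.cast_pos.2 (Nat.factorial_pos N))]
  refine h1.trans ?_
  rw [Finset.mul_sum, Finset.sum_mul]
  refine Finset.sum_le_sum fun σ _ => ?_
  rw [integral_finsetSum _ fun f _ => hint σ f]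
  simp only [hval]
  rw [← Finset.mul_sum, mul_assoc]
  refine mul_le_mul_of_nonneg_left ?_ (Real.exp_pos _).le
  rw [mul_comm]
  exact sum_labels_le N (fun c n => Real.exp (g n) * zz Φ (Ac σ c) n)
    fun c n => mul_nonneg (Real.exp_pos _).le (zz_nonneg _ _ _)

/-- lower decomposition -/
theorem DL {Φ : ℝ → ℝ} (hΦ : Stab Φ) {C : Type} [Fintype C] [DecidableEq C] {A : Set Pt}
    (hA : volume A ≠ ⊤) (Ac : C → Set Pt) (hm : ∀ c, MeasurableSet (Ac c)) (hsub : ∀ c, Ac c ⊆ A)
    (hdisj : ∀ c c', c ≠ c' → Disjoint (Ac c) (Ac c'))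
    (hcross : ∀ c c', c ≠ c' → ∀ x ∈ Ac c, ∀ y ∈ Ac c', Φ (dist x y) ≤ 0) (m : C → ℕ) :
    ∏ c, zz Φ (Ac c) (m c) ≤ zz Φ A (∑ c, m c) := by
  obtain ⟨N, hN⟩ : ∃ N, ∑ c, m c = N := ⟨_, rfl⟩
  rw [hN]
  set T := Finset.univ.filter fun f : Fin N → C => ∀ c, (fib f c).card = m c with hT
  have hf : ∀ c, volume (Ac c) ≠ ⊤ := fun c => ne_top_of_le_ne_top hA (measure_mono (hsub c))
  have h1 : (∏ c, zz Φ (Ac c) (m c)) * N.factorial =
      ∑ f ∈ T, ∏ c, (((fib f c).card.factorial : ℝ) * zz Φ (Ac c) (fib f c).card) := by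
    rw [Finset.sum_congr (s₂ := T) (g := fun _ => ∏ c, (((m c).factorial : ℝ) * zz Φ (Ac c) (m c))) rfl
      (fun f hf => by simp only [(Finset.mem_filter.1 hf).2])]
    rw [Finset.sum_const, Finset.prod_mul_distrib, nsmul_eq_mul, ← card_sizes m hN]
    push_cast
    ring
  have hi : ∀ f : Fin N → C, IntegrableOn (fun x : Fin N → Pt => Real.exp (-En Φ x))
      (Set.pi univ fun i => Ac (f i)) (Measure.pi fun _ => volume) := fun f => by
    unfold IntegrableOn; rw [Measure.restrict_pi_pi]; exact hΦ.integrable _ fun i => hf (f i)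
  have hiA : IntegrableOn (fun x : Fin N → Pt => Real.exp (-En Φ x)) (Set.pi univ fun _ => A)
      (Measure.pi fun _ => volume) := by
    unfold IntegrableOn; rw [Measure.restrict_pi_pi]; exact hΦ.integrable _ fun _ => hA
  have h2 : ∀ f : Fin N → C, ∏ c, (((fib f c).card.factorial : ℝ) * zz Φ (Ac c) (fib f c).card) ≤
      ∫ x in Set.pi univ fun i => Ac (f i), Real.exp (-En Φ x) ∂(Measure.pi fun _ => volume) := by
    intro f
    rw [← integral_regroup, Measure.restrict_pi_pi]
    refine integral_mono_ae (hΦ.integrable_prod f _ fun i => hf (f i)) (hΦ.integrable _ fun i => hf (f i)) ?_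
    filter_upwards [ae_mem_pi (fun i => Ac (f i)) fun i => hm (f i)] with x hx
    rw [← Real.exp_sum, Finset.sum_neg_distrib]
    refine Real.exp_le_exp.2 ?_
    rw [En_split Φ f x]
    have : (∑ i, ∑ j, if f i = f j then 0 else Φ (dist (x i) (x j))) ≤ 0 := by
      refine Finset.sum_nonpos fun i _ => Finset.sum_nonpos fun j _ => ?_
      split_ifs with hij
      · exact le_rfl
      · exact hcross _ _ hij _ (hx i) _ (hx j)
    linarith
  conv_rhs => unfold zz
  rw [le_div_iff₀ (Nat.cast_pos.2 (Nat.factorial_pos N)), h1]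
  refine (Finset.sum_le_sum fun f _ => h2 f).trans ?_
  rw [← Measure.restrict_pi_pi,
    ← integral_biUnion_finset T (fun f _ => MeasurableSet.univ_pi fun i => hm (f i)) ?_ fun f _ => hi f]
  · refine setIntegral_mono_set hiA (Eventually.of_forall fun x => (Real.exp_pos _).le)
      (HasSubset.Subset.eventuallyLE ?_)
    intro x hx
    simp only [mem_iUnion] at hx
    obtain ⟨f, -, hc⟩ := hx
    exact fun i hi => hsub _ (hc i hi)
  · intro f _ f' _ hff
    refine Set.disjoint_left.2 fun x hx hx' => hff (funext fun i => ?_)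
    by_contra hne
    exact Set.disjoint_left.1 (hdisj _ _ hne) (hx i trivial) (hx' i trivial)

end Crest.Agent.R149
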