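import Crest.Agent.R149.Pack
import Crest.Agent.R149.Dec

/-!
# Row 149, task R149-BaseL: lower bound for the short-range potential

`Φ = β φ0 ≥ 0` is `Stab` (B = 0).  Let `ω = om`, `δ = dl u ≤ ω` (`u ≥ 20`; `exp (-100/3) ≤ 4·10⁻⁸` e.g. from `exp 1 ≥ 2`... any bound).
(1) cluster lemma: if `s > 0`, `i ≤ 4`, `Φ r ≤ e` for `r ∈ [s/16, s]`, `e ≥ 0`, then
`exp (-e i(i-1)/2) (s/16)^{3i} / i! ≤ zz Φ (cube (s/2)) i`: `zz_ge_prod` with `B j = cubeAt (j s/8, 0, 0) (s/16)`.
(2) `i = 2`: `s = ω`, `e = 6βu`, `zz_mono_set`; `Fb β 2 = 6β` for `β ≤ 5/4` (only `6β ≤ ..` i.e. `-Fb ≤ …` direction: need energy `= 6βu ≤ u Fb β 2`, true as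
`min (6β) (2β+5) = 6β`).
(3) `i = 3, 4`: `s = δ`, `e = 2βu`; `zz_ge_sum` with the `m³` disjoint cubes `cubeAt (δ c) (δ/2) ⊆ cube ω`, `c : Fin 3 → Fin m`, `m = ⌊ω/δ⌋₊ ≥ ω/(2δ)`,
`zz_cubeAt`: `zz Φ (cube ω) i ≥ (ω/(2δ))³ (δ/16)^{3i} exp (-βu i(i-1))/i! = (ω/32)³ (exp(-5u)/64³)^{i-1} exp(..)/i!`, and
`Fb β i = β i(i-1) + 5(i-1)` for `β ≥ 5/6`.  So `log zz Φ (cube ω) i ≥ -u Fb β i - C0` with an absolute constant `C0`.
(4) `DL` with the cells `cubeAt (y c) ω` (`y` from `exists_Pk_config` with `lam = 1 + 12ω/5`, separation `5/4 + 3ω`): points of different cells are at distance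
`≥ 5/4 + 3ω - √3 ω ≥ 5/4 + ω` (so the cells are disjoint and `Φ = 0` between them); take logs (`zz_cubeAt`, `zz_cube_pos`).
-/

set_option autoImplicit false

open MeasureTheory Filter Topology Set
open Crest.ProbabilityR.Continuum

namespace Crest.Agent.R149

namespace BaseL

theorem dist_le_two {x y : Pt} {l : ℝ} (hl : 0 ≤ l) (h : ∀ k, |x k - y k| ≤ l) : dist x y ≤ 2 * l := by
  have h3 : dist x y ^ 2 = ∑ k, (x k - y k) ^ 2 := by
    rw [EuclideanSpace.dist_sq_eq]
    simp only [Real.dist_eq, sq_abs]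
  have h2 : ∀ k, (x k - y k) ^ 2 ≤ l ^ 2 := fun k => sq_le_sq' (abs_le.mp (h k)).1 (abs_le.mp (h k)).2
  rw [Fin.sum_univ_three] at h3
  refine le_of_sq_le_sq (by nlinarith [h2 0, h2 1, h2 2]) (by positivity)

theorem cluster {Φ : ℝ → ℝ} (hΦ : Stab Φ) {s e : ℝ} (hs : 0 < s) {i : ℕ} (hi : i ≤ 4)
    (h : ∀ r, s / 16 ≤ r → r ≤ s → Φ r ≤ e) :
    Real.exp (-(e * i * (i - 1) / 2)) * ((s / 16) ^ 3) ^ i / i.factorial ≤ zz Φ (cube (s / 2)) i := by
  let B : Fin i → Set Pt := fun j => cubeAt (fun k => if k = 0 then (j : ℕ) * (s / 8) else 0) (s / 16)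
  have hsub : ∀ j, B j ⊆ cube (s / 2) := by
    intro j x hx k
    have h1 := hx k
    have h2 : ((j : ℕ) : ℝ) ≤ 3 := by
      have := j.2
      exact_mod_cast (by omega : (j : ℕ) ≤ 3)
    have h3 : (0 : ℝ) ≤ (j : ℕ) := by positivity
    beta_reduce at h1
    split_ifs at h1
    · constructor <;> nlinarith [h1.1, h1.2]
    · constructor <;> linarith [h1.1, h1.2]
  have key := zz_ge_prod hΦ (A := cube (s / 2)) (by rw [volume_cube (by positivity)]; simp) B
    (fun j => measurableSet_cubeAt _ _) hsub (e * i * (i - 1) / 2) ?_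
  · have : ∏ j, (volume (B j)).toReal = ((s / 16) ^ 3) ^ i := by
      simp only [B]
      rw [Finset.prod_congr rfl (fun j _ => by
        rw [volume_cubeAt _ (by positivity), ENNReal.toReal_ofReal (by positivity)])]
      simp
    rwa [this] at key
  · intro x hx
    unfold En EnS
    refine div_le_div_of_nonneg_right ?_ (by norm_num)
    have h1 : ∀ a : Fin i, (∑ b, if a = b then 0 else Φ (dist (x a) (x b))) ≤ e * (i - 1) := by
      intro a
      have h2 : (∑ b : Fin i, if a = b then 0 else e) = e * (i - 1) := by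
        have : ∀ b : Fin i, (if a = b then 0 else e) = e - if a = b then e else 0 := by
          intro b
          split_ifs <;> simp
        simp only [this, Finset.sum_sub_distrib]
        simp
        ring
      rw [← h2]
      refine Finset.sum_le_sum fun b _ => ?_
      split_ifs with hab
      · exact le_rfl
      · apply h
        · refine le_trans ?_ (Pack.coord_le_dist _ _ 0)
          have p := hx a 0
          have q := hx b 0
          simp only [if_true] at p q
          rcases lt_or_gt_of_ne hab with hlt | hlt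
          · have h1 : ((a : ℕ) : ℝ) + 1 ≤ (b : ℕ) := by exact_mod_cast hlt
            rw [le_abs]
            right
            nlinarith [p.1, p.2, q.1, q.2]
          · have h1 : ((b : ℕ) : ℝ) + 1 ≤ (a : ℕ) := by exact_mod_cast hlt
            rw [le_abs]
            left
            nlinarith [p.1, p.2, q.1, q.2]
        · have := dist_le_two (x := x a) (y := x b) (l := s / 2) (by positivity) fun k => by
            have p := hsub a (hx a) k
            have q := hsub b (hx b) k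
            rw [abs_le]
            constructor <;> linarith [p.1, p.2, q.1, q.2]
          linarith
    refine le_trans (Finset.sum_le_sum fun a _ => h1 a) (le_of_eq ?_)
    simp
    ring

theorem many {Φ : ℝ → ℝ} (hΦ : Stab Φ) {δ w : ℝ} (hδ : 0 < δ) (hw : δ ≤ w) {i : ℕ} (hi : 1 ≤ i) :
    (w / (2 * δ)) ^ 3 * zz Φ (cube (δ / 2)) i ≤ zz Φ (cube w) i := by
  set m := ⌊w / δ⌋₊ with hm
  have h1 : (m : ℝ) * δ ≤ w := by
    rw [← le_div_iff₀ hδ]
    exact Nat.floor_le (by have : 0 < w := by linarith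
                           positivity)
  have h2 : w / (2 * δ) ≤ m := by
    have a : 1 ≤ w / δ := by rwa [le_div_iff₀ hδ, one_mul]
    have b : 1 ≤ m := Nat.le_floor (by exact_mod_cast a)
    have b' : (1 : ℝ) ≤ m := by exact_mod_cast b
    have c := Nat.lt_floor_add_one (w / δ)
    have d : w / (2 * δ) = w / δ / 2 := by field_simp
    rw [d]
    linarith
  have key := zz_ge_sum hΦ (A := cube w) (by rw [volume_cube (by linarith)]; simp)
    (fun c : Fin 3 → Fin m => cubeAt (fun k => δ * (c k : ℕ)) (δ / 2))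
    (fun c => measurableSet_cubeAt _ _) ?_ ?_ hi
  · simp only [zz_cubeAt, Finset.sum_const, Finset.card_univ, Fintype.card_pi, Fintype.card_fin,
      Finset.prod_const, nsmul_eq_mul] at key
    refine le_trans (mul_le_mul_of_nonneg_right ?_ (zz_nonneg _ _ _)) key
    push_cast
    exact pow_le_pow_left₀ (by have : 0 < w := by linarith
                               positivity) h2 3
  · intro c x hx k
    have p := hx k
    have h3 : ((c k : ℕ) : ℝ) + 1 ≤ m := by exact_mod_cast (c k).2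
    have h4 : (0 : ℝ) ≤ (c k : ℕ) := by positivity
    beta_reduce at p
    constructor <;> nlinarith [p.1, p.2]
  · intro c c' hcc
    obtain ⟨k, hk⟩ := Function.ne_iff.mp hcc
    refine Set.disjoint_left.2 fun x hx hx' => ?_
    have p := hx k
    have q := hx' k
    beta_reduce at p q
    rcases lt_or_gt_of_ne hk with hlt | hlt
    · have h1 : ((c k : ℕ) : ℝ) + 1 ≤ (c' k : ℕ) := by exact_mod_cast hlt
      nlinarith [p.1, p.2, q.1, q.2]
    · have h1 : ((c' k : ℕ) : ℝ) + 1 ≤ (c k : ℕ) := by exact_mod_cast hlt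
      nlinarith [p.1, p.2, q.1, q.2]

theorem om_pos : 0 < om := by unfold om; positivity

theorem dl_pos (u : ℝ) : 0 < dl u := by unfold dl; positivity

theorem dl_le {u : ℝ} (hu : 20 ≤ u) : dl u ≤ om := by
  unfold dl om
  have h1 : (2 : ℝ) ^ 33 ≤ Real.exp (5 * u / 3) := by
    have a : (2 : ℝ) ≤ Real.exp 1 := by linarith [Real.add_one_le_exp 1]
    have b : (2 : ℝ) ^ 33 ≤ Real.exp 1 ^ 33 := pow_le_pow_left₀ (by norm_num) a 33
    rw [Real.exp_one_pow] at b
    exact le_trans b (Real.exp_le_exp.2 (by push_cast; linarith))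
  have h2 : Real.exp (-5 * u / 3) = (Real.exp (5 * u / 3))⁻¹ := by
    rw [← Real.exp_neg]
    congr 1
    ring
  have h3 : (Real.exp (5 * u / 3))⁻¹ ≤ ((2 : ℝ) ^ 33)⁻¹ := inv_anti₀ (by positivity) h1
  rw [h2]
  norm_num at h3 ⊢
  linarith

theorem dl_cube (u : ℝ) : dl u ^ 3 = Real.exp (-5 * u) / 64 := by
  unfold dl
  rw [div_pow, ← Real.exp_nat_mul]
  congr 1
  · congr 1
    push_cast
    ring
  · norm_num

theorem stab {φ0 : ℝ → ℝ} {u : ℝ} (h : SR φ0 u) {β : ℝ} (hβ : 0 ≤ β) : Stab (fun r => β * φ0 r) := by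
  refine ⟨h.meas.const_mul β, 0, fun n x => ?_⟩
  unfold En EnS
  simp only [neg_zero, zero_mul]
  refine div_nonneg (Finset.sum_nonneg fun i _ => Finset.sum_nonneg fun j _ => ?_) (by norm_num)
  split_ifs
  · exact le_rfl
  · exact mul_nonneg hβ (h.nonneg _)

theorem bound (j : ℕ) (hj : j + 1 ≤ 4) {φ0 : ℝ → ℝ} {u : ℝ} (h : SR φ0 u) (hu : 20 ≤ u) {β : ℝ}
    (hβ : 0 ≤ β) :
    (om / 2) ^ 3 / (64 ^ j * (16 ^ 3) ^ (j + 1) * (j + 1).factorial) *
      Real.exp (-(u * (β * (j + 1) * j + 5 * j))) ≤ zz (fun r => β * φ0 r) (cube om) (j + 1) := by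
  have hδ := dl_pos u
  have h1 := cluster (stab h hβ) (e := β * (2 * u)) hδ hj
    (fun r h1 h2 => mul_le_mul_of_nonneg_left (h.up2 r h1 h2) hβ)
  have h2 := many (stab h hβ) hδ (dl_le hu) (i := j + 1) (by omega)
  refine le_trans (le_of_eq ?_) (le_trans (mul_le_mul_of_nonneg_left h1 (by
    have := om_pos
    positivity)) h2)
  have e1 : Real.exp (-(u * (β * (j + 1) * j + 5 * j))) =
      Real.exp (-(β * (2 * u) * ((j + 1 : ℕ) : ℝ) * (((j + 1 : ℕ) : ℝ) - 1) / 2)) *
        Real.exp (-5 * u) ^ j := by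
    rw [← Real.exp_nat_mul, ← Real.exp_add]
    congr 1
    push_cast
    ring
  have e2 : Real.exp (-5 * u) = 64 * dl u ^ 3 := by rw [dl_cube]; ring
  rw [e1, e2]
  simp only [div_pow, mul_pow]
  field_simp
  ring

theorem one_cell : ∃ κ : ℝ, 0 < κ ∧ ∀ (φ0 : ℝ → ℝ) (u : ℝ), SR φ0 u → 20 ≤ u →
    ∀ β ∈ Icc (7 / 8 : ℝ) (9 / 8), ∀ i ∈ ({2, 3, 4} : Finset ℕ),
      κ * Real.exp (-u * Fb β i) ≤ zz (fun r => β * φ0 r) (cube om) i := by
  have hom := om_pos
  let κ2 : ℝ := ((om / 16) ^ 3) ^ 2 / (2 : ℕ).factorial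
  let κ : ℕ → ℝ := fun j => (om / 2) ^ 3 / (64 ^ j * (16 ^ 3) ^ (j + 1) * (j + 1).factorial)
  have hκ : ∀ j, 0 < κ j := fun j => by positivity
  refine ⟨min κ2 (min (κ 2) (κ 3)), lt_min (by positivity) (lt_min (hκ 2) (hκ 3)), ?_⟩
  intro φ0 u h hu β hβ i hi
  have hβ0 : 0 ≤ β := by linarith [hβ.1]
  have hb1 := hβ.1
  have hb2 := hβ.2
  have hmain : ∀ j : ℕ, 2 ≤ j → j + 1 ≤ 4 →
      κ j * Real.exp (-u * Fb β (j + 1)) ≤ zz (fun r => β * φ0 r) (cube om) (j + 1) := by
    intro j hj2 hj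
    refine le_trans (mul_le_mul_of_nonneg_left (Real.exp_le_exp.2 ?_) (hκ j).le) (bound j hj h hu hβ0)
    have hj2' : (2 : ℝ) ≤ j := by exact_mod_cast hj2
    have : β * (j + 1) * j + 5 * j ≤ Fb β (j + 1) := by
      unfold Fb
      push_cast
      refine le_min ?_ (le_of_eq (by ring))
      have a : 5 ≤ 2 * (β * (j + 1)) := by nlinarith
      nlinarith
    nlinarith
  simp only [Finset.mem_insert, Finset.mem_singleton] at hi
  rcases hi with rfl | rfl | rfl
  · have h1 := cluster (stab h hβ0) (e := β * (6 * u)) hom (i := 2) (by norm_num)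
      (fun r h1 _ => mul_le_mul_of_nonneg_left (h.up6 r (by linarith [dl_le hu])) hβ0)
    have h2 := zz_mono_set (stab h hβ0) (A := cube (om / 2)) (B := cube om)
      (fun x hx k => ⟨(hx k).1, by linarith [(hx k).2]⟩) (by rw [volume_cube hom.le]; simp) 2
    refine le_trans ?_ (le_trans h1 h2)
    rw [mul_div_assoc, mul_comm (Real.exp _)]
    refine mul_le_mul (min_le_left _ _) (Real.exp_le_exp.2 ?_) (Real.exp_pos _).le (by positivity)
    have : 6 * β ≤ Fb β 2 := by
      unfold Fb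
      push_cast
      exact le_min (by linarith) (by linarith)
    push_cast
    nlinarith
  · exact le_trans (mul_le_mul_of_nonneg_right (le_trans (min_le_right _ _) (min_le_left _ _))
      (Real.exp_pos _).le) (hmain 2 le_rfl (by norm_num))
  · exact le_trans (mul_le_mul_of_nonneg_right (le_trans (min_le_right _ _) (min_le_right _ _))
      (Real.exp_pos _).le) (hmain 3 (by norm_num) le_rfl)

end BaseL

open BaseL in
theorem baseL_fin : ∃ C0 : ℝ, ∀ (φ0 : ℝ → ℝ) (u : ℝ), SR φ0 u → 20 ≤ u → ∀ β ∈ Icc (7 / 8 : ℝ) (9 / 8),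
    ∀ i ∈ ({2, 3, 4} : Finset ℕ), ∀ L : ℝ, 0 < L →
      (Pk L : ℝ) * (-u * Fb β i - C0) ≤ aa (fun r => β * φ0 r) ((1 + 12 * om / 5) * L + om) (i * Pk L) := by
  obtain ⟨κ, hκ, hcell⟩ := one_cell
  refine ⟨-Real.log κ, fun φ0 u h hu β hβ i hi L hL => ?_⟩
  have hom := om_pos
  have hβ0 : 0 ≤ β := by linarith [hβ.1]
  obtain ⟨y, hy, hsep⟩ := exists_Pk_config (lam := 1 + 12 * om / 5) hL.le (by positivity)
  have hfar : ∀ c c', c ≠ c' → ∀ x ∈ cubeAt (fun k => y c k) om, ∀ x' ∈ cubeAt (fun k => y c' k) om,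
      5 / 4 + om ≤ dist x x' := by
    intro c c' hcc x hx x' hx'
    have h1 := hsep c c' hcc
    have h2 := dist_le_two (x := x - y c) (y := x' - y c') hom.le fun k => by
      have p := hx k
      have q := hx' k
      simp only [PiLp.sub_apply]
      rw [abs_le]
      constructor <;> linarith [p.1, p.2, q.1, q.2]
    have h3 : dist (y c) (y c') ≤ dist x x' + dist (x - y c) (x' - y c') := by
      rw [dist_eq_norm, dist_eq_norm, dist_eq_norm]
      refine le_trans (le_of_eq ?_) (norm_sub_le _ _)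
      congr 1
      abel
    linarith
  have key := DL (stab h hβ0) (A := cube ((1 + 12 * om / 5) * L + om))
    (by rw [volume_cube (by positivity)]; simp) (fun c : Fin (Pk L) => cubeAt (fun k => y c k) om)
    (fun c => measurableSet_cubeAt _ _)
    (fun c x hx k => by
      have p := hx k
      have q := hy c k
      constructor <;> linarith [p.1, p.2, q.1, q.2])
    (fun c c' hcc => Set.disjoint_left.2 fun x hx hx' => by
      have := hfar c c' hcc x hx x hx'
      rw [dist_self] at this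
      linarith)
    (fun c c' hcc x hx x' hx' => by rw [h.zero _ (hfar c c' hcc x hx x' hx'), mul_zero])
    (fun _ => i)
  simp only [zz_cubeAt, Finset.prod_const, Finset.sum_const, Finset.card_univ, Fintype.card_fin,
    smul_eq_mul] at key
  have h1 := hcell φ0 u h hu β hβ i hi
  have h0 : 0 < κ * Real.exp (-u * Fb β i) := by positivity
  have h2 := Real.log_le_log (pow_pos h0 (Pk L)) (le_trans (pow_le_pow_left₀ h0.le h1 (Pk L)) key)
  rw [Real.log_pow, Real.log_mul hκ.ne' (Real.exp_pos _).ne', Real.log_exp] at h2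
  unfold aa
  rw [mul_comm i]
  linarith

end Crest.Agent.R149
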