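import Crest.Agent.R149.Pack

/-!
# Row 149, task R149-BaseU: upper bound for the short-range potential

Let `δ = dl u` (`(4δ)³ = exp (-5u)`, `δ ≤ 1/4`), `k_i = #{j | dist (x i) (x j) < 5/4} ≥ 1` (includes `i`), `b_i = #{j ≠ i | dist < 2δ} ≤ k_i - 1`.
(1) `φ0 r ≥ 6u 1{r < 5/4} - 4u 1{r < 2δ}` for `r ≥ 0`, so `En φ0 x ≥ u ∑_i (3 (k_i - 1) - 2 b_i)`.
(2) `U x = #{i | ∃ j > i, dist (x i) (x j) < 2δ}`.  `int_exp_U`: `∫ exp (5u U) ≤ (L³ + n)^n` by induction on `n`, peeling off coordinate `0`
(`measurePreserving_piFinSuccAbove _ 0`, Fubini): given the tail, `exp (5u 1{..}) ≤ 1 + exp (5u) ∑_j 1{x_0 ∈ ball (tail j) (2δ)}` and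
`vol (ball _ (2δ)) ≤ (4δ)³` (ball ⊆ cube, `volume_cubeAt`).  (It is easiest to prove `≤ (V + m)^n` for all `m ≥ n`, or to use lintegral.)
(3) By `card_perm_max` (applied to `s = {j | dist (x i) (x j) < 2δ} ∋ i`, of size `b_i + 1`) the average over permutations `π` of
`U (x ∘ π)` is `∑_i b_i/(b_i+1)`; Jensen/AM-GM for `exp` and permutation invariance of the product measure
(`measurePreserving_piCongrLeft`) give `∫ exp (5u ∑ b_i/(b_i+1)) ≤ (L³+n)^n`.
(4) per particle: `β (3(k-1) - 2b) + 5 b/(b+1) ≥ Fb β k / k` for `0 ≤ b ≤ k-1` (concave in `b`: write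
`b = τ (k-1)`, `b/(b+1) ≥ τ (k-1)/k`), and `Fb β k / k ≥ B - A/k`; `caro_wei` gives `∑ 1/k_i ≤ Pk L`.
(5) So `exp (-β En φ0 x) ≤ exp (-u B n + u A Pk L) exp (5u ∑ b_i/(b_i+1))`, and `(L³+n)^n / n! ≤ exp (L³+n)`.
-/

set_option autoImplicit false

open MeasureTheory Filter Topology Set
open Crest.ProbabilityR.Continuum

namespace Crest.Agent.R149

open scoped ENNReal

namespace BU

open Classical in
/-- majorant of `exp (5u U)` for the ordering `π` -/
noncomputable def HH (c : ℝ≥0∞) (r : ℝ) {n : ℕ} (π : Equiv.Perm (Fin n)) (x : Fin n → Pt) : ℝ≥0∞ :=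
  ∏ i, (1 + c * ∑ j, if π i < π j ∧ dist (x i) (x j) < r then 1 else 0)

theorem measurable_HH (c : ℝ≥0∞) (r : ℝ) {n : ℕ} (π : Equiv.Perm (Fin n)) :
    Measurable (HH c r π) := by
  classical
  unfold HH
  refine Finset.measurable_prod _ fun i _ => Measurable.const_add (Measurable.const_mul ?_ _) _
  refine Finset.measurable_sum _ fun j _ => Measurable.ite ?_ measurable_const measurable_const
  by_cases h : π i < π j
  · simp only [h, true_and]
    exact measurableSet_lt (by fun_prop) measurable_const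
  · simp [h]

theorem HH_perm (c : ℝ≥0∞) (r : ℝ) {n : ℕ} (π : Equiv.Perm (Fin n)) (x : Fin n → Pt) :
    HH c r π x = HH c r 1 (x ∘ π.symm) := by
  classical
  unfold HH
  symm
  rw [← Equiv.prod_comp π]
  refine Finset.prod_congr rfl fun i _ => ?_
  rw [← Equiv.sum_comp π]
  simp only [Equiv.Perm.coe_one, id_eq, Function.comp_apply, Equiv.symm_apply_apply]

open Classical in
theorem HH_cons (c : ℝ≥0∞) (r : ℝ) {n : ℕ} (a : Pt) (y : Fin n → Pt) :
    HH c r 1 (Fin.cons a y : Fin (n + 1) → Pt) =
      (1 + c * ∑ j, if dist a (y j) < r then 1 else 0) * HH c r 1 y := by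
  unfold HH
  rw [Fin.prod_univ_succ]
  congr 1
  · rw [Fin.sum_univ_succ]
    simp
  · refine Finset.prod_congr rfl fun i _ => ?_
    rw [Fin.sum_univ_succ]
    simp only [Equiv.Perm.coe_one, id_eq, Fin.not_lt_zero, false_and, if_false, zero_add, Fin.cons_succ,
      Fin.succ_lt_succ_iff]
    congr

theorem volume_ball_le (z : Pt) {r : ℝ} (hr : 0 ≤ r) :
    volume {a : Pt | dist a z < r} ≤ ENNReal.ofReal ((2 * r) ^ 3) := by
  rw [← volume_cubeAt (fun k => z k - r) (by positivity)]
  refine measure_mono fun a ha k => ?_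
  have h1 : dist (a k) (z k) ≤ dist a z := PiLp.dist_apply_le a z k
  have h2 : dist a z < r := ha
  rw [Real.dist_eq] at h1
  have := abs_le.1 (h1.trans h2.le)
  constructor <;> linarith [this.1, this.2]

open Classical in
theorem lint_one (c : ℝ≥0∞) {r : ℝ} (hr : 0 ≤ r) (hc : c * ENNReal.ofReal ((2 * r) ^ 3) ≤ 1)
    (A : Set Pt) {n : ℕ} (y : Fin n → Pt) :
    ∫⁻ a, (1 + c * ∑ j, if dist a (y j) < r then 1 else 0) ∂(volume.restrict A) ≤ volume A + n := by
  have hm : ∀ j, MeasurableSet {a : Pt | dist a (y j) < r} := fun j =>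
    measurableSet_lt (by fun_prop) measurable_const
  have hf : ∀ j, Measurable fun a : Pt => if dist a (y j) < r then (1 : ℝ≥0∞) else 0 := fun j =>
    Measurable.ite (hm j) measurable_const measurable_const
  rw [lintegral_add_left measurable_const, lintegral_const_mul _ (Finset.measurable_sum _ fun j _ => hf j),
    lintegral_finsetSum _ fun j _ => hf j]
  refine add_le_add (by simp) ?_
  rw [Finset.mul_sum]
  calc ∑ j, c * ∫⁻ a, (if dist a (y j) < r then (1 : ℝ≥0∞) else 0) ∂(volume.restrict A)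
      ≤ ∑ _j : Fin n, (1 : ℝ≥0∞) := by
        refine Finset.sum_le_sum fun j _ => le_trans (mul_le_mul_right ?_ _) hc
        have e : (fun a : Pt => if dist a (y j) < r then (1 : ℝ≥0∞) else 0) =
            {a : Pt | dist a (y j) < r}.indicator 1 := by
          ext a; simp [Set.indicator]
        rw [e, lintegral_indicator_one (hm j)]
        exact (Measure.restrict_apply_le _ _).trans (volume_ball_le _ hr)
    _ = n := by simp

theorem lint_HH_one (c : ℝ≥0∞) {r : ℝ} (hr : 0 ≤ r) (hc : c * ENNReal.ofReal ((2 * r) ^ 3) ≤ 1)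
    (A : Set Pt) (n : ℕ) :
    ∫⁻ x : Fin n → Pt, HH c r 1 x ∂(Measure.pi fun _ => volume.restrict A) ≤ (volume A + n) ^ n := by
  classical
  induction n with
  | zero => simp [HH]
  | succ n ih =>
    have h1 := (measurePreserving_piFinSuccAbove (fun _ : Fin (n + 1) => volume.restrict A) 0).symm
    rw [← h1.lintegral_comp (measurable_HH c r 1)]
    have e : ∀ p : Pt × (Fin n → Pt),
        HH c r 1 ((MeasurableEquiv.piFinSuccAbove (fun _ : Fin (n + 1) => Pt) 0).symm p) =
          (1 + c * ∑ j, if dist p.1 (p.2 j) < r then 1 else 0) * HH c r 1 p.2 := by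
      intro p
      rw [← HH_cons]
      congr 1
      simp [MeasurableEquiv.piFinSuccAbove, Fin.insertNthEquiv]
    have hm : Measurable fun p : Pt × (Fin n → Pt) =>
        HH c r 1 ((MeasurableEquiv.piFinSuccAbove (fun _ : Fin (n + 1) => Pt) 0).symm p) :=
      (measurable_HH c r 1).comp (MeasurableEquiv.measurable _)
    rw [lintegral_prod_symm _ hm.aemeasurable]
    simp only [e]
    calc ∫⁻ y : Fin n → Pt, ∫⁻ a, (1 + c * ∑ j, if dist a (y j) < r then 1 else 0) * HH c r 1 y
            ∂(volume.restrict A) ∂(Measure.pi fun _ => volume.restrict A)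
        ≤ ∫⁻ y : Fin n → Pt, (volume A + n) * HH c r 1 y ∂(Measure.pi fun _ => volume.restrict A) := by
          refine lintegral_mono fun y => ?_
          have hf : Measurable fun a : Pt => (1 + c * ∑ j, if dist a (y j) < r then (1 : ℝ≥0∞) else 0) := by
            refine Measurable.const_add (Measurable.const_mul ?_ _) _
            exact Finset.measurable_sum _ fun j _ => Measurable.ite
              (measurableSet_lt (by fun_prop) measurable_const) measurable_const measurable_const
          simp only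
          rw [lintegral_mul_const _ hf]
          exact mul_le_mul_left (lint_one c hr hc A y) _
      _ = (volume A + n) * ∫⁻ y : Fin n → Pt, HH c r 1 y ∂(Measure.pi fun _ => volume.restrict A) :=
          lintegral_const_mul _ (measurable_HH c r 1)
      _ ≤ (volume A + n) * (volume A + n) ^ n := mul_le_mul_right ih _
      _ = (volume A + n) ^ (n + 1) := by ring
      _ ≤ (volume A + (n + 1 : ℕ)) ^ (n + 1) := by
          gcongr
          exact Nat.le_succ n

theorem lint_HH (c : ℝ≥0∞) {r : ℝ} (hr : 0 ≤ r) (hc : c * ENNReal.ofReal ((2 * r) ^ 3) ≤ 1)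
    (A : Set Pt) {n : ℕ} (π : Equiv.Perm (Fin n)) :
    ∫⁻ x : Fin n → Pt, HH c r π x ∂(Measure.pi fun _ => volume.restrict A) ≤ (volume A + n) ^ n := by
  have h2 := measurePreserving_arrowCongr' (fun _ : Fin n => volume.restrict A)
    (fun _ : Fin n => volume.restrict A) π (MeasurableEquiv.refl Pt) (fun _ => MeasurePreserving.id _)
  refine le_trans (le_of_eq ?_) (lint_HH_one c hr hc A n)
  rw [← h2.lintegral_comp (measurable_HH c r 1)]
  congr 1
  ext x
  rw [HH_perm]
  congr 1

/-- the inequality per particle -/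
theorem per_particle {β A B : ℝ} (hAB : ∀ k : ℕ, 1 ≤ k → B * k - A ≤ Fb β k) {k s : ℕ}
    (hs : 1 ≤ s) (hk : s ≤ k) :
    B - A * (1 / k) ≤ β * (3 * (k - 1) - 2 * (s - 1)) + 5 * (1 - 1 / s) := by
  have hk1 : 1 ≤ k := hs.trans hk
  have h1 := hAB k hk1
  have h2 : Fb β k ≤ 3 * β * k * (k - 1) := min_le_left _ _
  have h3 : Fb β k ≤ β * k * (k - 1) + 5 * (k - 1) := min_le_right _ _
  have hs' : (1 : ℝ) ≤ s := by exact_mod_cast hs
  have hk' : (s : ℝ) ≤ k := by exact_mod_cast hk
  have hkp : (0 : ℝ) < k := by linarith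
  have hsp : (0 : ℝ) < s := by linarith
  have h4 : Fb β k ≤ k * β * (3 * (k - 1) - 2 * (s - 1)) + 5 * (s - 1) := by
    rcases eq_or_lt_of_le hk1 with h | h
    · have e1 : (k : ℝ) = 1 := by exact_mod_cast h.symm
      have e2 : (s : ℝ) = 1 := by linarith
      rw [e1] at h2
      rw [e1, e2]
      linarith
    · have h' : (1 : ℝ) < k := by exact_mod_cast h
      have h5 := mul_le_mul_of_nonneg_left h2 (sub_nonneg.2 hk')
      have h6 := mul_le_mul_of_nonneg_left h3 (sub_nonneg.2 hs')
      have h7 : (k - 1 : ℝ) * Fb β k ≤ (k - 1) * (k * β * (3 * (k - 1) - 2 * (s - 1)) + 5 * (s - 1)) := by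
        nlinarith
      exact le_of_mul_le_mul_left h7 (by linarith)
  have h8 : (s - 1 : ℝ) ≤ k * (1 - 1 / s) := by
    have : (1 - 1 / s : ℝ) = (s - 1) / s := by field_simp
    rw [this, ← mul_div_assoc, le_div_iff₀ hsp]
    nlinarith
  have h9 : (k : ℝ) * (B - A * (1 / k)) ≤ k * (β * (3 * (k - 1) - 2 * (s - 1)) + 5 * (1 - 1 / s)) := by
    have : (k : ℝ) * (B - A * (1 / k)) = B * k - A := by field_simp
    rw [this]
    nlinarith
  exact le_of_mul_le_mul_left h9 hkp

theorem dl_pos (u : ℝ) : 0 < dl u := by unfold dl; positivity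

theorem dl_le {u : ℝ} (hu : 0 ≤ u) : dl u ≤ 1 / 4 := by
  unfold dl
  have : Real.exp (-5 * u / 3) ≤ 1 := Real.exp_le_one_iff.2 (by linarith)
  linarith

open Classical in
/-- energy lower bound in terms of neighbour counts -/
theorem En_ge {φ0 : ℝ → ℝ} {u : ℝ} (h : SR φ0 u) (hu : 0 ≤ u) {n : ℕ} (x : Fin n → Pt) :
    u * ∑ i, (3 * (((Finset.univ.filter fun j => dist (x i) (x j) < 5 / 4).card : ℝ) - 1) -
      2 * (((Finset.univ.filter fun j => dist (x i) (x j) < 2 * dl u).card : ℝ) - 1)) ≤ En φ0 x := by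
  unfold En EnS
  rw [Finset.mul_sum, Finset.sum_div]
  refine Finset.sum_le_sum fun i _ => ?_
  have hd := dl_pos u
  have hd' := dl_le hu
  have key : ∑ j, (6 * u * (if dist (x i) (x j) < 5 / 4 then (1 : ℝ) else 0) -
      4 * u * (if dist (x i) (x j) < 2 * dl u then (1 : ℝ) else 0) - (if i = j then 2 * u else 0)) ≤
      ∑ j, if i = j then 0 else φ0 (dist (x i) (x j)) := by
    refine Finset.sum_le_sum fun j _ => ?_
    by_cases hij : i = j
    · subst hij
      have : (0 : ℝ) < 2 * dl u := by positivity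
      simp only [dist_self, this, if_true]
      norm_num
      linarith
    · simp only [hij, if_false, sub_zero]
      by_cases h1 : dist (x i) (x j) < 2 * dl u
      · have h2 : dist (x i) (x j) < 5 / 4 := by linarith
        have := h.lo2 _ dist_nonneg h2
        simp only [h1, h2, if_true]
        linarith
      · by_cases h2 : dist (x i) (x j) < 5 / 4
        · have := h.lo6 _ (not_lt.1 h1) h2
          simp only [h1, h2, if_true, if_false]
          linarith
        · have := h.nonneg (dist (x i) (x j))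
          simp only [h1, h2, if_false]
          linarith
  rw [Finset.sum_sub_distrib, Finset.sum_sub_distrib, ← Finset.mul_sum, ← Finset.mul_sum, Finset.sum_boole,
    Finset.sum_boole, Finset.sum_ite_eq] at key
  simp only [Finset.mem_univ, if_true] at key
  linarith

open Classical in
/-- number of particles having a close neighbour later in the ordering -/
noncomputable def UU (r : ℝ) {n : ℕ} (π : Equiv.Perm (Fin n)) (x : Fin n → Pt) : ℝ :=
  ∑ i, if ∀ j ∈ Finset.univ.filter (fun j => dist (x i) (x j) < r), π j ≤ π i then 0 else 1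

open Classical in
theorem sum_UU {r : ℝ} (hr : 0 < r) {n : ℕ} (x : Fin n → Pt) :
    ∑ π : Equiv.Perm (Fin n), UU r π x =
      n.factorial * ∑ i, (1 - 1 / ((Finset.univ.filter fun j => dist (x i) (x j) < r).card : ℝ)) := by
  unfold UU
  rw [Finset.sum_comm, Finset.mul_sum]
  refine Finset.sum_congr rfl fun i _ => ?_
  set s := Finset.univ.filter (fun j => dist (x i) (x j) < r) with hs
  have hi : i ∈ s := by simp [hs, hr]
  have h1 := card_perm_max s hi
  have h2 : (0 : ℝ) < s.card := by exact_mod_cast Finset.card_pos.2 ⟨i, hi⟩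
  have h3 : (((Finset.univ.filter fun π : Equiv.Perm (Fin n) => ∀ j ∈ s, π j ≤ π i).card : ℝ)) * s.card =
      n.factorial := by exact_mod_cast h1
  have h4 : ∀ π : Equiv.Perm (Fin n), (if ∀ j ∈ s, π j ≤ π i then (0 : ℝ) else 1) =
      1 - (if ∀ j ∈ s, π j ≤ π i then (1 : ℝ) else 0) := by
    intro π; split_ifs <;> simp
  simp only [h4]
  rw [Finset.sum_sub_distrib, Finset.sum_boole]
  simp only [Finset.sum_const, Finset.card_univ, Fintype.card_perm, Fintype.card_fin, nsmul_eq_mul, mul_one]
  rw [← h3]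
  field_simp

theorem exp_UU_le (t : ℝ) (r : ℝ) {n : ℕ} (π : Equiv.Perm (Fin n)) (x : Fin n → Pt) :
    ENNReal.ofReal (Real.exp (t * UU r π x)) ≤ HH (ENNReal.ofReal (Real.exp t)) r π x := by
  classical
  unfold UU HH
  rw [Finset.mul_sum, Real.exp_sum, ENNReal.ofReal_prod_of_nonneg fun i _ => (Real.exp_pos _).le]
  refine Finset.prod_le_prod' fun i _ => ?_
  split_ifs with h
  · simp
  · push Not at h
    obtain ⟨j, hj, hlt⟩ := h
    have hj' : dist (x i) (x j) < r := (Finset.mem_filter.1 hj).2
    rw [mul_one]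
    refine le_trans ?_ le_add_self
    refine le_mul_of_one_le_right' ?_
    refine le_trans ?_ (Finset.single_le_sum (fun _ _ => zero_le) (Finset.mem_univ j))
    simp [hlt, hj']

theorem exp_avg_le {ι : Type} [Fintype ι] [Nonempty ι] (f : ι → ℝ) :
    Real.exp ((∑ i, f i) / Fintype.card ι) ≤ (∑ i, Real.exp (f i)) / Fintype.card ι := by
  have hc : (0 : ℝ) < Fintype.card ι := by exact_mod_cast Fintype.card_pos
  have := convexOn_exp.map_sum_le (t := Finset.univ) (w := fun _ : ι => (1 : ℝ) / Fintype.card ι) (p := f)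
    (fun _ _ => by positivity) (by simp) (fun _ _ => mem_univ _)
  simp only [smul_eq_mul] at this
  rw [← Finset.mul_sum, ← Finset.mul_sum] at this
  rw [div_eq_mul_one_div, mul_comm, div_eq_mul_one_div (∑ i, Real.exp (f i)), mul_comm (∑ i, Real.exp (f i))]
  exact this

end BU

open BU in
theorem baseU_fin {φ0 : ℝ → ℝ} {u : ℝ} (h : SR φ0 u) (hu : 0 ≤ u) {β A B : ℝ} (hβ : 0 ≤ β) (hA : 0 ≤ A)
    (hAB : ∀ k : ℕ, 1 ≤ k → B * k - A ≤ Fb β k) {L : ℝ} (hL : 0 < L) (n : ℕ) :
    aa (fun r => β * φ0 r) L n ≤ L ^ 3 + n - u * B * n + u * A * Pk L := by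
  classical
  have hd := dl_pos u
  have hd' := dl_le hu
  set r := 2 * dl u with hr
  have hr0 : 0 < r := by positivity
  set K := -(u * B * n) + u * A * Pk L with hK
  set c := ENNReal.ofReal (Real.exp (5 * u)) with hc
  have hc1 : c * ENNReal.ofReal ((2 * r) ^ 3) ≤ 1 := by
    rw [hc, ← ENNReal.ofReal_mul (Real.exp_pos _).le]
    have : (2 * r) ^ 3 = Real.exp (-(5 * u)) := by
      have e : 2 * r = Real.exp (-5 * u / 3) := by rw [hr, dl]; ring
      rw [e, ← Real.exp_nat_mul]; congr 1; push_cast; ring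
    rw [this, ← Real.exp_add]
    simp
  have hst : Stab (fun r => β * φ0 r) := by
    refine ⟨h.meas.const_mul β, 0, fun m x => ?_⟩
    have : EnS (fun _ => 0) Finset.univ x ≤ EnS (fun r => β * φ0 r) Finset.univ x :=
      EnS_mono (fun r _ => mul_nonneg hβ (h.nonneg r)) _ _
    simpa [En, EnS] using this
  have hnf : (0 : ℝ) < n.factorial := by exact_mod_cast n.factorial_pos
  -- pointwise bound
  have hpt : ∀ x : Fin n → Pt, (∀ i, x i ∈ cube L) →
      ENNReal.ofReal (Real.exp (-En (fun r => β * φ0 r) x)) ≤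
        ENNReal.ofReal (Real.exp K / n.factorial) * ∑ π : Equiv.Perm (Fin n), HH c r π x := by
    intro x hx
    have e1 : En (fun r => β * φ0 r) x = β * En φ0 x := EnS_smul _ _ _ _
    have h1 := mul_le_mul_of_nonneg_left (En_ge h hu x) hβ
    have h2 := caro_wei Finset.univ x (fun _ => 0) L fun i _ => by rw [← cube_eq]; exact hx i
    have h3 : ∑ i, (B - A * (1 / ((Finset.univ.filter fun j => dist (x i) (x j) < 5 / 4).card : ℝ))) ≤
        ∑ i, (β * (3 * (((Finset.univ.filter fun j => dist (x i) (x j) < 5 / 4).card : ℝ) - 1) -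
          2 * (((Finset.univ.filter fun j => dist (x i) (x j) < r).card : ℝ) - 1)) +
          5 * (1 - 1 / ((Finset.univ.filter fun j => dist (x i) (x j) < r).card : ℝ))) := by
      refine Finset.sum_le_sum fun i _ => per_particle hAB ?_ ?_
      · exact Finset.card_pos.2 ⟨i, by simp [hr0]⟩
      · refine Finset.card_le_card fun j hj => ?_
        simp only [Finset.mem_filter, Finset.mem_univ, true_and] at hj ⊢
        linarith
    rw [Finset.sum_sub_distrib, Finset.sum_add_distrib, ← Finset.mul_sum, ← Finset.mul_sum,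
      ← Finset.mul_sum] at h3
    simp only [Finset.sum_const, Finset.card_univ, Fintype.card_fin, nsmul_eq_mul] at h3
    have h4 := sum_UU hr0 x
    have h5 := exp_avg_le fun π : Equiv.Perm (Fin n) => 5 * u * UU r π x
    rw [← Finset.mul_sum, h4, Fintype.card_perm, Fintype.card_fin] at h5
    set S := ∑ i, (1 - 1 / ((Finset.univ.filter fun j => dist (x i) (x j) < r).card : ℝ)) with hS
    have e2 : 5 * u * (n.factorial * S) / n.factorial = 5 * u * S := by field_simp
    rw [e2] at h5
    have h6 : -En (fun r => β * φ0 r) x ≤ K + 5 * u * S := by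
      rw [e1, hK]
      have h7 := mul_le_mul_of_nonneg_left h3 hu
      have h8 := mul_le_mul_of_nonneg_left h2 (mul_nonneg hu hA)
      nlinarith
    calc ENNReal.ofReal (Real.exp (-En (fun r => β * φ0 r) x))
        ≤ ENNReal.ofReal (Real.exp K / n.factorial *
            ∑ π : Equiv.Perm (Fin n), Real.exp (5 * u * UU r π x)) := by
          refine ENNReal.ofReal_le_ofReal ((Real.exp_le_exp.2 h6).trans ?_)
          rw [Real.exp_add]
          refine (mul_le_mul_of_nonneg_left h5 (Real.exp_pos _).le).trans (le_of_eq ?_)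
          ring
      _ ≤ _ := by
          rw [ENNReal.ofReal_mul (by positivity),
            ENNReal.ofReal_sum_of_nonneg fun _ _ => (Real.exp_pos _).le]
          exact mul_le_mul_right (Finset.sum_le_sum fun π _ => exp_UU_le _ _ π x) _
  have hint : ∫⁻ x : Fin n → Pt, ENNReal.ofReal (Real.exp (-En (fun r => β * φ0 r) x))
      ∂(Measure.pi fun _ => volume.restrict (cube L)) ≤ ENNReal.ofReal (Real.exp K * (L ^ 3 + n) ^ n) := by
    refine le_trans (lintegral_mono_ae ?_ (g := fun x => ENNReal.ofReal (Real.exp K / n.factorial) *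
      ∑ π : Equiv.Perm (Fin n), HH c r π x)) ?_
    · filter_upwards [ae_mem_pi (fun _ : Fin n => cube L) fun _ => measurableSet_cube L] with x hx
      exact hpt x hx
    · rw [lintegral_const_mul _ (Finset.measurable_sum _ fun π _ => measurable_HH c r π),
        lintegral_finsetSum _ fun π _ => measurable_HH c r π]
      refine le_trans (mul_le_mul_right (Finset.sum_le_sum fun π _ => lint_HH c hr0.le hc1 (cube L) π) _)
        (le_of_eq ?_)
      have hL3 : 0 ≤ L ^ 3 := by positivity
      rw [volume_cube hL.le, Finset.sum_const, Finset.card_univ, Fintype.card_perm, Fintype.card_fin,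
        nsmul_eq_mul, ← ENNReal.ofReal_natCast n.factorial, ← ENNReal.ofReal_natCast n,
        ← ENNReal.ofReal_add hL3 (Nat.cast_nonneg _), ← ENNReal.ofReal_pow (by positivity),
        ← ENNReal.ofReal_mul (Nat.cast_nonneg _), ← ENNReal.ofReal_mul (by positivity)]
      congr 1
      field_simp
  have hf : volume (cube L) ≠ ⊤ := by rw [volume_cube hL.le]; simp
  have hz : zz (fun r => β * φ0 r) (cube L) n ≤ Real.exp (K + (L ^ 3 + n)) := by
    unfold zz
    rw [← ofReal_integral_eq_lintegral_ofReal (hst.integrable _ fun _ => hf)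
      (Eventually.of_forall fun x => (Real.exp_pos _).le),
      ENNReal.ofReal_le_ofReal_iff (by positivity)] at hint
    refine (div_le_div_of_nonneg_right hint hnf.le).trans ?_
    rw [Real.exp_add K, mul_div_assoc]
    exact mul_le_mul_of_nonneg_left (Real.pow_div_factorial_le_exp _ (by positivity) n) (Real.exp_pos _).le
  unfold aa
  rw [Real.log_le_iff_le_exp (zz_cube_pos hst hL n)]
  refine hz.trans (le_of_eq ?_)
  congr 1
  rw [hK]; ring

end Crest.Agent.R149
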