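import Crest.Prelude.Def_UnitPacking

/-!
# Row 149 (continuum phase transition): shared definitions

Overall plan: the potential is `φ = φ0 - W`, `φ0 ≥ 0` short range, `W` a sum of Gaussian Kac potentials on
rapidly growing scales.  Files: `Part` (basic facts on `zz`), `Dec` (cell decompositions), `TL` (thermodynamic limit),
`Pack` (packing density, Caro–Wei), `Gauss` (Gaussian kernels), `BaseU`, `BaseL` (short range potential), `LP`
(quantitative Lebowitz–Penrose step), `AL` (abstract real-analysis lemma producing the kink), `Final`.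
-/

set_option autoImplicit false

open MeasureTheory Filter Topology Set
open Crest.ProbabilityR.Continuum

namespace Crest.Agent.R149

/-- energy of the particles with index in `s` -/
noncomputable def EnS (Φ : ℝ → ℝ) {ι : Type} [DecidableEq ι] (s : Finset ι) (x : ι → Pt) : ℝ :=
  (∑ i ∈ s, ∑ j ∈ s, if i = j then 0 else Φ (dist (x i) (x j))) / 2

/-- energy of a configuration of `n` particles -/
noncomputable def En (Φ : ℝ → ℝ) {n : ℕ} (x : Fin n → Pt) : ℝ := EnS Φ Finset.univ x

/-- measurable and stable -/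
structure Stab (Φ : ℝ → ℝ) : Prop where
  meas : Measurable Φ
  stable : ∃ B : ℝ, ∀ (n : ℕ) (x : Fin n → Pt), -B * n ≤ En Φ x

/-- measurable, stable, and nonpositive at distance `≥ 2` -/
structure Good (Φ : ℝ → ℝ) : Prop extends Stab Φ where
  neg : ∀ r, 2 ≤ r → Φ r ≤ 0

/-- closed cube with lower corner `v` and side `L` -/
def cubeAt (v : Fin 3 → ℝ) (L : ℝ) : Set Pt := {x | ∀ k, v k ≤ x k ∧ x k ≤ v k + L}

/-- the closed cell with label `c` of the grid of mesh `lam`, shifted diagonally by `t` -/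
def cell (lam t : ℝ) (c : Fin 3 → ℤ) : Set Pt := cubeAt (fun k => t + lam * c k) lam

/-- partition function of `n` particles in `A` (inverse temperature absorbed in `Φ`) -/
noncomputable def zz (Φ : ℝ → ℝ) (A : Set Pt) (n : ℕ) : ℝ :=
  (∫ x : Fin n → Pt, Real.exp (-En Φ x) ∂(Measure.pi fun _ => volume.restrict A)) / n.factorial

/-- log partition function of the cube -/
noncomputable def aa (Φ : ℝ → ℝ) (L : ℝ) (n : ℕ) : ℝ := Real.log (zz Φ (cube L) n)

/-- the limit of `a L ⌊ρ L³⌋ / L³` (defined as a liminf) -/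
noncomputable def slim (a : ℝ → ℕ → ℝ) (ρ : ℝ) : ℝ :=
  liminf (fun L : ℝ => a L ⌊ρ * L ^ 3⌋₊ / L ^ 3) atTop

/-- minus the free energy density (times β) -/
noncomputable def ss (Φ : ℝ → ℝ) (ρ : ℝ) : ℝ := slim (aa Φ) ρ

/-- fibre of a labelling -/
def fib {N : ℕ} {C : Type} [DecidableEq C] (f : Fin N → C) (c : C) : Finset (Fin N) :=
  Finset.univ.filter (fun i => f i = c)

/-- number of ordered pairs (diagonal included) with equal labels -/
noncomputable def QQ {n : ℕ} {C : Type} [DecidableEq C] (c : Fin n → C) : ℝ :=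
  ∑ i, ∑ j, if c i = c j then 1 else 0

/-- normalised Gaussian kernel of range `R` in three dimensions -/
noncomputable def JJ (R r : ℝ) : ℝ := (√Real.pi * R)⁻¹ ^ 3 * Real.exp (-(r / R) ^ 2)

/-- packing number for separation `D = 5/4` -/
noncomputable def Pk (L : ℝ) : ℕ := packingNumber (L / (5 / 4))

/-- free energy of a cluster of `k` particles (units of `u`) -/
noncomputable def Fb (β : ℝ) (k : ℕ) : ℝ :=
  min (3 * β * k * (k - 1)) (β * k * (k - 1) + 5 * (k - 1))

/-- binding length: `(4 δ)³ = exp (-5u)` -/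
noncomputable def dl (u : ℝ) : ℝ := Real.exp (-5 * u / 3) / 4

/-- width of the edge of the repulsive shoulder -/
noncomputable def om : ℝ := 1 / 10 ^ 8

/-- assumptions on the short-range potential -/
structure SR (φ0 : ℝ → ℝ) (u : ℝ) : Prop where
  meas : Measurable φ0
  nonneg : ∀ r, 0 ≤ φ0 r
  lo2 : ∀ r, 0 ≤ r → r < 5 / 4 → 2 * u ≤ φ0 r
  lo6 : ∀ r, 2 * dl u ≤ r → r < 5 / 4 → 6 * u ≤ φ0 r
  zero : ∀ r, 5 / 4 + om ≤ r → φ0 r = 0
  up6 : ∀ r, dl u / 16 ≤ r → φ0 r ≤ 6 * u
  up2 : ∀ r, dl u / 16 ≤ r → r ≤ dl u → φ0 r ≤ 2 * u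

end Crest.Agent.R149
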