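import Crest.Agent.R149.Main

/-!
# Row 149: choice of the parameters, the kink, and the two short-range potentials
-/

set_option autoImplicit false

open MeasureTheory Filter Topology Set
open Crest.ProbabilityR.Continuum

namespace Crest.Agent.R149

theorem exists_par : ∃ p0 l u : ℝ, 0 < p0 ∧
    Tendsto (fun L : ℝ => (packingNumber L : ℝ) / L ^ 3) atTop (𝓝 p0) ∧ 1 ≤ l ∧ 0 < u ∧
    ∀ φ0, SR φ0 u → Par φ0 (64 / 125 * p0) l u := by
  obtain ⟨p0, hp0, hlim⟩ := exists_packing_density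
  have h1 : Tendsto (fun L : ℝ => (Pk L : ℝ) / L ^ 3) atTop (𝓝 (64 / 125 * p0)) := by
    have := (hlim.comp (tendsto_id.atTop_div_const (r := 5 / 4) (by norm_num))).const_mul (64 / 125)
    refine this.congr' ?_
    filter_upwards [eventually_gt_atTop 0] with L hL
    simp only [Function.comp, id, Pk]
    field_simp; ring
  obtain ⟨l, hl1, hl2⟩ := ((h1.eventually (gt_mem_nhds (by linarith : 64 / 125 * p0 < 9 / 8 * (64 / 125 * p0)))).and
    (eventually_ge_atTop 1)).exists
  set u := 10 ^ 6 + 10 ^ 6 / (64 / 125 * p0) + 10 ^ 6 * |C0| with hu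
  have g1 : 0 ≤ 10 ^ 6 / (64 / 125 * p0) := by positivity
  have g2 : 0 ≤ 10 ^ 6 * |C0| := by positivity
  refine ⟨p0, l, u, hp0, hlim, hl2, by positivity, fun φ0 hφ => ⟨hφ, by positivity, h1, hl2, ?_, by linarith, ?_,
    by linarith⟩⟩
  · rw [div_lt_iff₀ (by positivity)] at hl1
    exact hl1.le
  · rw [← div_le_iff₀ (by positivity)]; linarith

theorem kink_of_convex {s : ℝ → ℝ} (hs : ConvexOn ℝ (Ioi 0) s) {βc c d : ℝ} (hβ : 0 < βc) (hcd : c < d)
    (h : ∀ t ∈ Ioo (0 : ℝ) (1 / 32), s βc - c * t ≤ s (βc + t) ∧ s βc + d * t ≤ s (βc - t)) :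
    ∃ Dl Dr : ℝ, HasDerivWithinAt (fun β => -(1 / β) * s β) Dl (Iio βc) βc ∧
      HasDerivWithinAt (fun β => -(1 / β) * s β) Dr (Ioi βc) βc ∧ Dr < Dl := by
  have hi : βc ∈ interior (Ioi (0 : ℝ)) := by rw [interior_Ioi]; exact hβ
  have h1 := hs.hasDerivWithinAt_leftDeriv_of_mem_interior hi
  have h2 := hs.hasDerivWithinAt_rightDeriv_of_mem_interior hi
  set a := derivWithin s (Iio βc) βc
  set b := derivWithin s (Ioi βc) βc
  have ha : a ≤ -d := by
    have t := (hasDerivWithinAt_iff_tendsto_slope' (by simp)).1 h1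
    refine le_of_tendsto t ?_
    filter_upwards [Ioo_mem_nhdsLT (by linarith : βc - 1 / 32 < βc)] with y hy
    have := (h (βc - y) ⟨by linarith [hy.2], by linarith [hy.1]⟩).2
    rw [slope_def_field, div_le_iff_of_neg (by linarith [hy.2])]
    rw [sub_sub_cancel] at this
    linarith
  have hb : -c ≤ b := by
    have t := (hasDerivWithinAt_iff_tendsto_slope' (by simp)).1 h2
    refine ge_of_tendsto t ?_
    filter_upwards [Ioo_mem_nhdsGT (by linarith : βc < βc + 1 / 32)] with y hy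
    have := (h (y - βc) ⟨by linarith [hy.1], by linarith [hy.2]⟩).1
    rw [slope_def_field, le_div_iff₀ (by linarith [hy.1])]
    rw [add_sub_cancel] at this
    linarith
  have h0 : HasDerivAt (fun β : ℝ => -(1 / β)) (1 / βc ^ 2) βc := by
    have := (hasDerivAt_inv hβ.ne').fun_neg
    simp only [neg_neg] at this
    simp only [one_div]
    exact this
  refine ⟨_, _, h0.hasDerivWithinAt.mul h1, h0.hasDerivWithinAt.mul h2, ?_⟩
  have : 0 < 1 / βc := by positivity
  nlinarith

variable {φ0 : ℝ → ℝ} {p l u : ℝ}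

theorem Par.kink (h : Par φ0 p l u) : ∃ βc ∈ Icc (15 / 16 : ℝ) (17 / 16), ∀ ρ ∈ Icc (16 / 5 * p) (33 / 10 * p),
    ∃ Dl Dr : ℝ,
      HasDerivWithinAt (fun β => -(1 / β) * ss (fun r => β * (φ0 r - u / p * WI l r)) ρ) Dl (Iio βc) βc ∧
      HasDerivWithinAt (fun β => -(1 / β) * ss (fun r => β * (φ0 r - u / p * WI l r)) ρ) Dr (Ioi βc) βc ∧
      Dr < Dl := by
  obtain ⟨βc, hβc, hk⟩ := abstract_kink h.alHyp
  have hp := h.hp
  have hup : 0 < u * p := by linarith [h.hup]
  refine ⟨βc, hβc, fun ρ hρ => ?_⟩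
  have h1 := h.goodI (β := 1) zero_le_one
  simp only [one_mul] at h1
  have hρ0 : 0 ≤ ρ := le_trans (by positivity) hρ.1
  refine kink_of_convex (ss_convex h1 hρ0) (c := 3 * (u * p)) (d := 19 / 5 * (u * p)) (by linarith [hβc.1])
    (by linarith) fun t ht => ?_
  have h2 := hk (ρ / p) ⟨by rw [le_div_iff₀ hp]; exact hρ.1, by rw [div_le_iff₀ hp]; exact hρ.2⟩ t ht
  have e : p * (ρ / p) = ρ := by field_simp
  simp only [sigI, e] at h2
  obtain ⟨h3, h4⟩ := h2
  rw [div_sub' hup.ne', div_le_div_iff_of_pos_right hup] at h3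
  rw [div_add' _ _ _ hup.ne', div_le_div_iff_of_pos_right hup] at h4
  constructor <;> linarith

theorem Par.tendsto_free (h : Par φ0 p l u) {ρ β : ℝ} (hρ : 0 ≤ ρ) (hβ : 0 < β) :
    Tendsto (fun L : ℝ => -(1 / (β * L ^ 3)) *
      Real.log (partitionFn (fun r => φ0 r - u / p * WI l r) L ⌊ρ * L ^ 3⌋₊ β)) atTop
      (𝓝 (-(1 / β) * ss (fun r => β * (φ0 r - u / p * WI l r)) ρ)) := by
  refine (((h.goodI hβ.le).tendsto hρ).const_mul (-(1 / β))).congr fun L => ?_
  rw [partitionFn_eq, aa]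
  ring

theorem Par.stable (h : Par φ0 p l u) : ∃ B : ℝ, ∀ (N : ℕ) (x : Fin N → Pt),
    -B * N ≤ energy (fun r => φ0 r - u / p * WI l r) x := by
  have h1 := h.goodI (β := 1) zero_le_one
  simp only [one_mul] at h1
  simpa only [En_eq_energy] using h1.stable

/-- clamp to `[0,1]` -/
noncomputable def clamp (t : ℝ) : ℝ := max 0 (min 1 t)

theorem clamp_nonneg (t : ℝ) : 0 ≤ clamp t := le_max_left _ _
theorem clamp_le_one (t : ℝ) : clamp t ≤ 1 := max_le zero_le_one (min_le_left _ _)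
theorem clamp_of_nonpos {t : ℝ} (h : t ≤ 0) : clamp t = 0 := max_eq_left ((min_le_right _ _).trans h)
theorem clamp_of_one_le {t : ℝ} (h : 1 ≤ t) : clamp t = 1 := by
  unfold clamp; rw [min_eq_left h, max_eq_right zero_le_one]

/-- the bounded continuous short-range potential -/
noncomputable def phiA (u r : ℝ) : ℝ :=
  2 * u + 4 * u * clamp ((r - dl u) / dl u) - 6 * u * clamp ((r - 5 / 4) / om)

theorem continuous_phiA (u : ℝ) : Continuous (phiA u) := by
  unfold phiA clamp; fun_prop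

theorem dl_pos (u : ℝ) : 0 < dl u := by unfold dl; positivity

theorem dl_le {u : ℝ} (hu : 0 < u) : dl u ≤ 1 / 4 := by
  unfold dl
  have : Real.exp (-5 * u / 3) ≤ 1 := Real.exp_le_one_iff.2 (by linarith)
  linarith

theorem om_pos : 0 < om := by unfold om; positivity

theorem phiA_le {u : ℝ} (hu : 0 < u) (r : ℝ) : phiA u r ≤ 6 * u := by
  have h1 := clamp_le_one ((r - dl u) / dl u)
  have h2 := clamp_nonneg ((r - 5 / 4) / om)
  unfold phiA; nlinarith

theorem sr_phiA {u : ℝ} (hu : 0 < u) : SR (phiA u) u := by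
  have hd := dl_pos u
  have hd' := dl_le hu
  have ho := om_pos
  have c1 : ∀ r, 2 * dl u ≤ r → clamp ((r - dl u) / dl u) = 1 := fun r hr =>
    clamp_of_one_le (by rw [le_div_iff₀ hd]; linarith)
  have c2 : ∀ r, r ≤ 5 / 4 → clamp ((r - 5 / 4) / om) = 0 := fun r hr =>
    clamp_of_nonpos (div_nonpos_of_nonpos_of_nonneg (by linarith) ho.le)
  refine ⟨(continuous_phiA u).measurable, fun r => ?_, fun r _ hr => ?_, fun r h1 h2 => ?_, fun r hr => ?_,
    fun r _ => phiA_le hu r, fun r _ hr => ?_⟩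
  · unfold phiA
    rcases le_total r (5 / 4) with h | h
    · rw [c2 r h]; nlinarith [clamp_nonneg ((r - dl u) / dl u)]
    · rw [c1 r (by linarith)]; nlinarith [clamp_le_one ((r - 5 / 4) / om)]
  · unfold phiA
    rw [c2 r hr.le]; nlinarith [clamp_nonneg ((r - dl u) / dl u)]
  · unfold phiA
    rw [c2 r h2.le, c1 r h1]; linarith
  · unfold phiA
    rw [c1 r (by linarith), clamp_of_one_le (by rw [le_div_iff₀ ho]; linarith)]; ring
  · unfold phiA
    rw [c2 r (by linarith), clamp_of_nonpos (div_nonpos_of_nonpos_of_nonneg (by linarith) hd.le)]; linarith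

/-- the divergent core -/
noncomputable def core (u r : ℝ) : ℝ := max 0 (1 / r - 16 / dl u)

theorem core_nonneg (u r : ℝ) : 0 ≤ core u r := le_max_left _ _

theorem core_zero {u r : ℝ} (h : dl u / 16 ≤ r) : core u r = 0 := by
  have hd := dl_pos u
  refine max_eq_left ?_
  have := one_div_le_one_div_of_le (by positivity) h
  rw [one_div_div] at this
  linarith

theorem measurable_core (u : ℝ) : Measurable (core u) := by
  unfold core; fun_prop

theorem sr_phiB {u : ℝ} (hu : 0 < u) : SR (fun r => phiA u r + core u r) u := by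
  have h := sr_phiA hu
  have hd := dl_le hu
  have ho := om_pos
  refine ⟨h.meas.add (measurable_core u), fun r => add_nonneg (h.nonneg r) (core_nonneg u r),
    fun r h1 h2 => by linarith [h.lo2 r h1 h2, core_nonneg u r],
    fun r h1 h2 => by linarith [h.lo6 r h1 h2, core_nonneg u r],
    fun r hr => by rw [h.zero r hr, core_zero (by linarith), add_zero],
    fun r hr => by rw [core_zero hr, add_zero]; exact h.up6 r hr,
    fun r h1 h2 => by rw [core_zero h1, add_zero]; exact h.up2 r h1 h2⟩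

/-- decay of the full potential -/
theorem Par.decay (h : Par φ0 p l u) : ∃ C : ℝ, ∀ r : ℝ, 2 ≤ r →
    |φ0 r - u / p * WI l r| ≤ C * r ^ (-(3 + 1 / 32 : ℝ)) := by
  obtain ⟨C, hC⟩ := WI_decay h.hl
  refine ⟨u / p * C, fun r hr => ?_⟩
  rw [h.sr.zero r (by unfold om; linarith), zero_sub, abs_neg,
    abs_of_nonneg (mul_nonneg h.a_pos.le (WI_nonneg h.hl r)), mul_assoc]
  exact mul_le_mul_of_nonneg_left (hC r (by linarith)) h.a_pos.le

end Crest.Agent.R149
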