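import Crest.Agent.R149.Part

/-!
# Row 149, task R149-Gauss: Gaussian kernels

Plan.  `dist x y ^ 2 = ∑ k, (x k - y k)²` (`EuclideanSpace.dist_eq`), so `exp (-(dist/R)²) = ∏ k, exp (-((x k - y k)/R)²)`.
`GC`: if `x i ∈ cell lam t (c i)` then `|x i k - x j k| ≥ (|c i k - c j k| - 1) lam`, so `JJ R (dist) ≤ κ (c i - c j)` with
`κ d = (√π R)⁻¹^3 ∏ k, e (d k)`, `e m = exp (-((max (|m|-1) 0) lam/R)²)`, and `∑_{m ∈ F} e m ≤ 3 + √π R/lam` for every finite `F ⊆ ℤ`
(compare with `∫_0^∞ exp (-(s lam/R)²) ds = √π R/(2 lam)`, `integral_gaussian_Ioi`, `AntitoneOn.sum_le_integral`).  With `n_a` the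
number of particles with label `a`: `∑_{a,b} n_a n_b κ(a-b) ≤ ∑_a n_a² ∑_b κ(a-b)` (AM-GM, symmetry); equivalently, pointwise
`∑_i ∑_j κ(c i - c j) = ∑_i ∑_j κ · (w_i/w_j + w_j/w_i)/2 …`.  Finally `(√π R)⁻¹ (3 + √π R/lam) ≤ (1 + 2 lam/R)/lam` as `√π ≥ 3/2`.
`gauss_lower`: with `K y = exp (-2 (‖y‖/R)²)`: `∫ K (y-a) K (y-b) dy = exp (-(dist a b/R)²) (π R²/4)^{3/2}` (parallelogram identity, translation
invariance, `GaussianFourier.integral_rexp_neg_mul_sq_norm`), `∫ K = (π R²/2)^{3/2}`.  For `F y = ∑_i K (y - x i)` and the box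
`Λ' = [-D, L+D]³`: `∫ F² ≥ ∫_Λ' (2cF - c²)`, `∫_Λ' K (y - x i) ≥ ∫_{‖y‖ ≤ D} K → ∫ K` as `D → ∞`; optimise `c`.
`shift_count`: with `X = ⌊x k / l⌋`, `Y = ⌊y k / l⌋`, `X ≤ Y`: `(X-σ)/M ≠ (Y-σ)/M` forces some integer `s ∈ (X, Y]` with `s % M = σ`, so
there are at most `Y - X ≤ |x k - y k|/l + 1` such `σ ∈ range M`; union bound over `k`.
-/

set_option autoImplicit false

open MeasureTheory Filter Topology Set
open Crest.ProbabilityR.Continuum

namespace Crest.Agent.R149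

theorem sqrt_pi_ge : (3 / 2 : ℝ) ≤ √Real.pi :=
  Real.le_sqrt_of_sq_le (by linarith [Real.pi_gt_three])

theorem sqrt_pi_le : √Real.pi ≤ (1.78 : ℝ) :=
  Real.sqrt_le_iff.mpr ⟨by norm_num, by linarith [Real.pi_lt_d2]⟩

theorem sqrt_pi_pos : 0 < √Real.pi := lt_of_lt_of_le (by norm_num) sqrt_pi_ge

theorem JJ_pos {R : ℝ} (hR : 0 < R) (r : ℝ) : 0 < JJ R r := by
  have := sqrt_pi_pos
  unfold JJ
  positivity

theorem JJ_le {R : ℝ} (hR : 0 < R) (r : ℝ) : JJ R r ≤ 1 / R ^ 3 := by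
  have h1 := sqrt_pi_ge
  have h2 : Real.exp (-(r / R) ^ 2) ≤ 1 := Real.exp_le_one_iff.mpr (by
    have := sq_nonneg (r / R); linarith)
  have h3 : (√Real.pi * R)⁻¹ ≤ R⁻¹ := inv_anti₀ hR (by nlinarith)
  unfold JJ
  calc (√Real.pi * R)⁻¹ ^ 3 * Real.exp (-(r / R) ^ 2) ≤ R⁻¹ ^ 3 * 1 := by gcongr
    _ = 1 / R ^ 3 := by simp

theorem continuous_JJ (R : ℝ) : Continuous (JJ R) := by
  unfold JJ
  fun_prop

theorem JJ_anti {R r r' : ℝ} (hR : 0 < R) (h0 : 0 ≤ r) (h : r ≤ r') : JJ R r' ≤ JJ R r := by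
  have := sqrt_pi_pos
  unfold JJ
  gcongr

theorem JJ_decay {R r : ℝ} (hR : 0 < R) (hr : 0 < r) :
    JJ R r ≤ R ^ (1 / 32 : ℝ) * r ^ (-(3 + 1 / 32 : ℝ)) := by
  have h1 := sqrt_pi_ge
  obtain ⟨s, rfl⟩ : ∃ s, r = s * R := ⟨r / R, by field_simp⟩
  have hs : 0 < s := (mul_pos_iff_of_pos_right hR).mp hr
  have h2 : R ^ (1 / 32 : ℝ) * (s * R) ^ (-(3 + 1 / 32 : ℝ)) =
      R⁻¹ ^ 3 * (s ^ (3 + 1 / 32 : ℝ))⁻¹ := by
    rw [Real.mul_rpow hs.le hR.le, Real.rpow_neg hs.le, mul_left_comm, ← Real.rpow_add hR, mul_comm]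
    congr 1
    rw [show (1 / 32 : ℝ) + -(3 + 1 / 32) = -(3 : ℕ) by norm_num, Real.rpow_neg hR.le,
      Real.rpow_natCast, inv_pow]
  have h3 : s ^ (3 + 1 / 32 : ℝ) ≤ 2 * Real.exp (s ^ 2) := by
    rcases le_total s 1 with h | h
    · have := Real.rpow_le_one hs.le h (z := 3 + 1 / 32) (by norm_num)
      have := Real.one_le_exp (sq_nonneg s)
      linarith
    · have h4 : s ^ (3 + 1 / 32 : ℝ) ≤ s ^ ((4 : ℕ) : ℝ) :=
        Real.rpow_le_rpow_of_exponent_le h (by norm_num)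
      rw [Real.rpow_natCast] at h4
      have h5 := Real.pow_div_factorial_le_exp (s ^ 2) (sq_nonneg s) 2
      norm_num [Nat.factorial] at h5
      nlinarith
  have h4 : 0 < s ^ (3 + 1 / 32 : ℝ) := Real.rpow_pos_of_pos hs _
  rw [h2]
  unfold JJ
  rw [mul_div_assoc, div_self hR.ne', mul_one, mul_inv, mul_pow, mul_comm (_ ^ 3) (R⁻¹ ^ 3),
    mul_assoc]
  gcongr
  rw [Real.exp_neg, inv_pow, ← mul_inv]
  refine inv_anti₀ h4 (h3.trans ?_)
  gcongr
  calc (2 : ℝ) ≤ (3 / 2) ^ 3 := by norm_num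
    _ ≤ _ := by gcongr

theorem JJ_weight {R l r : ℝ} (hl : 0 < l) (hR : l ≤ R) (hr : 0 ≤ r) :
    (r / l + 1) * JJ R r ≤ 16 * (R / l) * JJ (2 * R) r := by
  have h1 := sqrt_pi_pos
  have hR0 : 0 < R := hl.trans_le hR
  obtain ⟨s, rfl⟩ : ∃ s, r = s * R := ⟨r / R, by field_simp⟩
  have hs : 0 ≤ s := nonneg_of_mul_nonneg_left hr hR0
  have h2 : 1 ≤ R / l := (one_le_div hl).mpr hR
  have h3 : s * R / l + 1 ≤ (R / l) * (s + 1) := by
    rw [mul_div_assoc]; nlinarith
  have h4 : (s + 1) * Real.exp (-s ^ 2) ≤ 2 * Real.exp (-(s / 2) ^ 2) := by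
    have h5 : Real.exp (-(s / 2) ^ 2) = Real.exp (3 / 4 * s ^ 2) * Real.exp (-s ^ 2) := by
      rw [← Real.exp_add]; congr 1; ring
    rw [h5, ← mul_assoc]
    gcongr
    have := Real.add_one_le_exp (3 / 4 * s ^ 2)
    nlinarith [sq_nonneg (s - 1 / 3)]
  unfold JJ
  have e1 : s * R / R = s := by field_simp
  have e2 : s * R / (2 * R) = s / 2 := by field_simp
  have e3 : (√Real.pi * (2 * R))⁻¹ ^ 3 = (√Real.pi * R)⁻¹ ^ 3 / 8 := by field_simp; norm_num
  rw [e1, e2, e3]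
  calc (s * R / l + 1) * ((√Real.pi * R)⁻¹ ^ 3 * Real.exp (-s ^ 2))
      ≤ (R / l) * (s + 1) * ((√Real.pi * R)⁻¹ ^ 3 * Real.exp (-s ^ 2)) := by gcongr
    _ = (R / l) * (√Real.pi * R)⁻¹ ^ 3 * ((s + 1) * Real.exp (-s ^ 2)) := by ring
    _ ≤ (R / l) * (√Real.pi * R)⁻¹ ^ 3 * (2 * Real.exp (-(s / 2) ^ 2)) := by gcongr
    _ = _ := by ring

theorem dist_sq_eq (x y : Pt) : dist x y ^ 2 = ∑ k, (x k - y k) ^ 2 := by
  rw [EuclideanSpace.dist_eq, Real.sq_sqrt (Finset.sum_nonneg fun _ _ => sq_nonneg _)]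
  simp only [Real.dist_eq, sq_abs]

/-- two points of the same cell -/
theorem JJ_same_cell {l t : ℝ} (hl : 0 < l) {c : Fin 3 → ℤ} {x y : Pt} (hx : x ∈ cell l t c)
    (hy : y ∈ cell l t c) : 1 ≤ 120 * l ^ 3 * JJ l (dist x y) := by
  have h1 := sqrt_pi_pos
  have h2 : dist x y ^ 2 ≤ 3 * l ^ 2 := by
    rw [dist_sq_eq]
    calc ∑ k, (x k - y k) ^ 2 ≤ ∑ _k : Fin 3, l ^ 2 := Finset.sum_le_sum fun k _ => by
          have a := hx k
          have b := hy k
          exact sq_le_sq' (by linarith [a.1, b.2]) (by linarith [a.2, b.1])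
      _ = 3 * l ^ 2 := by simp
  have h3 : Real.exp (-3) ≤ Real.exp (-(dist x y / l) ^ 2) := by
    apply Real.exp_le_exp.mpr
    rw [div_pow, neg_le_neg_iff, div_le_iff₀ (by positivity)]
    exact h2
  have h4 : √Real.pi ^ 3 * Real.exp 3 ≤ 120 := by
    have e : Real.exp 3 = Real.exp 1 ^ 3 := by rw [← Real.exp_nat_mul]; norm_num
    have := Real.exp_one_lt_d9.le
    have := sqrt_pi_le
    calc √Real.pi ^ 3 * Real.exp 3 ≤ 1.78 ^ 3 * 2.7182818286 ^ 3 := by rw [e]; gcongr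
      _ ≤ 120 := by norm_num
  unfold JJ
  calc (1 : ℝ) ≤ 120 * (√Real.pi ^ 3 * Real.exp 3)⁻¹ := by
        rw [← div_eq_mul_inv, one_le_div (by positivity)]; exact h4
    _ = 120 * l ^ 3 * ((√Real.pi * l)⁻¹ ^ 3 * Real.exp (-3)) := by
        rw [Real.exp_neg]; field_simp
    _ ≤ _ := by gcongr

/-- one-dimensional majorant -/
noncomputable def eK (a : ℝ) (m : ℤ) : ℝ := Real.exp (-(max (|(m : ℝ)| - 1) 0 * a) ^ 2)

theorem eK_pos (a : ℝ) (m : ℤ) : 0 < eK a m := Real.exp_pos _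

theorem eK_neg (a : ℝ) (m : ℤ) : eK a (-m) = eK a m := by simp [eK]

theorem sum_eK_Icc (a : ℝ) (N : ℕ) : ∑ m ∈ Finset.Icc (-((N : ℤ) + 1)) (N + 1), eK a m =
    3 + 2 * ∑ k ∈ Finset.range N, Real.exp (-(a ^ 2) * ((k + 1 : ℕ) : ℝ) ^ 2) := by
  induction N with
  | zero =>
    have : Finset.Icc (-(((0 : ℕ) : ℤ) + 1)) (((0 : ℕ) : ℤ) + 1) = {-1, 0, 1} := by decide
    rw [this, Finset.sum_insert (by decide), Finset.sum_insert (by decide)]
    simp [eK]
    norm_num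
  | succ N ih =>
    have : Finset.Icc (-(((N + 1 : ℕ) : ℤ) + 1)) (((N + 1 : ℕ) : ℤ) + 1) =
        insert (-((N : ℤ) + 2)) (insert ((N : ℤ) + 2) (Finset.Icc (-((N : ℤ) + 1)) (N + 1))) := by
      ext m
      simp only [Finset.mem_Icc, Finset.mem_insert]
      omega
    rw [this, Finset.sum_insert (by simp only [Finset.mem_Icc, Finset.mem_insert]; omega),
      Finset.sum_insert (by simp only [Finset.mem_Icc]; omega), ih, eK_neg, Finset.sum_range_succ]
    have h1 : eK a ((N : ℤ) + 2) = Real.exp (-(a ^ 2) * ((N + 1 : ℕ) : ℝ) ^ 2) := by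
      unfold eK
      have h0 : (0 : ℝ) ≤ N := Nat.cast_nonneg N
      push_cast
      rw [abs_of_nonneg (by linarith), max_eq_left (by linarith)]
      congr 1; ring
    rw [h1]; ring

theorem sum_eK_le {a : ℝ} (ha : 0 < a) (F : Finset ℤ) : ∑ m ∈ F, eK a m ≤ 3 + √Real.pi / a := by
  obtain ⟨N, hN⟩ : ∃ N : ℕ, F ⊆ Finset.Icc (-((N : ℤ) + 1)) (N + 1) := by
    refine ⟨F.sup Int.natAbs, fun m hm => ?_⟩
    have := Finset.le_sup (f := Int.natAbs) hm
    rw [Finset.mem_Icc]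
    omega
  refine (Finset.sum_le_sum_of_subset_of_nonneg hN fun m _ _ => (eK_pos a m).le).trans ?_
  rw [sum_eK_Icc]
  have ha2 : 0 < a ^ 2 := by positivity
  have h1 : AntitoneOn (fun s : ℝ => Real.exp (-(a ^ 2) * s ^ 2)) (Icc (0 : ℝ) (0 + (N : ℕ))) := by
    intro s hs t _ hst
    have := hs.1
    apply Real.exp_le_exp.mpr
    have : s ^ 2 ≤ t ^ 2 := by gcongr
    nlinarith
  have h2 := h1.sum_le_integral
  simp only [zero_add] at h2
  have h3 : ∫ s in (0 : ℝ)..(N : ℝ), Real.exp (-(a ^ 2) * s ^ 2) ≤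
      ∫ s in Ioi (0 : ℝ), Real.exp (-(a ^ 2) * s ^ 2) := by
    rw [intervalIntegral.integral_of_le (Nat.cast_nonneg N)]
    exact setIntegral_mono_set (integrable_exp_neg_mul_sq ha2).integrableOn
      (Eventually.of_forall fun s => (Real.exp_pos _).le) (Ioc_subset_Ioi_self.eventuallyLE)
  rw [integral_gaussian_Ioi, Real.sqrt_div' _ ha2.le, Real.sqrt_sq ha.le] at h3
  linarith

theorem sum_pair_le {n : ℕ} {C : Type} [DecidableEq C] (c : Fin n → C) (κ : C → C → ℝ)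
    (hs : ∀ a b, κ a b = κ b a) (h0 : ∀ a b, 0 ≤ κ a b) {K : ℝ}
    (hK : ∀ a, ∑ b ∈ Finset.univ.image c, κ a b ≤ K) :
    ∑ i, ∑ j, κ (c i) (c j) ≤ K * QQ c := by
  set S := Finset.univ.image c with hS
  set w : C → ℝ := fun a => ((Finset.univ.filter fun i => c i = a).card : ℝ) with hw
  have key : ∀ g : C → ℝ, ∑ i, g (c i) = ∑ a ∈ S, w a * g a := by
    intro g
    rw [Finset.sum_comp g c]
    simp [hS, hw]
  have h1 : ∑ i, ∑ j, κ (c i) (c j) = ∑ a ∈ S, ∑ b ∈ S, w a * w b * κ a b := by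
    rw [key fun a => ∑ j, κ a (c j)]
    refine Finset.sum_congr rfl fun a _ => ?_
    rw [key (κ a), Finset.mul_sum]
    exact Finset.sum_congr rfl fun b _ => by ring
  have h2 : QQ c = ∑ a ∈ S, w a ^ 2 := by
    unfold QQ
    rw [key fun a => ∑ j, if a = c j then 1 else 0]
    refine Finset.sum_congr rfl fun a _ => ?_
    rw [sq]
    congr 1
    simp [hw, eq_comm]
  have h3 : ∑ a ∈ S, ∑ b ∈ S, w b ^ 2 * κ a b = ∑ a ∈ S, ∑ b ∈ S, w a ^ 2 * κ a b := by
    rw [Finset.sum_comm]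
    exact Finset.sum_congr rfl fun a _ => Finset.sum_congr rfl fun b _ => by rw [hs]
  have h4 : ∑ a ∈ S, ∑ b ∈ S, w a ^ 2 * κ a b ≤ K * QQ c := by
    rw [h2, Finset.mul_sum]
    refine Finset.sum_le_sum fun a _ => ?_
    rw [← Finset.mul_sum, mul_comm K]
    exact mul_le_mul_of_nonneg_left (hK a) (sq_nonneg _)
  have h5 : 2 * ∑ a ∈ S, ∑ b ∈ S, w a * w b * κ a b ≤
      ∑ a ∈ S, ∑ b ∈ S, w a ^ 2 * κ a b + ∑ a ∈ S, ∑ b ∈ S, w b ^ 2 * κ a b := by
    rw [Finset.mul_sum, ← Finset.sum_add_distrib]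
    refine Finset.sum_le_sum fun a _ => ?_
    rw [Finset.mul_sum, ← Finset.sum_add_distrib]
    refine Finset.sum_le_sum fun b _ => ?_
    nlinarith [mul_nonneg (sq_nonneg (w a - w b)) (h0 a b)]
  linarith

/-- cell-count upper bound -/
theorem GC {R lam t : ℝ} (hR : 0 < R) (hlam : 0 < lam) {n : ℕ} (x : Fin n → Pt) (c : Fin n → Fin 3 → ℤ)
    (hc : ∀ i, x i ∈ cell lam t (c i)) :
    ∑ i, ∑ j, JJ R (dist (x i) (x j)) ≤ (1 + 2 * lam / R) ^ 3 / lam ^ 3 * QQ c := by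
  have hpi := sqrt_pi_pos
  have ha : 0 < lam / R := by positivity
  let κ : (Fin 3 → ℤ) → (Fin 3 → ℤ) → ℝ := fun a b =>
    (√Real.pi * R)⁻¹ ^ 3 * ∏ k, eK (lam / R) (a k - b k)
  have h1 : ∀ i j, JJ R (dist (x i) (x j)) ≤ κ (c i) (c j) := by
    intro i j
    unfold JJ
    refine mul_le_mul_of_nonneg_left ?_ (by positivity)
    unfold eK
    rw [← Real.exp_sum, div_pow, dist_sq_eq, Finset.sum_div, ← Finset.sum_neg_distrib]
    refine Real.exp_le_exp.mpr (Finset.sum_le_sum fun k _ => neg_le_neg ?_)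
    rw [← mul_div_assoc, div_pow, ← sq_abs (x i k - x j k)]
    have a := hc i k
    have b := hc j k
    have : max (|((c i k - c j k : ℤ) : ℝ)| - 1) 0 * lam ≤ |x i k - x j k| := by
      rw [max_mul_of_nonneg _ _ hlam.le, zero_mul]
      refine max_le ?_ (abs_nonneg _)
      push_cast
      rcases abs_cases ((c i k : ℝ) - c j k) with h | h
      · rw [h.1]; refine le_trans ?_ (le_abs_self _); nlinarith [a.1, a.2, b.1, b.2]
      · rw [h.1]; refine le_trans ?_ (neg_le_abs _); nlinarith [a.1, a.2, b.1, b.2]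
    gcongr
  refine (Finset.sum_le_sum fun i _ => Finset.sum_le_sum fun j _ => h1 i j).trans ?_
  refine sum_pair_le c κ (fun a b => ?_) (fun a b => ?_) fun a => ?_
  · simp only [κ]
    congr 1
    exact Finset.prod_congr rfl fun k _ => by rw [← eK_neg, neg_sub]
  · have := fun k => eK_pos (lam / R) (a k - b k)
    exact mul_nonneg (by positivity) (Finset.prod_nonneg fun k _ => (this k).le)
  · have hsub : Finset.univ.image c ⊆
        Fintype.piFinset fun k => (Finset.univ.image c).image fun b => b k := by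
      intro b hb
      exact Fintype.mem_piFinset.mpr fun k => Finset.mem_image_of_mem _ hb
    simp only [κ]
    rw [← Finset.mul_sum]
    have h2 : ∑ b ∈ Finset.univ.image c, ∏ k, eK (lam / R) (a k - b k) ≤
        (3 + √Real.pi / (lam / R)) ^ 3 := by
      refine (Finset.sum_le_sum_of_subset_of_nonneg hsub fun b _ _ =>
        Finset.prod_nonneg fun k _ => (eK_pos _ _).le).trans ?_
      rw [← Finset.prod_univ_sum _ (fun k m => eK (lam / R) (a k - m))]
      calc _ ≤ ∏ _k : Fin 3, (3 + √Real.pi / (lam / R)) := by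
            refine Finset.prod_le_prod (fun k _ => Finset.sum_nonneg fun m _ => (eK_pos _ _).le)
              fun k _ => ?_
            rw [← Finset.sum_image (g := fun m => a k - m) (f := eK (lam / R))
              (fun m _ m' _ h => sub_right_injective h)]
            exact sum_eK_le ha _
        _ = _ := by simp
    calc _ ≤ (√Real.pi * R)⁻¹ ^ 3 * (3 + √Real.pi / (lam / R)) ^ 3 := by gcongr
      _ = ((1 + 3 / √Real.pi * lam / R) / lam) ^ 3 := by
          rw [← mul_pow]; congr 1; field_simp; ring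
      _ ≤ ((1 + 2 * lam / R) / lam) ^ 3 := by
          gcongr
          rw [div_le_iff₀ hpi]
          linarith [sqrt_pi_ge]
      _ = _ := by rw [div_pow]

theorem integral_gauss3 {b : ℝ} (hb : 0 < b) :
    ∫ v : Pt, Real.exp (-b * ‖v‖ ^ 2) = √(Real.pi / b) ^ 3 := by
  rw [GaussianFourier.integral_rexp_neg_mul_sq_norm hb, Real.sqrt_eq_rpow,
    ← Real.rpow_natCast, ← Real.rpow_mul (by positivity)]
  congr 1
  simp
  ring

theorem integrable_gauss3 {b : ℝ} (hb : 0 < b) :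
    Integrable fun v : Pt => Real.exp (-b * ‖v‖ ^ 2) := by
  apply Integrable.of_integral_ne_zero
  rw [integral_gauss3 hb]
  have := Real.pi_pos
  positivity

theorem gauss_prod (b : ℝ) (p q y : Pt) :
    Real.exp (-b * ‖y - p‖ ^ 2) * Real.exp (-b * ‖y - q‖ ^ 2) =
      Real.exp (-(b / 2) * dist p q ^ 2) *
        Real.exp (-(2 * b) * ‖y - (1 / 2 : ℝ) • (p + q)‖ ^ 2) := by
  rw [← Real.exp_add, ← Real.exp_add]
  congr 1
  simp only [← dist_eq_norm, dist_sq_eq, Fin.sum_univ_three, PiLp.smul_apply, PiLp.add_apply,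
    smul_eq_mul]
  ring

/-- positive-definiteness lower bound -/
theorem gauss_lower {R ε : ℝ} (hR : 0 < R) (hε : 0 < ε) : ∀ᶠ L : ℝ in atTop, ∀ (n : ℕ) (x : Fin n → Pt),
    (∀ i, x i ∈ cube L) → (1 - ε) * (n : ℝ) ^ 2 / L ^ 3 ≤ ∑ i, ∑ j, JJ R (dist (x i) (x j)) := by
  have hpi := sqrt_pi_pos
  have hpi' := Real.pi_pos
  set b : ℝ := 2 / R ^ 2 with hb
  have hb0 : 0 < b := by positivity
  let K : Pt → ℝ := fun v => Real.exp (-b * ‖v‖ ^ 2)
  have hKi : Integrable K := integrable_gauss3 hb0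
  have hK0 : ∀ v, 0 < K v := fun v => Real.exp_pos _
  set G : ℝ := ∫ v, K v with hG
  have hGv : G = √(Real.pi / b) ^ 3 := integral_gauss3 hb0
  have hG0 : 0 < G := by rw [hGv]; positivity
  -- the product formula
  have hprod : ∀ p q : Pt, Integrable (fun y => K (y - p) * K (y - q)) ∧
      ∫ y, K (y - p) * K (y - q) = G ^ 2 * JJ R (dist p q) := by
    intro p q
    have h2b : 0 < 2 * b := by positivity
    simp only [K, gauss_prod]
    refine ⟨((integrable_gauss3 h2b).comp_sub_right _).const_mul _, ?_⟩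
    rw [integral_const_mul, integral_sub_right_eq_self
      (fun v : Pt => Real.exp (-(2 * b) * ‖v‖ ^ 2)), integral_gauss3 h2b, hGv]
    unfold JJ
    have e1 : √(Real.pi / (2 * b)) = √Real.pi * R / 2 := by
      rw [Real.sqrt_eq_iff_mul_self_eq (by positivity) (by positivity)]
      have := Real.mul_self_sqrt hpi'.le
      rw [hb]; field_simp; nlinarith
    have e2 : (√(Real.pi / b) ^ 3) ^ 2 = (√Real.pi * R) ^ 6 / 8 := by
      have e4 : (√Real.pi * R) ^ 6 = (√Real.pi ^ 2) ^ 3 * R ^ 6 := by ring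
      rw [← pow_mul, show 3 * 2 = 2 * 3 from rfl, pow_mul, Real.sq_sqrt (by positivity), e4,
        Real.sq_sqrt hpi'.le, hb]
      field_simp; norm_num
    have e3 : -(b / 2) * dist p q ^ 2 = -(dist p q / R) ^ 2 := by rw [hb]; field_simp
    rw [e1, e2, e3]
    field_simp; norm_num
  -- truncation
  have hlim : Tendsto (fun D : ℝ => ∫ v in Metric.closedBall (0 : Pt) D, K v) atTop (𝓝 G) :=
    (aecover_closedBall tendsto_id).integral_tendsto_of_countably_generated hKi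
  have hlim2 : Tendsto (fun D : ℝ => (∫ v in Metric.closedBall (0 : Pt) D, K v) ^ 2 / G ^ 2) atTop
      (𝓝 1) := by
    have := (hlim.pow 2).div_const (G ^ 2)
    rwa [div_self (by positivity)] at this
  obtain ⟨D, hD, hD0⟩ := ((hlim2.eventually (lt_mem_nhds (show 1 - ε < 1 by linarith))).and
    (eventually_ge_atTop 0)).exists
  set I : ℝ := ∫ v in Metric.closedBall (0 : Pt) D, K v with hI
  have hlim3 : Tendsto (fun L : ℝ => I ^ 2 / G ^ 2 * (L / (L + 2 * D)) ^ 3) atTop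
      (𝓝 (I ^ 2 / G ^ 2)) := by
    have h1 : Tendsto (fun L : ℝ => L / (L + 2 * D)) atTop (𝓝 1) := by
      have h2 : Tendsto (fun L : ℝ => 1 - 2 * D / (L + 2 * D)) atTop (𝓝 (1 - 0)) :=
        tendsto_const_nhds.sub (tendsto_const_nhds.div_atTop
          (tendsto_atTop_add_const_right _ _ tendsto_id))
      rw [sub_zero] at h2
      refine h2.congr' ?_
      filter_upwards [eventually_gt_atTop 0] with L hL
      field_simp; ring
    have := (h1.pow 3).const_mul (I ^ 2 / G ^ 2)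
    simpa using this
  filter_upwards [hlim3.eventually (lt_mem_nhds hD), eventually_gt_atTop 0] with L hL hL0 n x hx
  set V : ℝ := (L + 2 * D) ^ 3 with hV
  have hV0 : 0 < V := by positivity
  set Λ : Set Pt := cubeAt (fun _ => -D) (L + 2 * D) with hΛ
  have hΛm : MeasurableSet Λ := measurableSet_cubeAt _ _
  have hΛv : volume Λ = ENNReal.ofReal V := volume_cubeAt _ (by positivity)
  set c : ℝ := n * I / V with hc
  have hI0 : 0 ≤ I := setIntegral_nonneg Metric.isClosed_closedBall.measurableSet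
    fun v _ => (hK0 v).le
  have hc0 : 0 ≤ c := by positivity
  let K' : Pt → ℝ := (Metric.closedBall (0 : Pt) D).indicator K
  have hK'i : Integrable K' := hKi.indicator Metric.isClosed_closedBall.measurableSet
  have hK'I : ∫ v, K' v = I := integral_indicator Metric.isClosed_closedBall.measurableSet
  have hci : Integrable (Λ.indicator fun _ : Pt => c ^ 2) :=
    (integrable_indicator_iff hΛm).mpr (integrableOn_const (by rw [hΛv]; exact ENNReal.ofReal_ne_top))
  have hpt : ∀ y, 2 * c * ∑ i, K' (y - x i) - Λ.indicator (fun _ : Pt => c ^ 2) y ≤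
      ∑ i, ∑ j, K (y - x i) * K (y - x j) := by
    intro y
    rw [← Finset.sum_mul_sum]
    have h1 : ∑ i, K' (y - x i) ≤ ∑ i, K (y - x i) := Finset.sum_le_sum fun i _ =>
      indicator_le_self' (fun v _ => (hK0 v).le) _
    by_cases hy : y ∈ Λ
    · rw [indicator_of_mem hy]
      nlinarith [sq_nonneg (∑ i, K (y - x i) - c)]
    · rw [indicator_of_notMem hy]
      have h2 : ∑ i, K' (y - x i) = 0 := Finset.sum_eq_zero fun i _ => by
        refine indicator_of_notMem (fun h => hy fun k => ?_) _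
        rw [mem_closedBall_zero_iff] at h
        have h3 : |y k - x i k| ≤ D := le_trans (PiLp.norm_apply_le (y - x i) k) h
        have h4 := hx i k
        rw [abs_le] at h3
        constructor <;> linarith [h3.1, h3.2, h4.1, h4.2]
      rw [h2]
      nlinarith [mul_self_nonneg (∑ i, K (y - x i))]
  have hsi : Integrable fun y => ∑ i, K' (y - x i) :=
    integrable_finsetSum _ fun i _ => hK'i.comp_sub_right _
  have hint : ∫ y, (2 * c * ∑ i, K' (y - x i) - Λ.indicator (fun _ : Pt => c ^ 2) y) ≤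
      ∫ y, ∑ i, ∑ j, K (y - x i) * K (y - x j) := integral_mono ((hsi.const_mul (2 * c)).sub hci)
    (integrable_finsetSum _ fun i _ => integrable_finsetSum _ fun j _ => (hprod (x i) (x j)).1) hpt
  rw [integral_sub (hsi.const_mul (2 * c)) hci, integral_const_mul,
    integral_finsetSum _ fun i _ => hK'i.comp_sub_right _, integral_indicator hΛm,
    integral_finsetSum _ fun i _ => integrable_finsetSum _ fun j _ => (hprod (x i) (x j)).1] at hint
  simp only [integral_sub_right_eq_self K', hK'I, Finset.sum_const, Finset.card_univ,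
    Fintype.card_fin, nsmul_eq_mul, setIntegral_const, Measure.real, hΛv,
    ENNReal.toReal_ofReal hV0.le, smul_eq_mul] at hint
  have h5 : ∑ i, ∫ y, ∑ j, K (y - x i) * K (y - x j) =
      G ^ 2 * ∑ i, ∑ j, JJ R (dist (x i) (x j)) := by
    rw [Finset.mul_sum]
    refine Finset.sum_congr rfl fun i _ => ?_
    rw [integral_finsetSum _ fun j _ => (hprod (x i) (x j)).1, Finset.mul_sum]
    exact Finset.sum_congr rfl fun j _ => (hprod (x i) (x j)).2
  rw [h5] at hint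
  have h6 : 2 * c * (n * I) - V * c ^ 2 = G ^ 2 * (I ^ 2 / G ^ 2 * (L / (L + 2 * D)) ^ 3 *
      (n : ℝ) ^ 2 / L ^ 3) := by
    rw [hc, hV]; field_simp; ring
  rw [h6] at hint
  refine le_trans ?_ (le_of_mul_le_mul_left hint (by positivity))
  gcongr

/-- small cell containing a point -/
noncomputable def lab (l : ℝ) (x : Pt) : Fin 3 → ℤ := fun k => ⌊x k / l⌋

/-- big cell (side `M l`, diagonal shift `σ l`) containing a point -/
noncomputable def blab (l : ℝ) (M σ : ℕ) (x : Pt) : Fin 3 → ℤ := fun k => (lab l x k - σ) / M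

theorem mem_cell_lab {l : ℝ} (hl : 0 < l) (x : Pt) : x ∈ cell l 0 (lab l x) := by
  intro k
  have h1 := Int.floor_le (x k / l)
  have h2 := Int.lt_floor_add_one (x k / l)
  rw [le_div_iff₀ hl] at h1
  rw [div_lt_iff₀ hl] at h2
  simp only [lab]
  constructor <;> nlinarith

theorem mem_cell_blab {l : ℝ} (hl : 0 < l) {M : ℕ} (hM : 0 < M) (σ : ℕ) (x : Pt) :
    x ∈ cell (l * M) (l * σ) (blab l M σ x) := by
  intro k
  have h1 := Int.floor_le (x k / l)
  have h2 := Int.lt_floor_add_one (x k / l)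
  rw [le_div_iff₀ hl] at h1
  rw [div_lt_iff₀ hl] at h2
  have hM' : (0 : ℤ) < M := by exact_mod_cast hM
  have h3 : (lab l x k - σ) / M * M ≤ lab l x k - σ := Int.ediv_mul_le _ hM'.ne'
  have h4 : lab l x k - σ + 1 ≤ ((lab l x k - σ) / M + 1) * M := Int.lt_ediv_add_one_mul_self _ hM'
  have h3' : ((blab l M σ x k : ℤ) : ℝ) * M ≤ (⌊x k / l⌋ : ℝ) - σ := by exact_mod_cast h3
  have h4' : (⌊x k / l⌋ : ℝ) - σ + 1 ≤ (((blab l M σ x k : ℤ) : ℝ) + 1) * M := by exact_mod_cast h4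
  constructor <;> nlinarith

theorem lab_mem_Icc {l L : ℝ} (hl : 0 < l) {x : Pt} (hx : x ∈ cube L) (k : Fin 3) :
    lab l x k ∈ Finset.Icc (0 : ℤ) ⌊L / l⌋ := by
  rw [Finset.mem_Icc]
  exact ⟨Int.floor_nonneg.mpr (div_nonneg (hx k).1 hl.le),
    Int.floor_le_floor (div_le_div_of_nonneg_right (hx k).2 hl.le)⟩

theorem blab_mem_Icc {l L : ℝ} (hl : 0 < l) {M σ : ℕ} (hσ : σ < M) {x : Pt} (hx : x ∈ cube L) (k : Fin 3) :
    blab l M σ x k ∈ Finset.Icc (-1 : ℤ) ⌊L / (l * M)⌋ := by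
  have hM : 0 < M := lt_of_le_of_lt (Nat.zero_le _) hσ
  have hM' : (0 : ℤ) < M := by exact_mod_cast hM
  have hM'' : (0 : ℝ) < M := by exact_mod_cast hM
  have h0 := (Finset.mem_Icc.mp (lab_mem_Icc hl hx k)).1
  rw [Finset.mem_Icc]
  constructor
  · refine (Int.le_ediv_iff_mul_le hM').mpr ?_
    omega
  · rw [Int.le_floor, le_div_iff₀ (by positivity)]
    have h1 := (mem_cell_blab hl hM σ x k).1
    have h2 := (hx k).2
    have h3 : 0 ≤ l * σ := by positivity
    nlinarith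

theorem shift_count_aux {M : ℕ} (hM : 0 < M) {X Y : ℤ} (h : X ≤ Y) :
    (((Finset.range M).filter fun σ : ℕ => (X - σ) / M ≠ (Y - σ) / M).card : ℤ) ≤ Y - X := by
  have hM' : (0 : ℤ) < M := by exact_mod_cast hM
  have h1 : ((Finset.range M).filter fun σ : ℕ => (X - σ) / M ≠ (Y - σ) / M) ⊆
      (Finset.Ioc X Y).image fun s : ℤ => (s % M).toNat := by
    intro σ hσ
    rw [Finset.mem_filter, Finset.mem_range] at hσ
    have h2 : (X - σ) / M ≤ (Y - σ) / M := Int.ediv_le_ediv hM' (by linarith)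
    have h3 : (X - σ) / M < (Y - σ) / M := lt_of_le_of_ne h2 hσ.2
    rw [Int.ediv_lt_iff_lt_mul hM'] at h3
    have h4 : (Y - σ) / M * M ≤ Y - σ := Int.ediv_mul_le _ hM'.ne'
    refine Finset.mem_image.mpr ⟨σ + (Y - σ) / M * M, Finset.mem_Ioc.mpr ⟨by linarith, by linarith⟩, ?_⟩
    rw [Int.add_mul_emod_self_right, Int.emod_eq_of_lt (by positivity) (by exact_mod_cast hσ.1)]
    simp
  have h2 := (Finset.card_le_card h1).trans Finset.card_image_le
  rw [Int.card_Ioc] at h2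
  omega

theorem shift_count_aux' {l : ℝ} (hl : 0 < l) {M : ℕ} (hM : 0 < M) (a b : ℝ) :
    (((Finset.range M).filter fun σ : ℕ => (⌊a / l⌋ - σ) / M ≠ (⌊b / l⌋ - σ) / M).card : ℝ) ≤
      |a - b| / l + 1 := by
  wlog h : a ≤ b generalizing a b
  · have := this b a (le_of_not_ge h)
    rw [abs_sub_comm] at this
    simpa only [ne_comm] using this
  have h1 := shift_count_aux hM (Int.floor_le_floor (div_le_div_of_nonneg_right h hl.le))
  have h2 : (((Finset.range M).filter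
      fun σ : ℕ => (⌊a / l⌋ - σ) / M ≠ (⌊b / l⌋ - σ) / M).card : ℝ) ≤ (⌊b / l⌋ : ℝ) - ⌊a / l⌋ := by
    exact_mod_cast h1
  have h3 := Int.floor_le (b / l)
  have h4 := Int.lt_floor_add_one (a / l)
  rw [abs_sub_comm, abs_of_nonneg (sub_nonneg.mpr h), sub_div]
  linarith

theorem shift_count {l : ℝ} (hl : 0 < l) {M : ℕ} (hM : 0 < M) (x y : Pt) :
    (((Finset.range M).filter fun σ => blab l M σ x ≠ blab l M σ y).card : ℝ) ≤ 3 * (dist x y / l + 1) := by
  have h1 : ((Finset.range M).filter fun σ => blab l M σ x ≠ blab l M σ y) ⊆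
      Finset.univ.biUnion fun k : Fin 3 => (Finset.range M).filter
        fun σ : ℕ => (⌊x k / l⌋ - σ) / M ≠ (⌊y k / l⌋ - σ) / M := by
    intro σ hσ
    rw [Finset.mem_filter] at hσ
    obtain ⟨k, hk⟩ := Function.ne_iff.mp hσ.2
    exact Finset.mem_biUnion.mpr ⟨k, Finset.mem_univ _, Finset.mem_filter.mpr ⟨hσ.1, hk⟩⟩
  have h2 := (Finset.card_le_card h1).trans Finset.card_biUnion_le
  have h3 : (((Finset.range M).filter fun σ => blab l M σ x ≠ blab l M σ y).card : ℝ) ≤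
      ∑ k : Fin 3, (((Finset.range M).filter
        fun σ : ℕ => (⌊x k / l⌋ - σ) / M ≠ (⌊y k / l⌋ - σ) / M).card : ℝ) := by exact_mod_cast h2
  refine h3.trans ?_
  calc _ ≤ ∑ _k : Fin 3, (dist x y / l + 1) := Finset.sum_le_sum fun k _ => by
        refine (shift_count_aux' hl hM (x k) (y k)).trans ?_
        have : |x k - y k| ≤ dist x y := by
          rw [← Real.dist_eq]; exact PiLp.dist_apply_le x y k
        gcongr
    _ = _ := by simp; ring

end Crest.Agent.R149
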