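import Crest.Agent.R149.LPAux

/-!
# Row 149: the quantitative Lebowitz–Penrose step (upper bound)
-/

set_option autoImplicit false

open MeasureTheory Filter Topology Set
open Crest.ProbabilityR.Continuum

namespace Crest.Agent.R149

structure LPHyp (Φ Ψ : ℝ → ℝ) (l b T γ B0 A B : ℝ) (q : ℕ) : Prop where
  good : Good Φ
  hl : 1 ≤ l
  hq : 10 ^ 7 ≤ q
  hb : 0 ≤ b
  hT1 : T ≤ 1
  hγ0 : 0 ≤ γ
  hγ : γ ≤ b * T
  hT0 : 0 ≤ T
  hB0 : 0 ≤ B0
  hSS : ∀ (n : ℕ) (x : Fin n → Pt), b * (1 / 3 + T / 2) * (QQ (fun i => lab l (x i)) / l ^ 3) - B0 * n ≤ En Φ x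
  hΨ0 : ∀ r, 0 ≤ r → 0 ≤ Ψ r
  hΨ : ∀ r, 0 ≤ r → -Ψ r ≤ Φ r
  hW : ∀ (n : ℕ) (x : Fin n → Pt), ∑ i, ∑ j, (dist (x i) (x j) / l + 1) * Ψ (dist (x i) (x j)) ≤
    128 * b * (q : ℝ) ^ 2 * (QQ (fun i => lab l (x i)) / l ^ 3)
  hA : ∀ ρ, 0 ≤ ρ → ss Φ ρ + γ * ρ ^ 2 / 2 ≤ A + B * ρ

variable {Φ Ψ : ℝ → ℝ} {l b T γ B0 A B : ℝ} {q : ℕ}

theorem LPHyp.A_nonneg (h : LPHyp Φ Ψ l b T γ B0 A B q) : 0 ≤ A := by
  simpa [h.good.ss_zero] using h.hA 0 le_rfl

theorem LPHyp.En2 (h : LPHyp Φ Ψ l b T γ B0 A B q) {n : ℕ} (x : Fin n → Pt) :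
    b * (7 / 30 + T / 2) * (QQ (fun i => lab l (x i)) / l ^ 3) - B0 * n ≤
      En (fun r => Φ r - 46080 * b / 10 ^ 7 * JJ l r) x := by
  have hl : 0 < l := by linarith [h.hl]
  have h1 := h.hSS n x
  have h2 := GC hl hl x (fun i => lab l (x i)) (fun i => mem_cell_lab hl (x i))
  have h3 := En_le_half_sum (JJ_pos hl 0).le x
  have h4 : En (fun r => Φ r - 46080 * b / 10 ^ 7 * JJ l r) x = En Φ x - 46080 * b / 10 ^ 7 * En (JJ l) x := by
    unfold En; rw [EnS_sub Φ (fun r => 46080 * b / 10 ^ 7 * JJ l r), EnS_smul]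
  have h5 : (1 + 2 * l / l) ^ 3 / l ^ 3 * QQ (fun i => lab l (x i)) = 27 * (QQ (fun i => lab l (x i)) / l ^ 3) := by
    field_simp; ring
  rw [h5] at h2
  have h6 : 0 ≤ QQ (fun i => lab l (x i)) / l ^ 3 := div_nonneg (QQ_nonneg _) (by positivity)
  have h7 : En (JJ l) x ≤ 27 / 2 * (QQ (fun i => lab l (x i)) / l ^ 3) := by linarith
  have h8 := mul_le_mul_of_nonneg_left h7 h.hb
  have h9 := mul_nonneg h.hb h6
  rw [h4]
  nlinarith

theorem LPHyp.stab2 (h : LPHyp Φ Ψ l b T γ B0 A B q) : Stab (fun r => Φ r - 46080 * b / 10 ^ 7 * JJ l r) := by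
  refine ⟨h.good.meas.sub ((continuous_JJ l).measurable.const_mul _), B0, fun n x => ?_⟩
  have hl : 0 < l := by linarith [h.hl]
  have h1 := h.En2 x
  have h6 : 0 ≤ QQ (fun i => lab l (x i)) / l ^ 3 := div_nonneg (QQ_nonneg _) (by positivity)
  have : 0 ≤ b * (7 / 30 + T / 2) * (QQ (fun i => lab l (x i)) / l ^ 3) := by
    have := h.hb; have := h.hT0; positivity
  linarith

theorem LPHyp.pot_eq (h : LPHyp Φ Ψ l b T γ B0 A B q) : (fun r => Φ r - 46080 * b / q * JJ l r) =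
    fun r => (1 - 10 ^ 7 / (q : ℝ)) * Φ r + 10 ^ 7 / (q : ℝ) * (Φ r - 46080 * b / 10 ^ 7 * JJ l r) := by
  ext r; ring

theorem LPHyp.q_ge (h : LPHyp Φ Ψ l b T γ B0 A B q) : (10 : ℝ) ^ 7 ≤ q := by exact_mod_cast h.hq

theorem LPHyp.θ_le (h : LPHyp Φ Ψ l b T γ B0 A B q) : (10 : ℝ) ^ 7 / q ≤ 1 := by
  have := h.q_ge
  rw [div_le_one (by linarith)]; exact this

theorem LPHyp.stab1 (h : LPHyp Φ Ψ l b T γ B0 A B q) : Stab (fun r => Φ r - 46080 * b / q * JJ l r) := by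
  rw [h.pot_eq]
  exact h.good.toStab.combo h.stab2 (sub_nonneg.2 h.θ_le) (by positivity)

theorem inv_cube_ge {s e : ℝ} (hs : 0 < s) (he : 0 ≤ e) : (1 - 3 * e / s) / s ^ 3 ≤ 1 / (s + e) ^ 3 := by
  rw [div_le_div_iff₀ (by positivity) (by positivity)]
  have e1 : (1 - 3 * e / s) * (s + e) ^ 3 = ((s - 3 * e) * (s + e) ^ 3) / s := by field_simp
  rw [e1, div_le_iff₀ hs]
  have : 0 ≤ e ^ 2 * (6 * s ^ 2 + 8 * s * e + 3 * e ^ 2) := by positivity
  nlinarith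

/-- the bound in one cell -/
theorem LPHyp.cell_bound (h : LPHyp Φ Ψ l b T γ B0 A B q) (n : ℕ) :
    aa (fun r => Φ r - 46080 * b / q * JJ l r) (l * (q : ℝ) ^ 3) n +
      γ / 2 * (1 + 2 / q) ^ 3 * (n : ℝ) ^ 2 / (l * (q : ℝ) ^ 3) ^ 3 ≤
      (l * (q : ℝ) ^ 3 + 2) ^ 3 * A + 10 ^ 7 / q * (l * (q : ℝ) ^ 3) ^ 3 + (B + 10 ^ 7 / q * (|B| + B0)) * n := by
  have hl : 0 < l := by linarith [h.hl]
  have hq := h.q_ge
  have hq0 : (0 : ℝ) < q := by linarith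
  set s := l * (q : ℝ) ^ 3 with hs
  have hsq : (q : ℝ) ≤ s := by
    have : (q : ℝ) ≤ q ^ 3 := le_self_pow₀ (by linarith) (by norm_num)
    nlinarith [h.hl]
  have hs0 : 0 < s := by linarith
  set θ := (10 : ℝ) ^ 7 / q with hθ
  have hθ0 : 0 ≤ θ := by positivity
  have hθ1 : θ ≤ 1 := h.θ_le
  have h1 := aa_holder h.good.toStab h.stab2 hs0 n hθ0 hθ1
  rw [← h.pot_eq] at h1
  -- first factor
  have h2 := h.good.aa_le hs0 n
  have h3 := h.hA (n / (s + 2) ^ 3) (by positivity)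
  have h4 : aa Φ s n ≤ (s + 2) ^ 3 * A + B * n - γ / 2 * ((n : ℝ) ^ 2 * (1 / (s + 2) ^ 3)) := by
    have := mul_le_mul_of_nonneg_left h3 (by positivity : 0 ≤ (s + 2) ^ 3)
    have e : (s + 2) ^ 3 * (A + B * (n / (s + 2) ^ 3)) = (s + 2) ^ 3 * A + B * n := by field_simp
    have e' : (s + 2) ^ 3 * (γ * (n / (s + 2) ^ 3) ^ 2 / 2) = γ / 2 * ((n : ℝ) ^ 2 * (1 / (s + 2) ^ 3)) := by
      field_simp
    rw [mul_add, e, e'] at this
    linarith
  set X := (n : ℝ) ^ 2 / s ^ 3 with hX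
  have hX0 : 0 ≤ X := by positivity
  have h5 : (1 - 6 / q) * X ≤ (n : ℝ) ^ 2 * (1 / (s + 2) ^ 3) := by
    have := mul_le_mul_of_nonneg_left (inv_cube_ge hs0 (e := 2) (by norm_num)) (sq_nonneg (n : ℝ))
    refine le_trans ?_ this
    have e : (n : ℝ) ^ 2 * ((1 - 3 * 2 / s) / s ^ 3) = (1 - 6 / s) * X := by rw [hX]; ring
    rw [e]
    refine mul_le_mul_of_nonneg_right ?_ hX0
    have : 6 / s ≤ 6 / q := div_le_div_of_nonneg_left (by norm_num) hq0 hsq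
    linarith
  -- second factor
  have h6 := aa_le_crude h.stab2 hs0 n (B0 * n - b * (T / 2 + 1 / 5) * X) fun x hx => by
    have g1 := h.En2 x
    have g2 := QQ_lab_ge hl hs0 x hx
    have g3 := mul_le_mul_of_nonneg_left (inv_cube_ge hs0 hl.le) (sq_nonneg (n : ℝ))
    have e : (n : ℝ) ^ 2 * ((1 - 3 * l / s) / s ^ 3) = (1 - 3 / q ^ 3) * X := by
      rw [hX]
      have : 3 * l / s = 3 / q ^ 3 := by rw [hs]; field_simp
      rw [this]; ring
    have g4 : (3 : ℝ) / q ^ 3 ≤ 1 / 100 := by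
      rw [div_le_div_iff₀ (by positivity) (by norm_num)]
      have : (q : ℝ) ≤ q ^ 3 := le_self_pow₀ (by linarith) (by norm_num)
      linarith
    have g5 : 99 / 100 * X ≤ QQ (fun i => lab l (x i)) / l ^ 3 := by
      rw [e, mul_one_div] at g3
      nlinarith
    have g6 := mul_le_mul_of_nonneg_left g5 (mul_nonneg h.hb (by linarith [h.hT0] : 0 ≤ 7 / 30 + T / 2))
    have g7 := mul_nonneg h.hb hX0
    have g8 := mul_le_mul_of_nonneg_left h.hT1 g7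
    nlinarith
  -- combine
  have h7 : (1 + 2 / (q : ℝ)) ^ 3 ≤ 1 + 7 / q := by
    have t1 : 1 / (q : ℝ) ≤ 1 / 100 := one_div_le_one_div_of_le (by norm_num) (by linarith)
    have t0 : 0 ≤ 1 / (q : ℝ) := by positivity
    have e1 : 2 / (q : ℝ) = 2 * (1 / q) := by ring
    have e2 : 7 / (q : ℝ) = 7 * (1 / q) := by ring
    rw [e1, e2]
    nlinarith [mul_nonneg t0 t0]
  have hA := h.A_nonneg
  have e8 : γ / 2 * (1 + 2 / q) ^ 3 * (n : ℝ) ^ 2 / s ^ 3 = γ / 2 * ((1 + 2 / q) ^ 3 * X) := by rw [hX]; ring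
  rw [e8]
  have h8 : (1 + 2 / (q : ℝ)) ^ 3 * X ≤ (1 + 7 / q) * X := mul_le_mul_of_nonneg_right h7 hX0
  have h9 := mul_le_mul_of_nonneg_left h4 (sub_nonneg.2 hθ1)
  have h10 := mul_le_mul_of_nonneg_left h6 hθ0
  have hγ2 : 0 ≤ γ / 2 := by linarith [h.hγ0]
  have h11 := mul_le_mul_of_nonneg_left h8 hγ2
  have h12 := mul_le_mul_of_nonneg_left (mul_le_mul_of_nonneg_left h5 hγ2) (sub_nonneg.2 hθ1)
  have h13 : 0 ≤ θ * ((s + 2) ^ 3 * A) := by positivity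
  have h14 : -(θ * (B * n)) ≤ θ * (|B| * n) := by
    have := mul_le_mul_of_nonneg_right (neg_le_abs B) (Nat.cast_nonneg n : (0 : ℝ) ≤ n)
    nlinarith
  -- the quadratic terms
  have h15 : γ / 2 * ((1 + 7 / q) * X) - (1 - θ) * (γ / 2 * ((1 - 6 / q) * X)) ≤ θ * (b * (T / 2 + 1 / 5) * X) := by
    have e1 : (7 : ℝ) / q = 7 / 10 ^ 7 * θ := by rw [hθ]; ring
    have e2 : (6 : ℝ) / q = 6 / 10 ^ 7 * θ := by rw [hθ]; ring
    rw [e1, e2]
    have g1 : 0 ≤ θ * X := mul_nonneg hθ0 hX0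
    have g2 := mul_le_mul_of_nonneg_right h.hγ g1
    have g3 : 0 ≤ γ * (θ * X) * θ := by have := h.hγ0; positivity
    have g4 : b * T * (θ * X) ≤ b * (θ * X) := by
      have := mul_le_mul_of_nonneg_left h.hT1 (mul_nonneg h.hb g1)
      nlinarith
    have g5 : 0 ≤ b * (θ * X) := mul_nonneg h.hb g1
    nlinarith
  nlinarith

/-- pointwise decomposition into cells -/
theorem LPHyp.pointwise (h : LPHyp Φ Ψ l b T γ B0 A B q) {N : ℕ} (x : Fin N → Pt) :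
    ∃ σ < q ^ 3, ∀ (C : Type) [Fintype C] [DecidableEq C] (f : Fin N → C),
      (∀ i j, f i = f j ↔ blab l (q ^ 3) σ (x i) = blab l (q ^ 3) σ (x j)) →
      -En (fun r => Φ r - γ * JJ (l * (q : ℝ) ^ 4) r) x ≤ 192 * b / (q * l ^ 3) * N +
        ∑ c, (γ / 2 * (1 + 2 / q) ^ 3 * ((fib f c).card : ℝ) ^ 2 / (l * (q : ℝ) ^ 3) ^ 3 -
          EnS (fun r => Φ r - 46080 * b / q * JJ l r) (fib f c) x) := by
  have hl : 0 < l := by linarith [h.hl]
  have hq := h.q_ge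
  have hq0 : (0 : ℝ) < q := by linarith
  have hqn : 0 < q := by exact_mod_cast hq0
  obtain ⟨σ, hσ, h1⟩ := exists_shift hl (pow_pos hqn 3) h.hΨ0 x
  refine ⟨σ, hσ, fun C _ _ f hf => ?_⟩
  set Q := QQ (fun i => lab l (x i)) with hQ
  have h2 := h.hW N x
  have h3 := En_split Φ f x
  have h4 : -(∑ i, ∑ j, if blab l (q ^ 3) σ (x i) = blab l (q ^ 3) σ (x j) then 0 else Ψ (dist (x i) (x j))) ≤
      ∑ i, ∑ j, if f i = f j then 0 else Φ (dist (x i) (x j)) := by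
    rw [← Finset.sum_neg_distrib]
    refine Finset.sum_le_sum fun i _ => ?_
    rw [← Finset.sum_neg_distrib]
    refine Finset.sum_le_sum fun j _ => ?_
    simp only [hf]
    split_ifs
    · simp
    · exact h.hΨ _ dist_nonneg
  have h5 := QQ_le_J hl x f fun i j hij => (hf i j).2 (by unfold blab; rw [hij])
  have h6 := GC (R := l * (q : ℝ) ^ 4) (by positivity) (by positivity) x (fun i => blab l (q ^ 3) σ (x i))
    (fun i => mem_cell_blab hl (pow_pos hqn 3) σ (x i))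
  have h7 : QQ (fun i => blab l (q ^ 3) σ (x i)) = ∑ c, ((fib f c).card : ℝ) ^ 2 := by
    rw [← QQ_eq_sum_sq]
    unfold QQ
    simp only [hf]
  have h8 := En_le_half_sum (JJ_pos (R := l * (q : ℝ) ^ 4) (by positivity) 0).le x
  have h9 : En (fun r => Φ r - γ * JJ (l * (q : ℝ) ^ 4) r) x = En Φ x - γ * En (JJ (l * (q : ℝ) ^ 4)) x := by
    unfold En; rw [EnS_sub Φ (fun r => γ * JJ (l * (q : ℝ) ^ 4) r), EnS_smul]
  have e1 : 2 * (l * ((q ^ 3 : ℕ) : ℝ)) / (l * (q : ℝ) ^ 4) = 2 / q := by push_cast; field_simp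
  rw [e1, h7] at h6
  push_cast at h6 h1
  have h10 := mul_le_mul_of_nonneg_left (h8.trans (div_le_div_of_nonneg_right h6 (by norm_num))) h.hγ0
  have e2 : ∑ c, (γ / 2 * (1 + 2 / q) ^ 3 * ((fib f c).card : ℝ) ^ 2 / (l * (q : ℝ) ^ 3) ^ 3 -
          EnS (fun r => Φ r - 46080 * b / q * JJ l r) (fib f c) x) =
      γ * ((1 + 2 / q) ^ 3 / (l * (q : ℝ) ^ 3) ^ 3 * (∑ c, ((fib f c).card : ℝ) ^ 2) / 2) -
        ∑ c, EnS Φ (fib f c) x + 46080 * b / q * ∑ c, EnS (JJ l) (fib f c) x := by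
    simp only [EnS_sub Φ (fun r => 46080 * b / q * JJ l r), EnS_smul, Finset.sum_sub_distrib, Finset.mul_sum,
      Finset.sum_div]
    rw [sub_sub_eq_add_sub, add_sub_right_comm]
    congr 2
    refine Finset.sum_congr rfl fun c _ => by ring
  rw [e2, h9]
  have h11 := h1.trans (mul_le_mul_of_nonneg_left h2 (by positivity))
  have e3 : 3 / (q : ℝ) ^ 3 * (128 * b * (q : ℝ) ^ 2 * (Q / l ^ 3)) = 2 * (192 * b / (q * l ^ 3) * Q) := by
    field_simp; ring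
  rw [e3] at h11
  have h12 := mul_le_mul_of_nonneg_left h5 (by have := h.hb; positivity : 0 ≤ 192 * b / (q * l ^ 3))
  have e4 : 192 * b / (q * l ^ 3) * (N + 240 * l ^ 3 * ∑ c, EnS (JJ l) (fib f c) x) =
      192 * b / (q * l ^ 3) * N + 46080 * b / q * ∑ c, EnS (JJ l) (fib f c) x := by
    field_simp; ring
  rw [e4] at h12
  linarith

theorem LPHyp.finite (h : LPHyp Φ Ψ l b T γ B0 A B q) (hΦ' : Stab (fun r => Φ r - γ * JJ (l * (q : ℝ) ^ 4) r))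
    {L : ℝ} (hL : 0 < L) (N : ℕ) :
    aa (fun r => Φ r - γ * JJ (l * (q : ℝ) ^ 4) r) L N ≤
      (B + 10 ^ 7 / q * (|B| + B0) + 192 * b / (q * l ^ 3) + 1 / q) * N + Real.log ((q : ℝ) ^ 3) +
        (L / (l * (q : ℝ) ^ 3) + 2) ^ 3 *
          ((l * (q : ℝ) ^ 3 + 2) ^ 3 * A + 10 ^ 7 / q * (l * (q : ℝ) ^ 3) ^ 3 + q) := by
  have hl : 0 < l := by linarith [h.hl]
  have hq := h.q_ge
  have hq0 : (0 : ℝ) < q := by linarith
  have hqn : 0 < q := by exact_mod_cast hq0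
  set s := l * (q : ℝ) ^ 3 with hs
  have hs' : l * ((q ^ 3 : ℕ) : ℝ) = s := by rw [hs]; push_cast; ring
  have hs0 : 0 < s := by positivity
  set F : Finset (Fin 3 → ℤ) := Fintype.piFinset fun _ : Fin 3 => Finset.Icc (-1 : ℤ) ⌊L / s⌋ with hF
  set B1 := B + 10 ^ 7 / q * (|B| + B0) + 1 / q with hB1
  set K0 := (s + 2) ^ 3 * A + 10 ^ 7 / q * s ^ 3 with hK0
  have hK00 : 0 ≤ K0 := by have := h.A_nonneg; positivity
  have hD := DU h.stab1 (fun r => Φ r - γ * JJ (l * (q : ℝ) ^ 4) r) (S := Fin (q ^ 3)) (C := F)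
    (measurableSet_cube L) (fun σ c => cell s (l * (σ : ℕ)) c.1) (fun σ c => measurableSet_cubeAt _ _)
    (fun σ c => by unfold cell; rw [volume_cubeAt _ hs0.le]; simp)
    (fun n => γ / 2 * (1 + 2 / q) ^ 3 * (n : ℝ) ^ 2 / s ^ 3 - B1 * n) N ((B1 + 192 * b / (q * l ^ 3)) * N)
    (by
      intro x hx
      obtain ⟨σ, hσ, h1⟩ := h.pointwise x
      have hm : ∀ i, blab l (q ^ 3) σ (x i) ∈ F := fun i => Fintype.mem_piFinset.2 fun k => by
        have := blab_mem_Icc hl hσ (hx i) k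
        rwa [hs'] at this
      refine ⟨⟨σ, hσ⟩, fun i => ⟨_, hm i⟩, fun i => ?_, ?_⟩
      · have := mem_cell_blab hl (pow_pos hqn 3) σ (x i)
        rwa [hs'] at this
      · have h2 := h1 F (fun i => ⟨_, hm i⟩) (fun i j => Subtype.ext_iff)
        have h3 := sum_card_fib_real (fun i => (⟨_, hm i⟩ : F))
        simp only [Finset.sum_sub_distrib, ← Finset.mul_sum, h3] at h2 ⊢
        linarith)
  have hcell : ∀ (σ : Fin (q ^ 3)) (c : F), ∑ n ∈ Finset.range (N + 1),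
      Real.exp (γ / 2 * (1 + 2 / q) ^ 3 * (n : ℝ) ^ 2 / s ^ 3 - B1 * n) *
        zz (fun r => Φ r - 46080 * b / q * JJ l r) (cell s (l * (σ : ℕ)) c.1) n ≤ Real.exp (K0 + q) := by
    intro σ c
    rw [Real.exp_add]
    refine le_trans ?_ (mul_le_mul_of_nonneg_left (sum_exp_neg_div_le hq0 (N + 1)) (Real.exp_pos _).le)
    rw [Finset.mul_sum]
    refine Finset.sum_le_sum fun n _ => ?_
    unfold cell
    rw [zz_cubeAt, ← Real.exp_log (zz_cube_pos h.stab1 hs0 n), ← Real.exp_add, ← Real.exp_add]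
    refine Real.exp_le_exp.2 ?_
    have := h.cell_bound n
    unfold aa at this
    rw [← hs] at this
    have e : -(n : ℝ) / q = -(1 / q * n) := by ring
    rw [e, hB1]
    linarith
  have hcard : (F.card : ℝ) ≤ (L / s + 2) ^ 3 := by
    have h0 : 0 ≤ ⌊L / s⌋ := Int.floor_nonneg.2 (by positivity)
    rw [hF, Fintype.card_piFinset]
    simp only [Int.card_Icc, Finset.prod_const, Finset.card_univ, Fintype.card_fin, Nat.cast_pow]
    refine pow_le_pow_left₀ (Nat.cast_nonneg _) ?_ 3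
    have h3 : (((⌊L / s⌋ + 1 - -1).toNat : ℤ) : ℝ) = ((⌊L / s⌋ + 1 - -1 : ℤ) : ℝ) := by
      rw [Int.toNat_of_nonneg (by omega)]
    have h4 := Int.floor_le (L / s)
    push_cast at h3
    rw [h3]; linarith
  have h2 : zz (fun r => Φ r - γ * JJ (l * (q : ℝ) ^ 4) r) (cube L) N ≤
      Real.exp ((B1 + 192 * b / (q * l ^ 3)) * N + Real.log ((q : ℝ) ^ 3) + (L / s + 2) ^ 3 * (K0 + q)) := by
    refine hD.trans ?_
    rw [Real.exp_add, Real.exp_add, mul_assoc]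
    refine mul_le_mul_of_nonneg_left ?_ (Real.exp_pos _).le
    rw [Real.exp_log (by positivity)]
    calc _ ≤ ∑ _σ : Fin (q ^ 3), ∏ _c : F, Real.exp (K0 + q) := by
          refine Finset.sum_le_sum fun σ _ => Finset.prod_le_prod (fun c _ => ?_) fun c _ => hcell σ c
          exact Finset.sum_nonneg fun n _ => mul_nonneg (Real.exp_pos _).le (zz_nonneg _ _ _)
      _ = (q : ℝ) ^ 3 * Real.exp (F.card * (K0 + q)) := by
          simp [Real.exp_nat_mul]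
      _ ≤ _ := by
          refine mul_le_mul_of_nonneg_left (Real.exp_le_exp.2 ?_) (by positivity)
          exact mul_le_mul_of_nonneg_right hcard (by positivity)
  have h3 := (Real.log_le_iff_le_exp (zz_cube_pos hΦ' hL N)).2 h2
  unfold aa
  rw [hB1] at h3
  linarith

theorem LPHyp.step (h : LPHyp Φ Ψ l b T γ B0 A B q) (hΦ' : Good (fun r => Φ r - γ * JJ (l * (q : ℝ) ^ 4) r))
    {ρ : ℝ} (hρ : 0 ≤ ρ) :
    ss (fun r => Φ r - γ * JJ (l * (q : ℝ) ^ 4) r) ρ ≤ A + B * ρ +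
      ((10 ^ 7 * (|B| + B0) + 192 * b / l ^ 3 + 1) * ρ + 7 * A + 10 ^ 7 + 1) / q := by
  have hl : 0 < l := by linarith [h.hl]
  have hq := h.q_ge
  have hq0 : (0 : ℝ) < q := by linarith
  set s := l * (q : ℝ) ^ 3 with hs
  have hsq : (q : ℝ) ≤ s := by
    have : (q : ℝ) ≤ q ^ 3 := le_self_pow₀ (by linarith) (by norm_num)
    nlinarith [h.hl]
  have hs0 : 0 < s := by positivity
  set B2 := B + 10 ^ 7 / q * (|B| + B0) + 192 * b / (q * l ^ 3) + 1 / q with hB2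
  set K := (s + 2) ^ 3 * A + 10 ^ 7 / q * s ^ 3 + q with hK
  have t1 := tendsto_floor_div hρ
  have t2 : Tendsto (fun L : ℝ => Real.log ((q : ℝ) ^ 3) / L ^ 3) atTop (𝓝 0) :=
    tendsto_const_nhds.div_atTop (tendsto_pow_atTop (by norm_num))
  have t3 : Tendsto (fun L : ℝ => 1 / s + 2 / L) atTop (𝓝 (1 / s + 0)) :=
    tendsto_const_nhds.add (tendsto_const_nhds.div_atTop tendsto_id)
  have h1 := hΦ'.ss_le hρ (((t1.const_mul B2).add t2).add ((t3.pow 3).mul_const K)) (by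
    filter_upwards [eventually_gt_atTop 0] with L hL
    have := h.finite hΦ'.toStab hL ⌊ρ * L ^ 3⌋₊
    rw [div_le_iff₀ (by positivity)]
    refine this.trans (le_of_eq ?_)
    rw [← hs, ← hB2, ← hK]
    field_simp)
  refine h1.trans ?_
  have hA := h.A_nonneg
  have h2 : (1 / s + 0) ^ 3 * K = (1 + 2 / s) ^ 3 * A + 10 ^ 7 / q + q / s ^ 3 := by
    rw [hK]; field_simp; ring
  have h3 : (1 + 2 / s) ^ 3 ≤ 1 + 7 / q := by
    have t1 : 1 / s ≤ 1 / 100 := one_div_le_one_div_of_le (by norm_num) (by linarith)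
    have t0 : 0 ≤ 1 / s := by positivity
    have t2 : 1 / s ≤ 1 / q := one_div_le_one_div_of_le hq0 hsq
    have e1 : 2 / s = 2 * (1 / s) := by ring
    have e2 : 7 / (q : ℝ) = 7 * (1 / q) := by ring
    rw [e1, e2]
    nlinarith [mul_nonneg t0 t0]
  have h4 : q / s ^ 3 ≤ 1 / q := by
    rw [div_le_div_iff₀ (by positivity) hq0]
    have : (q : ℝ) ^ 3 ≤ s ^ 3 := pow_le_pow_left₀ hq0.le hsq 3
    nlinarith
  have h5 := mul_le_mul_of_nonneg_right h3 hA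
  have e : A + B * ρ + ((10 ^ 7 * (|B| + B0) + 192 * b / l ^ 3 + 1) * ρ + 7 * A + 10 ^ 7 + 1) / q =
      B2 * ρ + (1 + 7 / q) * A + 10 ^ 7 / q + 1 / q := by
    rw [hB2]; field_simp; ring
  rw [h2, e]
  linarith

end Crest.Agent.R149
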