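import Crest.Agent.R149.Part

/-!
# Row 149, task R149-Pack: packing density, Caro–Wei, crude superstability

Plan.  `packingSet L` is bounded (e.g. by `(2L+1)³`: the map `x ↦ (⌊2 x_k⌋₊)_k` is injective on a 1-separated set since a
half-open cube of side `1/2` has diameter `√3/2 < 1`), so `packingNumber L ∈ packingSet L` (`Nat.sSup_mem`) and
`le_csSup` applies.  Superadditivity: `m³ P(L) ≤ P(L')` whenever `m (L+1) ≤ L'` (translate an optimal packing by `(L+1) c`,
`c : Fin 3 → Fin m`), hence `liminf P(L')/L'³ ≥ P(L)/(L+1)³` for every `L ≥ 0`; with `p = sup_L P(L)/(L+1)³ ≥ P 0 ≥ 1 > 0`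
one gets `P(L)/L³ ≤ p (L+1)³/L³ → p` and the limit.
`card_perm_max`: the sets `{π | i is π-maximal in s}` (`i ∈ s`) partition `Perm (Fin n)` and are in bijection via `π ↦ π * swap i j`.
`caro_wei`: for a permutation `π` the set `I_π` of `i` that are `π`-maximal in `N i = {j | dist (x i) (x j) < 5/4}` is `5/4`-separated,
so `|I_π| ≤ Pk L`; average over `π`.
`SS0`: `φ0 ≥ 2u 1{r < 5/4}` gives `En φ0 x ≥ u ∑_i (k_i - 1)` with `k_i = #{j | c j = c i ∧ dist < 5/4}`; in each cell
`n_c² ≤ (∑ k_i)(∑ 1/k_i) ≤ Pk ℓ ∑ k_i` (Cauchy–Schwarz, `caro_wei` applied to the fibre).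
-/

set_option autoImplicit false

open MeasureTheory Filter Topology Set
open Crest.ProbabilityR.Continuum

namespace Crest.Agent.R149

namespace Pack

theorem coord_le_dist (x y : Pt) (k : Fin 3) : |x k - y k| ≤ dist x y := by
  have := PiLp.dist_apply_le x y k
  rwa [Real.dist_eq] at this

theorem packingSet_le {L : ℝ} {n : ℕ} (hn : n ∈ packingSet L) : n ≤ (⌊2 * L⌋₊ + 1) ^ 3 := by
  classical
  obtain ⟨X, rfl, hX, hsep⟩ := hn
  have : X.card ≤ (Fintype.piFinset (fun _ : Fin 3 => Finset.range (⌊2 * L⌋₊ + 1))).card := by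
    refine Finset.card_le_card_of_injOn (fun x k => ⌊2 * x k⌋₊) ?_ ?_
    · intro x hx
      simp only [Finset.mem_coe, Fintype.mem_piFinset, Finset.mem_range]
      intro k
      have := (hX x hx k).2
      exact Nat.lt_succ_of_le (Nat.floor_le_floor (by linarith))
    · intro x hx y hy h
      by_contra hne
      have h1 := hsep x hx y hy hne
      have h2 : ∀ k, (x k - y k) ^ 2 ≤ 1 / 4 := by
        intro k
        have e : ⌊2 * x k⌋₊ = ⌊2 * y k⌋₊ := congrFun h k
        have a1 := Nat.floor_le (show 0 ≤ 2 * x k by linarith [(hX x hx k).1])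
        have a2 := Nat.floor_le (show 0 ≤ 2 * y k by linarith [(hX y hy k).1])
        have a3 := Nat.lt_floor_add_one (2 * x k)
        have a4 := Nat.lt_floor_add_one (2 * y k)
        rw [e] at a1 a3
        nlinarith
      have h3 : dist x y ^ 2 = ∑ k, (x k - y k) ^ 2 := by
        rw [EuclideanSpace.dist_sq_eq]
        simp only [Real.dist_eq, sq_abs]
      rw [Fin.sum_univ_three] at h3
      nlinarith [h2 0, h2 1, h2 2]
  simpa using this

theorem bdd (L : ℝ) : BddAbove (packingSet L) := ⟨_, fun _ hn => packingSet_le hn⟩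

theorem mem (L : ℝ) : packingNumber L ∈ packingSet L :=
  Nat.sSup_mem ⟨0, ∅, rfl, by simp, by simp⟩ (bdd L)

theorem card_le {ι : Type} (s : Finset ι) (x : ι → Pt) (L : ℝ)
    (hx : ∀ i ∈ s, x i ∈ cube L) (hsep : ∀ i ∈ s, ∀ j ∈ s, i ≠ j → 1 ≤ dist (x i) (x j)) :
    s.card ≤ packingNumber L := by
  classical
  have hinj : Set.InjOn x s := by
    intro i hi j hj h
    by_contra hne
    have := hsep i hi j hj hne
    rw [h, dist_self] at this
    linarith
  refine le_csSup (bdd L) ⟨s.image x, Finset.card_image_of_injOn hinj, ?_, ?_⟩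
  · intro y hy
    obtain ⟨i, hi, rfl⟩ := Finset.mem_image.mp hy
    exact hx i hi
  · intro y hy z hz hne
    obtain ⟨i, hi, rfl⟩ := Finset.mem_image.mp hy
    obtain ⟨j, hj, rfl⟩ := Finset.mem_image.mp hz
    exact hsep i hi j hj (fun h => hne (by rw [h]))

theorem one_le {L : ℝ} (hL : 0 ≤ L) : 1 ≤ packingNumber L := by
  have := card_le ({()} : Finset Unit) (fun _ => (0 : Pt)) L (fun _ _ k => by simpa using hL)
    (fun i _ j _ h => absurd rfl h)
  simpa using this

theorem superadd {L L' : ℝ} (hL : 0 ≤ L) (m : ℕ) (h : m * (L + 1) ≤ L') :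
    m ^ 3 * packingNumber L ≤ packingNumber L' := by
  classical
  obtain ⟨X, hc, hX, hsep⟩ := mem L
  have := card_le ((Finset.univ : Finset (Fin 3 → Fin m)) ×ˢ X)
    (fun p => p.2 + WithLp.toLp 2 (fun k => (L + 1) * (p.1 k : ℕ))) L' ?_ ?_
  · simpa [hc] using this
  · rintro ⟨c, y⟩ hp k
    have hy := hX y (Finset.mem_product.mp hp).2 k
    have h1 : ((c k : ℕ) : ℝ) + 1 ≤ m := by exact_mod_cast (c k).2
    have h2 : (0 : ℝ) ≤ (c k : ℕ) := by positivity
    simp only [PiLp.add_apply]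
    constructor <;> nlinarith [hy.1, hy.2]
  · rintro ⟨c, y⟩ hp ⟨c', y'⟩ hp' hne
    have hy := (Finset.mem_product.mp hp).2
    have hy' := (Finset.mem_product.mp hp').2
    by_cases hcc : c = c'
    · subst hcc
      rw [dist_add_right]
      exact hsep y hy y' hy' (fun h => hne (by rw [show y = y' from h]))
    · obtain ⟨k, hk⟩ := Function.ne_iff.mp hcc
      refine le_trans ?_ (coord_le_dist _ _ k)
      simp only [PiLp.add_apply]
      have a := hX y hy k
      have b := hX y' hy' k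
      rcases lt_or_gt_of_ne hk with hlt | hlt
      · have h1 : ((c k : ℕ) : ℝ) + 1 ≤ (c' k : ℕ) := by exact_mod_cast hlt
        rw [le_abs]
        right
        nlinarith [a.1, a.2, b.1, b.2]
      · have h1 : ((c' k : ℕ) : ℝ) + 1 ≤ (c k : ℕ) := by exact_mod_cast hlt
        rw [le_abs]
        left
        nlinarith [a.1, a.2, b.1, b.2]

end Pack

theorem exists_packing_density : ∃ p : ℝ, 0 < p ∧
    Tendsto (fun L : ℝ => (packingNumber L : ℝ) / L ^ 3) atTop (𝓝 p) := by
  let S : Set ℝ := (fun L : ℝ => (packingNumber L : ℝ) / (L + 1) ^ 3) '' Ici 0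
  have hb : BddAbove S := by
    refine ⟨8, ?_⟩
    rintro _ ⟨L, hL, rfl⟩
    have hL' : (0 : ℝ) ≤ L := hL
    have h1 : (packingNumber L : ℝ) ≤ ((⌊2 * L⌋₊ : ℝ) + 1) ^ 3 := by
      exact_mod_cast Pack.packingSet_le (Pack.mem L)
    have h2 : ((⌊2 * L⌋₊ : ℝ) + 1) ^ 3 ≤ (2 * (L + 1)) ^ 3 := by
      have := Nat.floor_le (show 0 ≤ 2 * L by linarith)
      exact pow_le_pow_left₀ (by positivity) (by linarith) 3
    beta_reduce
    rw [div_le_iff₀ (by positivity)]
    nlinarith
  have hne : S.Nonempty := ⟨_, 0, self_mem_Ici, rfl⟩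
  have hle : ∀ L : ℝ, 0 ≤ L → (packingNumber L : ℝ) / (L + 1) ^ 3 ≤ sSup S :=
    fun L hL => le_csSup hb ⟨L, hL, rfl⟩
  have hp : 0 < sSup S := by
    refine lt_of_lt_of_le ?_ (hle 0 le_rfl)
    have : (1 : ℝ) ≤ packingNumber 0 := by exact_mod_cast Pack.one_le le_rfl
    rw [zero_add, one_pow, div_one]
    linarith
  refine ⟨sSup S, hp, tendsto_order.2 ⟨fun a ha => ?_, fun b hb' => ?_⟩⟩
  · obtain ⟨_, ⟨L, hL, rfl⟩, haL⟩ := exists_lt_of_lt_csSup hne ha
    have hL' : (0 : ℝ) ≤ L := hL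
    beta_reduce at haL
    have t1 : Tendsto (fun L' : ℝ => (packingNumber L : ℝ) / (L + 1) ^ 3 * (1 - (L + 1) / L') ^ 3)
        atTop (𝓝 ((packingNumber L : ℝ) / (L + 1) ^ 3 * (1 - 0) ^ 3)) :=
      ((tendsto_const_nhds.sub (tendsto_const_nhds.div_atTop tendsto_id)).pow 3).const_mul _
    rw [sub_zero, one_pow, mul_one] at t1
    filter_upwards [t1.eventually (lt_mem_nhds haL), eventually_ge_atTop (L + 1)] with L' h1 h2
    refine lt_of_lt_of_le h1 ?_
    have hL1 : 0 < L + 1 := by linarith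
    have hL'0 : 0 < L' := by linarith
    set m := ⌊L' / (L + 1)⌋₊ with hm
    have h3 : (m : ℝ) * (L + 1) ≤ L' := by
      rw [← le_div_iff₀ hL1]
      exact Nat.floor_le (by positivity)
    have h4 : L' / (L + 1) - 1 ≤ m := by
      have := Nat.lt_floor_add_one (L' / (L + 1))
      linarith
    have h5 : (m : ℝ) ^ 3 * packingNumber L ≤ packingNumber L' := by
      exact_mod_cast Pack.superadd hL' m h3
    have h6 : 0 ≤ L' / (L + 1) - 1 := by
      rw [sub_nonneg, le_div_iff₀ hL1]
      linarith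
    have h7 : (L' / (L + 1) - 1) ^ 3 * packingNumber L ≤ (m : ℝ) ^ 3 * packingNumber L :=
      mul_le_mul_of_nonneg_right (pow_le_pow_left₀ h6 h4 3) (by positivity)
    rw [le_div_iff₀ (by positivity)]
    have e : (packingNumber L : ℝ) / (L + 1) ^ 3 * (1 - (L + 1) / L') ^ 3 * L' ^ 3 =
        (L' / (L + 1) - 1) ^ 3 * packingNumber L := by
      field_simp
    rw [e]
    linarith
  · have t1 : Tendsto (fun L : ℝ => sSup S * (1 + 1 / L) ^ 3) atTop (𝓝 (sSup S * (1 + 0) ^ 3)) :=
      ((tendsto_const_nhds.add (tendsto_const_nhds.div_atTop tendsto_id)).pow 3).const_mul _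
    rw [add_zero, one_pow, mul_one] at t1
    filter_upwards [t1.eventually (gt_mem_nhds hb'), eventually_gt_atTop 0] with L h1 h2
    refine lt_of_le_of_lt ?_ h1
    have e : (packingNumber L : ℝ) / L ^ 3 =
        (packingNumber L : ℝ) / (L + 1) ^ 3 * (1 + 1 / L) ^ 3 := by
      field_simp
    rw [e]
    exact mul_le_mul_of_nonneg_right (hle L h2.le) (by positivity)

theorem one_le_Pk {L : ℝ} (hL : 0 ≤ L) : 1 ≤ Pk L :=
  Pack.one_le (by positivity)

/-- an optimal packing, dilated by `lam` -/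
theorem exists_Pk_config {L lam : ℝ} (hL : 0 ≤ L) (hlam : 0 < lam) :
    ∃ y : Fin (Pk L) → Pt, (∀ c, y c ∈ cube (lam * L)) ∧
      ∀ c c', c ≠ c' → lam * (5 / 4) ≤ dist (y c) (y c') := by
  obtain ⟨X, hc, hX, hsep⟩ := Pack.mem (L / (5 / 4))
  let e : Fin (Pk L) ≃ X := (X.equivFinOfCardEq hc).symm
  have h0 : 0 < lam * (5 / 4) := by positivity
  refine ⟨fun c => (lam * (5 / 4)) • (e c : Pt), fun c k => ?_, fun c c' hcc => ?_⟩
  · have := hX _ (e c).2 k
    simp only [PiLp.smul_apply, smul_eq_mul]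
    refine ⟨mul_nonneg h0.le this.1, ?_⟩
    have h1 := mul_le_mul_of_nonneg_left this.2 h0.le
    have h2 : lam * (5 / 4) * (L / (5 / 4)) = lam * L := by ring
    linarith
  · rw [dist_smul₀, Real.norm_eq_abs, abs_of_pos h0]
    have := hsep _ (e c).2 _ (e c').2 (fun h => hcc (e.injective (Subtype.ext h)))
    nlinarith

theorem card_le_Pk {ι : Type} (s : Finset ι) (x : ι → Pt) (v : Fin 3 → ℝ) (L : ℝ)
    (hx : ∀ i ∈ s, x i ∈ cubeAt v L) (hsep : ∀ i ∈ s, ∀ j ∈ s, i ≠ j → 5 / 4 ≤ dist (x i) (x j)) :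
    s.card ≤ Pk L := by
  refine Pack.card_le s (fun i => (4 / 5 : ℝ) • (x i - WithLp.toLp 2 v)) _ (fun i hi k => ?_)
    (fun i hi j hj hij => ?_)
  · have := hx i hi k
    simp only [PiLp.smul_apply, PiLp.sub_apply, smul_eq_mul]
    constructor <;> linarith [this.1, this.2]
  · rw [dist_smul₀, dist_sub_right, Real.norm_eq_abs, abs_of_pos (by norm_num)]
    linarith [hsep i hi j hj hij]

theorem card_perm_max {n : ℕ} (s : Finset (Fin n)) {i : Fin n} (hi : i ∈ s) :
    (Finset.univ.filter fun π : Equiv.Perm (Fin n) => ∀ j ∈ s, π j ≤ π i).card * s.card = n.factorial := by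
  let A : Fin n → Finset (Equiv.Perm (Fin n)) :=
    fun i => Finset.univ.filter fun π : Equiv.Perm (Fin n) => ∀ j ∈ s, π j ≤ π i
  have hle : ∀ a ∈ s, ∀ b ∈ s, (A a).card ≤ (A b).card := by
    intro a ha b hb
    refine Finset.card_le_card_of_injOn (fun π => π * Equiv.swap a b) ?_
      (fun _ _ _ _ h => mul_right_cancel h)
    intro π hπ
    simp only [A, Finset.coe_filter, Finset.mem_univ, true_and, mem_ofPred_eq,
      Equiv.Perm.mul_apply, Equiv.swap_apply_right] at hπ ⊢
    intro j hj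
    apply hπ
    rw [Equiv.swap_apply_def]
    split_ifs <;> assumption
  have hsum : ∑ a ∈ s, (A a).card = n.factorial := by
    rw [← Finset.card_biUnion]
    · have : s.biUnion A = Finset.univ := by
        rw [Finset.eq_univ_iff_forall]
        intro π
        obtain ⟨a, ha, hmax⟩ := Finset.exists_max_image s π ⟨i, hi⟩
        exact Finset.mem_biUnion.mpr ⟨a, ha, by simpa [A] using hmax⟩
      rw [this, Finset.card_univ, Fintype.card_perm, Fintype.card_fin]
    · intro a ha b hb hab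
      refine Finset.disjoint_left.mpr fun π h1 h2 => hab ?_
      simp only [A, Finset.mem_filter, Finset.mem_univ, true_and] at h1 h2
      exact π.injective (le_antisymm (h2 a ha) (h1 b hb))
  rw [← hsum, Finset.sum_congr rfl (fun a ha => le_antisymm (hle a ha i hi) (hle i hi a ha)),
    Finset.sum_const, smul_eq_mul, mul_comm]

open Classical in
theorem caro_wei {n : ℕ} (s : Finset (Fin n)) (x : Fin n → Pt) (v : Fin 3 → ℝ) (L : ℝ)
    (hx : ∀ i ∈ s, x i ∈ cubeAt v L) :
    ∑ i ∈ s, (1 : ℝ) / (s.filter fun j => dist (x i) (x j) < 5 / 4).card ≤ Pk L := by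
  let N : Fin n → Finset (Fin n) := fun i => s.filter fun j => dist (x i) (x j) < 5 / 4
  have hN : ∀ i ∈ s, i ∈ N i := fun i hi => by simp [N, hi]
  have h1 : ∀ π : Equiv.Perm (Fin n), (s.filter fun i => ∀ j ∈ N i, π j ≤ π i).card ≤ Pk L := by
    intro π
    refine card_le_Pk _ x v L (fun i hi => hx i (Finset.mem_filter.mp hi).1) ?_
    intro i hi j hj hij
    rw [Finset.mem_filter] at hi hj
    by_contra hc
    push Not at hc
    have a := hi.2 j (Finset.mem_filter.mpr ⟨hj.1, hc⟩)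
    have b := hj.2 i (Finset.mem_filter.mpr ⟨hi.1, by rwa [dist_comm]⟩)
    exact hij (π.injective (le_antisymm b a))
  have h2 : ∑ i ∈ s, (Finset.univ.filter fun π : Equiv.Perm (Fin n) => ∀ j ∈ N i, π j ≤ π i).card
      ≤ n.factorial * Pk L := by
    have := Finset.sum_card_bipartiteAbove_eq_sum_card_bipartiteBelow
      (s := s) (t := (Finset.univ : Finset (Equiv.Perm (Fin n))))
      (fun i π => ∀ j ∈ N i, π j ≤ π i)
    simp only [Finset.bipartiteAbove, Finset.bipartiteBelow] at this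
    rw [this]
    refine le_trans (Finset.sum_le_sum fun π _ => h1 π) ?_
    rw [Finset.sum_const, smul_eq_mul, Finset.card_univ, Fintype.card_perm, Fintype.card_fin]
  have hf : (0 : ℝ) < n.factorial := by positivity
  have h3 : (n.factorial : ℝ) * ∑ i ∈ s, (1 : ℝ) / (N i).card ≤ n.factorial * Pk L := by
    rw [Finset.mul_sum]
    have h2' := (Nat.cast_le (α := ℝ)).mpr h2
    rw [Nat.cast_mul, Nat.cast_sum] at h2'
    refine le_trans (le_of_eq ?_) h2'
    refine Finset.sum_congr rfl fun i hi => ?_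
    have h4 : (0 : ℝ) < (N i).card := by exact_mod_cast Finset.card_pos.mpr ⟨i, hN i hi⟩
    rw [← card_perm_max (N i) (hN i hi), Nat.cast_mul, mul_assoc, mul_one_div_cancel h4.ne', mul_one]
  exact le_of_mul_le_mul_left h3 hf

theorem Pack.QQ_eq {n : ℕ} {C : Type} [DecidableEq C] (c : Fin n → C) (F : Finset C)
    (hF : ∀ i, c i ∈ F) : QQ c = ∑ a ∈ F, ((fib c a).card : ℝ) ^ 2 := by
  unfold QQ
  rw [← Finset.sum_fiberwise_of_maps_to (s := Finset.univ) (t := F) (g := c) (fun i _ => hF i)]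
  refine Finset.sum_congr rfl fun a _ => ?_
  have : ∀ i ∈ fib c a, (∑ j, if c i = c j then (1 : ℝ) else 0) = (fib c a).card := by
    intro i hi
    have hi' : c i = a := (Finset.mem_filter.1 hi).2
    rw [Finset.sum_boole, hi', fib]
    simp only [eq_comm]
  change ∑ i ∈ fib c a, _ = _
  rw [Finset.sum_congr rfl this, Finset.sum_const, nsmul_eq_mul, pow_two]

open Classical in
theorem Pack.cell_sq {n : ℕ} (s : Finset (Fin n)) (x : Fin n → Pt) (v : Fin 3 → ℝ) (L : ℝ)
    (hx : ∀ i ∈ s, x i ∈ cubeAt v L) :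
    (s.card : ℝ) ^ 2 ≤ Pk L * ∑ i ∈ s, ((s.filter fun j => dist (x i) (x j) < 5 / 4).card : ℝ) := by
  have hpos : ∀ i ∈ s, (0 : ℝ) < (s.filter fun j => dist (x i) (x j) < 5 / 4).card := by
    intro i hi
    exact_mod_cast Finset.card_pos.mpr ⟨i, by simp [hi]⟩
  have h1 := Finset.sum_sq_le_sum_mul_sum_of_sq_le_mul s (r := fun _ => (1 : ℝ))
    (f := fun i => (1 : ℝ) / (s.filter fun j => dist (x i) (x j) < 5 / 4).card)
    (g := fun i => ((s.filter fun j => dist (x i) (x j) < 5 / 4).card : ℝ))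
    (fun i _ => by positivity) (fun i _ => by positivity)
    (fun i hi => by rw [one_div_mul_cancel (hpos i hi).ne', one_pow])
  rw [Finset.sum_const, nsmul_eq_mul, mul_one] at h1
  exact le_trans h1 (mul_le_mul_of_nonneg_right (caro_wei s x v L hx)
    (Finset.sum_nonneg fun i _ => by positivity))

/-- crude superstability of the short-range potential -/
theorem SS0 {φ0 : ℝ → ℝ} {u : ℝ} (h : SR φ0 u) (hu : 0 ≤ u) {l t : ℝ} (hl : 0 < l) {n : ℕ}
    (x : Fin n → Pt) (c : Fin n → Fin 3 → ℤ) (hc : ∀ i, x i ∈ cell l t (c i)) :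
    u * (QQ c / Pk l - n) ≤ En φ0 x := by
  classical
  let k : Fin n → ℝ := fun i => ((fib c (c i)).filter fun j => dist (x i) (x j) < 5 / 4).card
  have hP : (0 : ℝ) < Pk l := by exact_mod_cast one_le_Pk hl.le
  have h1 : QQ c ≤ Pk l * ∑ i, k i := by
    rw [Pack.QQ_eq c (Finset.univ.image c) (fun i => Finset.mem_image_of_mem c (Finset.mem_univ i)),
      ← Finset.sum_fiberwise_of_maps_to (s := Finset.univ) (t := Finset.univ.image c) (g := c)
        (fun i hi => Finset.mem_image_of_mem c hi), Finset.mul_sum]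
    refine Finset.sum_le_sum fun a _ => ?_
    refine le_trans (Pack.cell_sq (fib c a) x (fun k => t + l * a k) l fun i hi => ?_)
      (le_of_eq ?_)
    · have hi' : c i = a := (Finset.mem_filter.1 hi).2
      have := hc i
      rwa [hi'] at this
    · congr 1
      refine Finset.sum_congr rfl fun i hi => ?_
      have hi' : c i = a := (Finset.mem_filter.1 hi).2
      simp only [k, hi']
  have h2 : ∀ i, 2 * u * (k i - 1) ≤ ∑ j, if i = j then 0 else φ0 (dist (x i) (x j)) := by
    intro i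
    let T := (fib c (c i)).filter fun j => dist (x i) (x j) < 5 / 4
    have hi : i ∈ T := by simp [T, fib]
    have e : 2 * u * (k i - 1) = ∑ _j ∈ T.erase i, 2 * u := by
      rw [Finset.sum_const, nsmul_eq_mul, Finset.card_erase_of_mem hi,
        Nat.cast_sub (Finset.card_pos.mpr ⟨i, hi⟩)]
      simp only [k, T, Nat.cast_one]
      ring
    rw [e]
    refine le_trans (Finset.sum_le_sum (g := fun j => if i = j then 0 else φ0 (dist (x i) (x j)))
      fun j hj => ?_) (Finset.sum_le_sum_of_subset_of_nonneg (Finset.subset_univ _) fun j _ _ => ?_)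
    · rw [Finset.mem_erase] at hj
      rw [if_neg (Ne.symm hj.1)]
      exact h.lo2 _ dist_nonneg (Finset.mem_filter.mp hj.2).2
    · split_ifs
      · exact le_rfl
      · exact h.nonneg _
  have h3 := Finset.sum_le_sum fun i (_ : i ∈ Finset.univ) => h2 i
  rw [← Finset.mul_sum, Finset.sum_sub_distrib] at h3
  simp only [Finset.sum_const, Finset.card_univ, Fintype.card_fin, nsmul_eq_mul, mul_one] at h3
  have h4 : QQ c / Pk l ≤ ∑ i, k i := by
    rw [div_le_iff₀ hP]
    linarith
  have h5 := mul_le_mul_of_nonneg_left (sub_le_sub_right h4 n) hu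
  unfold En EnS
  linarith

/-- Cauchy–Schwarz for the cell counts -/
theorem sq_le_QQ {n : ℕ} {C : Type} [DecidableEq C] (c : Fin n → C) (F : Finset C) (hF : ∀ i, c i ∈ F) :
    (n : ℝ) ^ 2 ≤ F.card * QQ c := by
  rw [Pack.QQ_eq c F hF]
  have h1 : (n : ℝ) = ∑ a ∈ F, ((fib c a).card : ℝ) := by
    have := Finset.card_eq_sum_card_fiberwise (s := (Finset.univ : Finset (Fin n))) (t := F) (f := c)
      (fun i _ => hF i)
    rw [Finset.card_univ, Fintype.card_fin] at this
    exact_mod_cast this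
  nth_rewrite 1 [h1]
  exact sq_sum_le_card_mul_sum_sq

theorem QQ_eq_sum_sq {n : ℕ} {C : Type} [Fintype C] [DecidableEq C] (c : Fin n → C) :
    QQ c = ∑ a, ((fib c a).card : ℝ) ^ 2 :=
  Pack.QQ_eq c Finset.univ fun _ => Finset.mem_univ _

end Crest.Agent.R149
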