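import Crest.Agent.R149.TL
import Crest.Agent.R149.Pack
import Crest.Agent.R149.Gauss

/-!
# Row 149: auxiliary lemmas for the Lebowitz–Penrose step
-/

set_option autoImplicit false

open MeasureTheory Filter Topology Set
open Crest.ProbabilityR.Continuum

namespace Crest.Agent.R149

theorem En_eq_sum (Φ : ℝ → ℝ) {n : ℕ} (x : Fin n → Pt) :
    En Φ x = (∑ i, ∑ j, Φ (dist (x i) (x j)) - n * Φ 0) / 2 := by
  unfold En EnS
  congr 1
  have : (n : ℝ) * Φ 0 = ∑ i : Fin n, ∑ j : Fin n, if i = j then Φ 0 else 0 := by simp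
  rw [this, ← Finset.sum_sub_distrib]
  refine Finset.sum_congr rfl fun i _ => ?_
  rw [← Finset.sum_sub_distrib]
  refine Finset.sum_congr rfl fun j _ => ?_
  split_ifs with h
  · simp [h]
  · simp

theorem En_le_half_sum {Φ : ℝ → ℝ} (h : 0 ≤ Φ 0) {n : ℕ} (x : Fin n → Pt) :
    En Φ x ≤ (∑ i, ∑ j, Φ (dist (x i) (x j))) / 2 := by
  rw [En_eq_sum]
  have : 0 ≤ (n : ℝ) * Φ 0 := by positivity
  linarith

theorem QQ_nonneg {n : ℕ} {C : Type} [DecidableEq C] (c : Fin n → C) : 0 ≤ QQ c := by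
  unfold QQ
  refine Finset.sum_nonneg fun i _ => Finset.sum_nonneg fun j _ => ?_
  split_ifs <;> norm_num

theorem sum_card_fib_real {N : ℕ} {C : Type} [Fintype C] [DecidableEq C] (f : Fin N → C) :
    ∑ c, ((fib f c).card : ℝ) = N := by
  have := Finset.card_eq_sum_card_fiberwise (s := Finset.univ) (t := Finset.univ) (f := f) (by simp)
  simp only [Finset.card_univ, Fintype.card_fin] at this
  rw [← Nat.cast_sum]
  exact_mod_cast this.symm

theorem QQ_lab_ge {l L : ℝ} (hl : 0 < l) (hL : 0 < L) {n : ℕ} (x : Fin n → Pt) (hx : ∀ i, x i ∈ cube L) :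
    (n : ℝ) ^ 2 / (L + l) ^ 3 ≤ QQ (fun i => lab l (x i)) / l ^ 3 := by
  have h1 := sq_le_QQ (fun i => lab l (x i)) (Fintype.piFinset fun _ : Fin 3 => Finset.Icc (0 : ℤ) ⌊L / l⌋)
    (fun i => Fintype.mem_piFinset.2 fun k => lab_mem_Icc hl (hx i) k)
  have h0 : 0 ≤ ⌊L / l⌋ := Int.floor_nonneg.2 (by positivity)
  have h2 : ((Fintype.piFinset fun _ : Fin 3 => Finset.Icc (0 : ℤ) ⌊L / l⌋).card : ℝ) ≤ ((L + l) / l) ^ 3 := by
    rw [Fintype.card_piFinset]
    simp only [Int.card_Icc, Finset.prod_const, Finset.card_univ, Fintype.card_fin, Nat.cast_pow]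
    refine pow_le_pow_left₀ (Nat.cast_nonneg _) ?_ 3
    have h3 : (((⌊L / l⌋ + 1 - 0).toNat : ℤ) : ℝ) = ((⌊L / l⌋ + 1 - 0 : ℤ) : ℝ) := by
      rw [Int.toNat_of_nonneg (by omega)]
    have h4 := Int.floor_le (L / l)
    have h5 : (L + l) / l = L / l + 1 := by field_simp
    push_cast at h3
    rw [h3, h5]; linarith
  have h3 := QQ_nonneg (fun i => lab l (x i))
  have h4 := h1.trans (mul_le_mul_of_nonneg_right h2 h3)
  rw [div_le_div_iff₀ (by positivity) (by positivity)]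
  rw [div_pow, div_mul_eq_mul_div, le_div_iff₀ (by positivity)] at h4
  linarith

theorem exists_shift {l : ℝ} (hl : 0 < l) {M : ℕ} (hM : 0 < M) {Ψ : ℝ → ℝ} (hΨ : ∀ r, 0 ≤ r → 0 ≤ Ψ r)
    {N : ℕ} (x : Fin N → Pt) : ∃ σ < M,
      (∑ i, ∑ j, if blab l M σ (x i) = blab l M σ (x j) then 0 else Ψ (dist (x i) (x j))) ≤
        3 / M * ∑ i, ∑ j, (dist (x i) (x j) / l + 1) * Ψ (dist (x i) (x j)) := by
  have h1 : ∑ σ ∈ Finset.range M,
      (∑ i, ∑ j, if blab l M σ (x i) = blab l M σ (x j) then 0 else Ψ (dist (x i) (x j))) ≤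
      ∑ _σ ∈ Finset.range M, 3 / M * ∑ i, ∑ j, (dist (x i) (x j) / l + 1) * Ψ (dist (x i) (x j)) := by
    have hM' : (M : ℝ) ≠ 0 := by positivity
    rw [Finset.sum_const, Finset.card_range, nsmul_eq_mul, ← mul_assoc, mul_div_cancel₀ _ hM',
      Finset.sum_comm, Finset.mul_sum]
    refine Finset.sum_le_sum fun i _ => ?_
    rw [Finset.sum_comm, Finset.mul_sum]
    refine Finset.sum_le_sum fun j _ => ?_
    have h2 := shift_count hl hM (x i) (x j)
    have h3 : (∑ σ ∈ Finset.range M, if blab l M σ (x i) = blab l M σ (x j) then 0 else Ψ (dist (x i) (x j))) =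
        (((Finset.range M).filter fun σ => blab l M σ (x i) ≠ blab l M σ (x j)).card : ℝ) * Ψ (dist (x i) (x j)) := by
      rw [← nsmul_eq_mul, ← Finset.sum_const, Finset.sum_filter]
      refine Finset.sum_congr rfl fun σ _ => ?_
      simp
    rw [h3, ← mul_assoc]
    exact mul_le_mul_of_nonneg_right h2 (hΨ _ dist_nonneg)
  obtain ⟨σ, hσ, h⟩ := Finset.exists_le_of_sum_le (Finset.nonempty_range_iff.2 hM.ne') h1
  exact ⟨σ, Finset.mem_range.1 hσ, h⟩

theorem QQ_le_J {l : ℝ} (hl : 0 < l) {N : ℕ} (x : Fin N → Pt) {C : Type} [Fintype C] [DecidableEq C]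
    (f : Fin N → C) (hf : ∀ i j, lab l (x i) = lab l (x j) → f i = f j) :
    QQ (fun i => lab l (x i)) ≤ N + 240 * l ^ 3 * ∑ c, EnS (JJ l) (fib f c) x := by
  have h1 := En_split (JJ l) f x
  have h2 : 240 * l ^ 3 * ∑ c, EnS (JJ l) (fib f c) x = ∑ i, ∑ j, 120 * l ^ 3 *
      ((if i = j then 0 else JJ l (dist (x i) (x j))) - if f i = f j then 0 else JJ l (dist (x i) (x j))) := by
    simp only [mul_sub, Finset.sum_sub_distrib, ← Finset.mul_sum]
    unfold En EnS at h1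
    unfold EnS
    linear_combination (-240 * l ^ 3) * h1
  have h3 : (N : ℝ) = ∑ i : Fin N, ∑ j : Fin N, if i = j then 1 else 0 := by simp
  rw [h2, h3, ← Finset.sum_add_distrib]
  unfold QQ
  refine Finset.sum_le_sum fun i _ => ?_
  rw [← Finset.sum_add_distrib]
  refine Finset.sum_le_sum fun j _ => ?_
  have hJ := JJ_pos hl (dist (x i) (x j))
  by_cases hij : i = j
  · simp [hij]
  by_cases hlab : lab l (x i) = lab l (x j)
  · have := JJ_same_cell hl (mem_cell_lab hl (x i)) (hlab ▸ mem_cell_lab hl (x j))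
    simp [hij, hlab, hf i j hlab, this]
  · simp only [hij, hlab, if_false, zero_add]
    split_ifs
    · positivity
    · simp

theorem sum_exp_neg_div_le {q : ℝ} (hq : 0 < q) (N : ℕ) :
    ∑ n ∈ Finset.range N, Real.exp (-(n : ℝ) / q) ≤ Real.exp q := by
  have h1 : Real.exp (-1 / q) < 1 := Real.exp_lt_one_iff.2 (by rw [neg_div]; simp [hq])
  have h2 : ∑ n ∈ Finset.range N, Real.exp (-(n : ℝ) / q) = ∑ n ∈ Finset.range N, Real.exp (-1 / q) ^ n := by
    refine Finset.sum_congr rfl fun n _ => ?_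
    rw [← Real.exp_nat_mul]; congr 1; ring
  rw [h2]
  have h3 := (hasSum_geometric_of_lt_one (Real.exp_pos _).le h1).summable.sum_le_tsum (Finset.range N)
    (fun n _ => by positivity)
  rw [tsum_geometric_of_lt_one (Real.exp_pos _).le h1] at h3
  refine h3.trans ?_
  have h4 : Real.exp (-1 / q) * (1 + 1 / q) ≤ 1 := by
    have := Real.add_one_le_exp (1 / q)
    have e : Real.exp (-1 / q) * Real.exp (1 / q) = 1 := by rw [← Real.exp_add]; simp [neg_div]
    nlinarith [Real.exp_pos (-1 / q)]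
  have h5 := Real.add_one_le_exp q
  refine le_trans ?_ h5
  rw [inv_le_iff_one_le_mul₀ (by linarith)]
  have h6 : Real.exp (-1 / q) * (q + 1) ≤ q := by
    have := mul_le_mul_of_nonneg_right h4 hq.le
    have e : Real.exp (-1 / q) * (1 + 1 / q) * q = Real.exp (-1 / q) * (q + 1) := by field_simp
    linarith
  nlinarith

/-- lower bound for the effect of adding a Kac attraction -/
theorem up_step {Φ : ℝ → ℝ} (hΦ : Good Φ) {γ R ρ : ℝ} (hγ : 0 ≤ γ) (hR : 0 < R) (hρ : 0 ≤ ρ)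
    (hΦ' : Good (fun r => Φ r - γ * JJ R r)) :
    ss Φ ρ + γ * ρ ^ 2 / 2 - γ * ρ / (2 * R ^ 3) ≤ ss (fun r => Φ r - γ * JJ R r) ρ := by
  have key : ∀ ε : ℝ, 0 < ε → ss Φ ρ ≤ ss (fun r => Φ r - γ * JJ R r) ρ -
      γ * (1 - ε) * ρ ^ 2 / 2 + γ * ρ / (2 * R ^ 3) := by
    intro ε hε
    have t1 := tendsto_floor_div hρ
    refine hΦ.ss_le hρ (((hΦ'.tendsto hρ).sub (((t1.pow 2).const_mul (γ * (1 - ε))).div_const 2)).add
      ((t1.const_mul γ).div_const (2 * R ^ 3))) ?_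
    filter_upwards [eventually_gt_atTop 0, gauss_lower hR hε] with L hL hg
    set n := ⌊ρ * L ^ 3⌋₊
    have := aa_le_of_En hΦ.toStab hΦ'.toStab hL n (-(γ * (1 - ε) * (n : ℝ) ^ 2 / L ^ 3 / 2) + γ * n / (2 * R ^ 3))
      fun x hx => by
        have h1 := hg n x hx
        have h2 := En_eq_sum (JJ R) x
        have h3 := JJ_le hR 0
        have h4 : En (fun r => Φ r - γ * JJ R r) x = En Φ x - γ * En (JJ R) x := by
          unfold En; rw [EnS_sub Φ (fun r => γ * JJ R r), EnS_smul]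
        have h5 : (n : ℝ) * JJ R 0 ≤ n * (1 / R ^ 3) := mul_le_mul_of_nonneg_left h3 (Nat.cast_nonneg _)
        have h6 : (1 - ε) * (n : ℝ) ^ 2 / L ^ 3 / 2 - n / (2 * R ^ 3) ≤ En (JJ R) x := by
          rw [h2]
          have : (n : ℝ) / (2 * R ^ 3) = n * (1 / R ^ 3) / 2 := by field_simp
          linarith
        have h7 := mul_le_mul_of_nonneg_left h6 hγ
        rw [h4]
        have e : γ * ((1 - ε) * (n : ℝ) ^ 2 / L ^ 3 / 2 - n / (2 * R ^ 3)) =
          γ * (1 - ε) * (n : ℝ) ^ 2 / L ^ 3 / 2 - γ * n / (2 * R ^ 3) := by ring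
        linarith
    rw [div_le_iff₀ (by positivity)]
    refine this.trans (le_of_eq ?_)
    field_simp
    ring
  have t : Tendsto (fun ε : ℝ => ss (fun r => Φ r - γ * JJ R r) ρ -
      γ * (1 - ε) * ρ ^ 2 / 2 + γ * ρ / (2 * R ^ 3)) (𝓝[>] 0) (𝓝 (ss (fun r => Φ r - γ * JJ R r) ρ -
      γ * (1 - 0) * ρ ^ 2 / 2 + γ * ρ / (2 * R ^ 3))) :=
    (Continuous.tendsto (by fun_prop) 0).mono_left nhdsWithin_le_nhds
  have := ge_of_tendsto t (eventually_nhdsWithin_of_forall fun ε hε => key ε hε)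
  linarith

end Crest.Agent.R149
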