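import Crest.Agent.R149.Scales
import Crest.Agent.R149.BaseU
import Crest.Agent.R149.BaseL
import Crest.Agent.R149.AL

/-!
# Row 149: verification of the hypotheses of the abstract lemma
-/

set_option autoImplicit false

open MeasureTheory Filter Topology Set
open Crest.ProbabilityR.Continuum

namespace Crest.Agent.R149

noncomputable def C0 : ℝ := Classical.choose baseL_fin

structure Par (φ0 : ℝ → ℝ) (p l u : ℝ) : Prop where
  sr : SR φ0 u
  hp : 0 < p
  hlim : Tendsto (fun L : ℝ => (Pk L : ℝ) / L ^ 3) atTop (𝓝 p)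
  hl : 1 ≤ l
  hP : (Pk l : ℝ) ≤ 9 / 8 * p * l ^ 3
  hu : 10 ^ 6 ≤ u
  hup : 10 ^ 6 ≤ u * p
  hC : 10 ^ 6 * |C0| ≤ u

variable {φ0 : ℝ → ℝ} {p l u : ℝ}

theorem Par.u_pos (h : Par φ0 p l u) : 0 < u := by linarith [h.hu]

theorem Par.a_pos (h : Par φ0 p l u) : 0 < u / p := div_pos h.u_pos h.hp

theorem Par.pl (h : Par φ0 p l u) : 8 / 9 ≤ p * l ^ 3 := by
  have h1 : (1 : ℝ) ≤ Pk l := by exact_mod_cast one_le_Pk (by linarith [h.hl] : 0 ≤ l)
  linarith [h.hP]

theorem Par.SS (h : Par φ0 p l u) {V : ℝ → ℝ} (hV : 0 ≤ V 0) {t : ℝ} {n : ℕ} (x : Fin n → Pt)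
    (hx : ∑ i, ∑ i', V (dist (x i) (x i')) ≤ t * (10 / 9 * QL l x)) {β : ℝ} (hβ : 0 ≤ β) :
    β * (u / p) * (8 / 9 - 5 / 9 * t) * QL l x - β * u * n ≤ En (fun r => β * (φ0 r - u / p * V r)) x := by
  have hl0 : 0 < l := by linarith [h.hl]
  have h1 := SS0 h.sr h.u_pos.le hl0 x (fun i => lab l (x i)) (fun i => mem_cell_lab hl0 (x i))
  have h2 := En_le_half_sum hV x
  have h3 : En (fun r => β * (φ0 r - u / p * V r)) x = β * (En φ0 x - u / p * En V x) := by
    unfold En; rw [EnS_smul β (fun r => φ0 r - u / p * V r), EnS_sub φ0 (fun r => u / p * V r), EnS_smul]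
  have hP1 : (1 : ℝ) ≤ Pk l := by exact_mod_cast one_le_Pk hl0.le
  have h4 : 8 / 9 * (1 / p) * QL l x ≤ QQ (fun i => lab l (x i)) / Pk l := by
    have e : 8 / 9 * (1 / p) * QL l x = QQ (fun i => lab l (x i)) / (9 / 8 * p * l ^ 3) := by
      have := h.hp
      unfold QL; field_simp
    rw [e]
    exact div_le_div_of_nonneg_left (QQ_nonneg _) (by linarith) h.hP
  have h5 := mul_le_mul_of_nonneg_left h4 h.u_pos.le
  have h6 := mul_le_mul_of_nonneg_left (h2.trans (div_le_div_of_nonneg_right hx (by norm_num))) h.a_pos.le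
  have h7 : u / p * (8 / 9 - 5 / 9 * t) * QL l x - u * n ≤ En φ0 x - u / p * En V x := by
    have e : u * (8 / 9 * (1 / p) * QL l x) = u / p * (8 / 9) * QL l x := by ring
    rw [e] at h5
    nlinarith
  rw [h3]
  have := mul_le_mul_of_nonneg_left h7 hβ
  linarith

theorem Par.goodV (h : Par φ0 p l u) {V : ℝ → ℝ} (hm : Measurable V) (hV : ∀ r, 0 ≤ V r) {t : ℝ} (ht : t ≤ 8 / 5)
    (hx : ∀ (n : ℕ) (x : Fin n → Pt), ∑ i, ∑ i', V (dist (x i) (x i')) ≤ t * (10 / 9 * QL l x)) {β : ℝ}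
    (hβ : 0 ≤ β) : Good (fun r => β * (φ0 r - u / p * V r)) := by
  refine ⟨⟨(h.sr.meas.sub (hm.const_mul _)).const_mul _, β * u, fun n x => ?_⟩, fun r hr => ?_⟩
  · have h1 := h.SS (hV 0) x (hx n x) hβ
    have : 0 ≤ β * (u / p) * (8 / 9 - 5 / 9 * t) * QL l x :=
      mul_nonneg (mul_nonneg (mul_nonneg hβ h.a_pos.le) (by linarith)) (QL_nonneg h.hl x)
    linarith
  · rw [h.sr.zero r (by unfold om; linarith)]
    have := mul_nonneg h.a_pos.le (hV r)
    nlinarith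

theorem Par.crudeV (h : Par φ0 p l u) {V : ℝ → ℝ} (hm : Measurable V) (hV : ∀ r, 0 ≤ V r) {t : ℝ} (ht : t ≤ 8 / 5)
    (hx : ∀ (n : ℕ) (x : Fin n → Pt), ∑ i, ∑ i', V (dist (x i) (x i')) ≤ t * (10 / 9 * QL l x)) {β : ℝ}
    (hβ : 0 ≤ β) {ρ : ℝ} (hρ : 0 ≤ ρ) : ss (fun r => β * (φ0 r - u / p * V r)) ρ ≤
      1 + β * u * ρ - β * (u / p) * (8 / 9 - 5 / 9 * t) * ρ ^ 2 := by
  refine ss_le_crude (h.goodV hm hV ht hx hβ) (l := l) hρ fun L n x hL hxL => ?_
  have h1 := h.SS (hV 0) x (hx n x) hβ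
  have h2 := QQ_lab_ge (by linarith [h.hl] : 0 < l) hL x hxL
  have h3 := mul_le_mul_of_nonneg_left h2
    (mul_nonneg (mul_nonneg hβ h.a_pos.le) (by linarith : 0 ≤ 8 / 9 - 5 / 9 * t))
  rw [mul_div_assoc]
  unfold QL at h1
  linarith

theorem Par.goodk (h : Par φ0 p l u) (k : ℕ) {β : ℝ} (hβ : 0 ≤ β) :
    Good (fun r => β * (φ0 r - u / p * Wk l k r)) :=
  h.goodV (continuous_Wk l k).measurable (Wk_nonneg h.hl k) (by linarith [TT_pos k])
    (fun _ x => sum_Wk h.hl k x) hβ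

theorem Par.goodI (h : Par φ0 p l u) {β : ℝ} (hβ : 0 ≤ β) :
    Good (fun r => β * (φ0 r - u / p * WI l r)) :=
  h.goodV (continuous_WI h.hl).measurable (WI_nonneg h.hl) (by norm_num) (fun _ x => sum_WI h.hl x) hβ

noncomputable def sig (φ0 : ℝ → ℝ) (p l u : ℝ) (k : ℕ) (β κ : ℝ) : ℝ :=
  ss (fun r => β * (φ0 r - u / p * Wk l k r)) (p * κ) / (u * p)

noncomputable def sigI (φ0 : ℝ → ℝ) (p l u : ℝ) (β κ : ℝ) : ℝ :=
  ss (fun r => β * (φ0 r - u / p * WI l r)) (p * κ) / (u * p)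

noncomputable def dd (k : ℕ) : ℝ := 10 ^ 11 / nn (k + 1)

theorem Par.crude_gen (h : Par φ0 p l u) {V : ℝ → ℝ} (hm : Measurable V) (hV : ∀ r, 0 ≤ V r) {t : ℝ} (ht0 : 0 ≤ t)
    (hx : ∀ (n : ℕ) (x : Fin n → Pt), ∑ i, ∑ i', V (dist (x i) (x i')) ≤ (1 - t) * (10 / 9 * QL l x)) {β : ℝ}
    (hβ : β ∈ Icc (7 / 8 : ℝ) (9 / 8)) {κ : ℝ} (hκ : 0 ≤ κ) :
    ss (fun r => β * (φ0 r - u / p * V r)) (p * κ) / (u * p) + β * t * κ ^ 2 / 2 ≤ 2 * (1 + κ) - κ ^ 2 / 8 := by
  have hp := h.hp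
  have hup : 0 < u * p := by linarith [h.hup]
  have hβ0 : 0 ≤ β := by linarith [hβ.1]
  have h1 := h.crudeV hm hV (by linarith) hx hβ0 (mul_nonneg hp.le hκ)
  have h2 := div_le_div_of_nonneg_right h1 hup.le
  have e : (1 + β * u * (p * κ) - β * (u / p) * (8 / 9 - 5 / 9 * (1 - t)) * (p * κ) ^ 2) / (u * p) =
      1 / (u * p) + β * κ - β * (1 / 3 + 5 / 9 * t) * κ ^ 2 := by
    have := h.u_pos
    field_simp; ring
  rw [e] at h2
  have h3 : 1 / (u * p) ≤ 1 := by rw [div_le_one hup]; linarith [h.hup]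
  have h4 := mul_le_mul_of_nonneg_right hβ.1 (sq_nonneg κ)
  have h5 := mul_le_mul_of_nonneg_right hβ.2 hκ
  have h6 : 0 ≤ β * t * κ ^ 2 := by positivity
  nlinarith

theorem pot_succ (φ0 : ℝ → ℝ) (p l u : ℝ) (k : ℕ) (β : ℝ) : (fun r => β * (φ0 r - u / p * Wk l (k + 1) r)) =
    fun r => β * (φ0 r - u / p * Wk l k r) - β * (u / p) * cc k * JJ (l * ((nn (k + 1) : ℕ) : ℝ) ^ 4) r := by
  ext r
  rw [Wk, Finset.sum_range_succ, ← Wk, RR]; ring

theorem Par.lp (h : Par φ0 p l u) (k : ℕ) {β : ℝ} (hβ : β ∈ Icc (7 / 8 : ℝ) (9 / 8)) {A B : ℝ} (hA : A ≤ 4000)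
    (hB : |B| ≤ 100) (hAB : ∀ κ, 0 ≤ κ → sig φ0 p l u k β κ + β * (TT k - TT (k + 1)) * κ ^ 2 / 2 ≤ A + B * κ)
    {κ : ℝ} (hκ : κ ∈ Icc (0 : ℝ) 80) : sig φ0 p l u (k + 1) β κ ≤ A + B * κ + dd k := by
  have hp := h.hp
  have hu := h.u_pos
  have hup : 0 < u * p := by positivity
  have hβ0 : 0 ≤ β := by linarith [hβ.1]
  have hb : 0 ≤ β * (u / p) := mul_nonneg hβ0 h.a_pos.le
  have H : LPHyp (fun r => β * (φ0 r - u / p * Wk l k r)) (fun r => β * (u / p) * Wk l k r) l (β * (u / p)) (TT k)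
      (β * (u / p) * cc k) (β * u) (u * p * A) (u * B) (nn (k + 1)) :=
    { good := h.goodk k hβ0
      hl := h.hl
      hq := by have := nn_ge (k + 1); have : 1 ≤ 8 ^ (k + 1) := Nat.one_le_pow _ _ (by norm_num); omega
      hb := hb
      hT1 := TT_le_one k
      hγ0 := mul_nonneg hb (cc_nonneg k)
      hγ := mul_le_mul_of_nonneg_left (cc_le k) hb
      hT0 := (TT_pos k).le
      hB0 := by positivity
      hSS := fun n x => by
        have h1 := h.SS (Wk_nonneg h.hl k 0) x (sum_Wk h.hl k x) hβ0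
        have h2 := mul_nonneg (mul_nonneg hb (TT_pos k).le) (QL_nonneg h.hl x)
        unfold QL at h1 h2
        nlinarith
      hΨ0 := fun r _ => mul_nonneg hb (Wk_nonneg h.hl k r)
      hΨ := fun r _ => by have := mul_nonneg hβ0 (h.sr.nonneg r); linarith
      hW := fun n x => by
        have h1 := mul_le_mul_of_nonneg_left (sum_weight_Wk h.hl k x) hb
        simp only [Finset.mul_sum] at h1
        unfold QL at h1
        refine le_trans (le_of_eq ?_) (h1.trans (le_of_eq (by ring)))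
        exact Finset.sum_congr rfl fun i _ => Finset.sum_congr rfl fun j _ => by ring
      hA := fun ρ hρ => by
        have h1 := mul_le_mul_of_nonneg_left (hAB (ρ / p) (by positivity)) hup.le
        unfold sig at h1
        have e1 : p * (ρ / p) = ρ := by field_simp
        rw [e1, mul_add, mul_div_cancel₀ _ hup.ne'] at h1
        have e2 : u * p * (β * (TT k - TT (k + 1)) * (ρ / p) ^ 2 / 2) = β * (u / p) * cc k * ρ ^ 2 / 2 := by
          unfold cc; field_simp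
        have e3 : u * p * (A + B * (ρ / p)) = u * p * A + u * B * ρ := by field_simp
        rw [e2, e3] at h1
        exact h1 }
  have hG := h.goodk (k + 1) hβ0
  rw [pot_succ] at hG
  have h1 := H.step hG (mul_nonneg hp.le hκ.1)
  rw [← pot_succ] at h1
  have h2 := div_le_div_of_nonneg_right h1 hup.le
  refine h2.trans ?_
  have hq := nn_pos (k + 1)
  have hl0 : 0 < l := by linarith [h.hl]
  have e : (u * p * A + u * B * (p * κ) + ((10 ^ 7 * (|u * B| + β * u) + 192 * (β * (u / p)) / l ^ 3 + 1) * (p * κ) +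
      7 * (u * p * A) + 10 ^ 7 + 1) / (nn (k + 1) : ℝ)) / (u * p) = A + B * κ +
      ((10 ^ 7 * (|B| + β) + 192 * β * (1 / (p * l ^ 3)) + 1 / u) * κ + 7 * A + (10 ^ 7 + 1) * (1 / (u * p))) /
        (nn (k + 1) : ℝ) := by
    rw [abs_mul, abs_of_pos hu]; field_simp; ring
  rw [e]
  unfold dd
  refine add_le_add_right (div_le_div_of_nonneg_right ?_ hq.le) _
  have g1 : 1 / (p * l ^ 3) ≤ 9 / 8 := by
    rw [div_le_iff₀ (by positivity)]; linarith [h.pl]
  have g2 : 1 / u ≤ 1 := by rw [div_le_one hu]; linarith [h.hu]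
  have g3 : 1 / (u * p) ≤ 1 := by rw [div_le_one hup]; linarith [h.hup]
  have g4 : 192 * β * (1 / (p * l ^ 3)) ≤ 192 * (9 / 8) * (9 / 8) :=
    mul_le_mul (by linarith [hβ.2]) g1 (by positivity) (by norm_num)
  have g5 : (10 ^ 7 * (|B| + β) + 192 * β * (1 / (p * l ^ 3)) + 1 / u) * κ ≤ (10 ^ 7 * 102 + 244) * 80 :=
    mul_le_mul (by linarith [hβ.2]) hκ.2 hκ.1 (by norm_num)
  linarith

theorem Par.up (h : Par φ0 p l u) (k : ℕ) {β : ℝ} (hβ : β ∈ Icc (7 / 8 : ℝ) (9 / 8)) {κ : ℝ}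
    (hκ : κ ∈ Icc (0 : ℝ) 80) :
    sig φ0 p l u k β κ + β * (TT k - TT (k + 1)) * κ ^ 2 / 2 - dd k ≤ sig φ0 p l u (k + 1) β κ := by
  have hp := h.hp
  have hu := h.u_pos
  have hup : 0 < u * p := by positivity
  have hβ0 : 0 ≤ β := by linarith [hβ.1]
  have hb : 0 ≤ β * (u / p) := mul_nonneg hβ0 h.a_pos.le
  have hq := nn_pos (k + 1)
  have hl0 : 0 < l := by linarith [h.hl]
  have hG := h.goodk (k + 1) hβ0
  rw [pot_succ] at hG
  have h1 := up_step (h.goodk k hβ0) (mul_nonneg hb (cc_nonneg k)) (by positivity) (mul_nonneg hp.le hκ.1) hG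
  rw [← pot_succ] at h1
  have h2 := div_le_div_of_nonneg_right h1 hup.le
  refine le_trans ?_ h2
  rw [sub_div, add_div]
  have e2 : β * (u / p) * cc k * (p * κ) ^ 2 / 2 / (u * p) = β * (TT k - TT (k + 1)) * κ ^ 2 / 2 := by
    unfold cc; field_simp
  have e3 : β * (u / p) * cc k * (p * κ) / (2 * (l * (nn (k + 1) : ℝ) ^ 4) ^ 3) / (u * p) =
      β * cc k * κ * (1 / (p * l ^ 3)) / (2 * (nn (k + 1) : ℝ) ^ 12) := by
    field_simp
  rw [e2, e3]
  unfold sig
  refine sub_le_sub_left ?_ _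
  unfold dd
  have g1 : 1 / (p * l ^ 3) ≤ 9 / 8 := by
    rw [div_le_iff₀ (by positivity)]; linarith [h.pl]
  have g2 : β * cc k * κ * (1 / (p * l ^ 3)) ≤ 9 / 8 * 1 * 80 * (9 / 8) :=
    mul_le_mul (mul_le_mul (mul_le_mul hβ.2 ((cc_le k).trans (TT_le_one k)) (cc_nonneg k) (by norm_num)) hκ.2 hκ.1
      (by norm_num)) g1 (by positivity) (by norm_num)
  have g3 : (nn (k + 1) : ℝ) ≤ (nn (k + 1) : ℝ) ^ 12 := le_self_pow₀ (by linarith [nn_ge'' (k + 1)]) (by norm_num)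
  exact div_le_div₀ (by norm_num) (by linarith) hq (by linarith)

theorem pot_zero (φ0 : ℝ → ℝ) (p l u β : ℝ) : (fun r => β * (φ0 r - u / p * Wk l 0 r)) = fun r => β * φ0 r := by
  ext r; simp [Wk]

theorem Par.baseU (h : Par φ0 p l u) {β : ℝ} (hβ : β ∈ Icc (7 / 8 : ℝ) (9 / 8)) {A B : ℝ} (hA : 0 ≤ A)
    (hAB : ∀ k : ℕ, 1 ≤ k → B * k - A ≤ Fb β k) {κ : ℝ} (hκ : 0 ≤ κ) :
    sig φ0 p l u 0 β κ ≤ (1 + κ) / 10 ^ 6 + A - B * κ := by
  have hp := h.hp
  have hu := h.u_pos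
  have hup : 0 < u * p := by positivity
  have hβ0 : 0 ≤ β := by linarith [hβ.1]
  have hG := h.goodk 0 hβ0
  unfold sig
  rw [pot_zero] at hG ⊢
  have hρ : 0 ≤ p * κ := by positivity
  have t1 := tendsto_floor_div hρ
  have h1 := hG.ss_le hρ ((((tendsto_const_nhds (x := (1 : ℝ))).add t1).sub (t1.const_mul (u * B))).add
    (h.hlim.const_mul (u * A))) (by
      filter_upwards [eventually_gt_atTop 0] with L hL
      have := baseU_fin h.sr hu.le hβ0 hA hAB hL ⌊p * κ * L ^ 3⌋₊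
      rw [div_le_iff₀ (by positivity)]
      refine this.trans (le_of_eq ?_)
      field_simp)
  refine (div_le_div_of_nonneg_right h1 hup.le).trans ?_
  have e : (1 + p * κ - u * B * (p * κ) + u * A * p) / (u * p) = 1 / (u * p) + 1 / u * κ + A - B * κ := by
    field_simp; ring
  rw [e]
  have g1 : 1 / (u * p) ≤ 1 / 10 ^ 6 := one_div_le_one_div_of_le (by norm_num) h.hup
  have g2 : 1 / u ≤ 1 / 10 ^ 6 := one_div_le_one_div_of_le (by norm_num) h.hu
  have g3 := mul_le_mul_of_nonneg_right g2 hκ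
  linarith

theorem Fb_nonneg {β : ℝ} (hβ : 0 ≤ β) {i : ℕ} (hi : 1 ≤ i) : 0 ≤ Fb β i := by
  have : (0 : ℝ) ≤ (i : ℝ) - 1 := by
    have : (1 : ℝ) ≤ i := by exact_mod_cast hi
    linarith
  unfold Fb
  exact le_min (by positivity) (by positivity)

theorem Par.baseL (h : Par φ0 p l u) {i : ℕ} (hi : i ∈ ({2, 3, 4} : Finset ℕ)) : ∃ κ : ℝ, |κ - i| ≤ 1 / 10 ^ 6 ∧
    ∀ β ∈ Icc (7 / 8 : ℝ) (9 / 8), -Fb β i - 1 / 10 ^ 6 ≤ sig φ0 p l u 0 β κ := by
  have hp := h.hp
  have hu := h.u_pos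
  have hup : 0 < u * p := by positivity
  set lam := 1 + 12 * om / 5 with hlam
  have hom : 0 < om := by unfold om; positivity
  have hlam0 : 0 < lam := by positivity
  have t1 : Tendsto (fun L : ℝ => lam + (om + 2) / L) atTop (𝓝 (lam + 0)) :=
    tendsto_const_nhds.add (tendsto_const_nhds.div_atTop tendsto_id)
  have t2 : Tendsto (fun L : ℝ => (Pk L : ℝ) / L ^ 3 / (p * (lam + (om + 2) / L) ^ 3)) atTop
      (𝓝 (p / (p * (lam + 0) ^ 3))) :=
    h.hlim.div ((t1.pow 3).const_mul p) (by positivity)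
  have e0 : p / (p * (lam + 0) ^ 3) = 1 / lam ^ 3 := by field_simp; ring
  rw [e0] at t2
  have g1 : 1 / lam ^ 3 < 1 := by
    rw [div_lt_one (by positivity)]
    exact one_lt_pow₀ (by linarith) (by norm_num)
  have g2 : 1 - 1 / (4 * 10 ^ 6) < 1 / lam ^ 3 := by
    rw [hlam]; unfold om; norm_num
  obtain ⟨L, ⟨hL1, hL2⟩, hL⟩ := (((t2.eventually (lt_mem_nhds g2)).and (t2.eventually (gt_mem_nhds g1))).and
    (eventually_gt_atTop 0)).exists
  set τ := (Pk L : ℝ) / L ^ 3 / (p * (lam + (om + 2) / L) ^ 3) with hτ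
  have hτ' : τ = Pk L / (p * (lam * L + om + 2) ^ 3) := by rw [hτ]; field_simp; ring
  have hi4 : (i : ℝ) ≤ 4 := by
    have : i ≤ 4 := by simp at hi; omega
    exact_mod_cast this
  have hi1 : 1 ≤ i := by simp at hi; omega
  have hi0 : (0 : ℝ) ≤ i := Nat.cast_nonneg _
  refine ⟨i * τ, ?_, fun β hβ => ?_⟩
  · rw [abs_le]; constructor <;> nlinarith
  have hβ0 : 0 ≤ β := by linarith [hβ.1]
  have hG := h.goodk 0 hβ0
  unfold sig
  rw [pot_zero] at hG ⊢
  have h1 := Classical.choose_spec baseL_fin φ0 u h.sr (by linarith [h.hu]) β hβ i hi L hL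
  have h2 := hG.aa_le (L := lam * L + om) (by positivity) (i * Pk L)
  have e1 : ((i * Pk L : ℕ) : ℝ) / (lam * L + om + 2) ^ 3 = p * (i * τ) := by
    rw [hτ']; push_cast; field_simp
  rw [e1] at h2
  have h3 := h1.trans h2
  rw [le_div_iff₀ hup]
  have h4 : τ * p * (-u * Fb β i - C0) ≤ ss (fun r => β * φ0 r) (p * (i * τ)) := by
    have hpos : 0 < (lam * L + om + 2) ^ 3 := by positivity
    have e2 : τ * p = Pk L / (lam * L + om + 2) ^ 3 := by rw [hτ']; field_simp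
    rw [e2, div_mul_eq_mul_div, div_le_iff₀ hpos]
    unfold C0
    linarith
  refine le_trans ?_ h4
  have h5 := Fb_nonneg hβ0 hi1
  have h6 : 0 ≤ u * Fb β i + |C0| := by positivity
  have h7 : τ * (u * Fb β i + |C0|) ≤ 1 * (u * Fb β i + |C0|) := mul_le_mul_of_nonneg_right hL2.le h6
  have hτ0 : 0 ≤ τ := by linarith
  have h8 : τ * C0 ≤ τ * |C0| := mul_le_mul_of_nonneg_left (le_abs_self _) hτ0
  have h9 : (-Fb β i - 1 / 10 ^ 6) * u ≤ τ * (-u * Fb β i - C0) := by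
    have := h.hC
    nlinarith
  have := mul_le_mul_of_nonneg_right h9 hp.le
  linarith

theorem Par.lim (h : Par φ0 p l u) {β : ℝ} (hβ : β ∈ Icc (7 / 8 : ℝ) (9 / 8)) (K : ℝ) {ε : ℝ} (hε : 0 < ε) :
    ∀ᶠ k in atTop, ∀ κ ∈ Icc (0 : ℝ) K, |sig φ0 p l u k β κ - sigI φ0 p l u β κ| ≤ ε := by
  have hp := h.hp
  have hu := h.u_pos
  have hup : 0 < u * p := by positivity
  have hβ0 : 0 ≤ β := by linarith [hβ.1]
  have hG0 := h.goodk 0 hβ0
  set m := min 0 (ss (fun r => β * (φ0 r - u / p * Wk l 0 r)) (p * K)) with hm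
  have t : Tendsto (fun k => 2 * TT k * (1 + β * u * (p * K) - m) / (u * p)) atTop
      (𝓝 (2 * 0 * (1 + β * u * (p * K) - m) / (u * p))) :=
    (((TT_lim.const_mul 2).mul_const _).div_const _)
  simp only [mul_zero, zero_mul, zero_div] at t
  filter_upwards [t.eventually (ge_mem_nhds hε), TT_lim.eventually (ge_mem_nhds (by norm_num : (0 : ℝ) < 1 / 2))]
    with k hk hk2 κ hκ
  have hρ : 0 ≤ p * κ := mul_nonneg hp.le hκ.1
  have hρK : p * κ ≤ p * K := mul_le_mul_of_nonneg_left hκ.2 hp.le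
  have hT := TT_pos k
  have hGk := h.goodk k hβ0
  have hGI := h.goodI hβ0
  have hb : 0 ≤ β * (u / p) := mul_nonneg hβ0 h.a_pos.le
  have m1 : ss (fun r => β * (φ0 r - u / p * Wk l k r)) (p * κ) ≤
      ss (fun r => β * (φ0 r - u / p * WI l r)) (p * κ) :=
    ss_mono hGk hGI (fun r _ => by nlinarith [mul_le_mul_of_nonneg_left (Wk_le_WI h.hl k r) hb]) hρ
  have m2 : ss (fun r => β * (φ0 r - u / p * Wk l 0 r)) (p * κ) ≤
      ss (fun r => β * (φ0 r - u / p * Wk l k r)) (p * κ) :=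
    ss_mono hG0 hGk (fun r _ => by
      have := mul_nonneg hb (Wk_nonneg h.hl k r)
      simp only [Wk, Finset.range_zero, Finset.sum_empty] at this ⊢
      nlinarith) hρ
  have m3 : m ≤ ss (fun r => β * (φ0 r - u / p * Wk l 0 r)) (p * κ) := by
    have := hG0.concave.min_le_of_mem_Icc (mem_Ici.2 le_rfl) (mem_Ici.2 (hρ.trans hρK)) ⟨hρ, hρK⟩
    rwa [hG0.ss_zero] at this
  -- Hölder
  set V : ℝ → ℝ := fun r => Wk l k r + (WI l r - Wk l k r) / (2 * TT k) with hV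
  have hVm : Measurable V := (continuous_Wk l k).measurable.add
    (((continuous_WI h.hl).measurable.sub (continuous_Wk l k).measurable).div_const _)
  have hV0 : ∀ r, 0 ≤ V r := fun r => add_nonneg (Wk_nonneg h.hl k r)
    (div_nonneg (sub_nonneg.2 (Wk_le_WI h.hl k r)) (by positivity))
  have hVs : ∀ (n : ℕ) (x : Fin n → Pt), ∑ i, ∑ i', V (dist (x i) (x i')) ≤ 3 / 2 * (10 / 9 * QL l x) := by
    intro n x
    have h1 := sum_Wk h.hl k x
    have h2 := div_le_div_of_nonneg_right (sum_WI_sub h.hl k x) (by positivity : 0 ≤ 2 * TT k)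
    have e : TT k * (10 / 9 * QL l x) / (2 * TT k) = 1 / 2 * (10 / 9 * QL l x) := by field_simp
    rw [e] at h2
    simp only [hV, Finset.sum_add_distrib, ← Finset.sum_div]
    have h3 := mul_nonneg hT.le (QL_nonneg h.hl x)
    nlinarith
  have hGV := h.goodV hVm hV0 (by norm_num) hVs hβ0
  have c1 := h.crudeV hVm hV0 (by norm_num) hVs hβ0 hρ
  have hH := ss_holder hGk hGV (θ := 2 * TT k) (by positivity) (by linarith) hρ
  have e : (fun r => (1 - 2 * TT k) * (β * (φ0 r - u / p * Wk l k r)) + 2 * TT k * (β * (φ0 r - u / p * V r))) =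
      fun r => β * (φ0 r - u / p * WI l r) := by
    ext r; simp only [hV]; field_simp; ring
  rw [e] at hH
  have c2 : 0 ≤ β * (u / p) * (8 / 9 - 5 / 9 * (3 / 2)) * (p * κ) ^ 2 := by positivity
  have c3 : β * u * (p * κ) ≤ β * u * (p * K) := mul_le_mul_of_nonneg_left hρK (by positivity)
  unfold sig sigI
  rw [← sub_div, abs_div, abs_of_pos hup, abs_sub_comm, abs_of_nonneg (sub_nonneg.2 m1)]
  refine le_trans (div_le_div_of_nonneg_right ?_ hup.le) hk
  have c4 : ss (fun r => β * (φ0 r - u / p * V r)) (p * κ) - ss (fun r => β * (φ0 r - u / p * Wk l k r)) (p * κ) ≤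
      1 + β * u * (p * K) - m := by linarith
  have := mul_le_mul_of_nonneg_left c4 (by positivity : 0 ≤ 2 * TT k)
  linarith

theorem Par.alHyp (h : Par φ0 p l u) : ALHyp (sig φ0 p l u) (sigI φ0 p l u) TT dd where
  T0 := rfl
  Tpos := TT_pos
  Tanti := TT_anti
  Tlim := TT_lim
  δnn := fun k => div_nonneg (by norm_num) (nn_pos _).le
  δle := fun k => by
    have h1 := nn_ge' k
    have h2 := nn_pos k
    simp only [dd, TT]
    rw [nn_succ, div_div, div_le_div_iff₀ (by positivity) (by positivity)]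
    nlinarith
  cvx := fun k κ hκ => by
    have h1 := h.goodk k (β := 1) zero_le_one
    simp only [one_mul] at h1
    have h2 := (ss_convex h1 (mul_nonneg h.hp.le hκ)).smul (c := 1 / (u * p)) (by have := h.hup; positivity)
    refine h2.congr fun β _ => ?_
    simp only [sig, smul_eq_mul]; ring
  zero := fun k β => by
    simp only [sig, mul_zero, ss, slim, zero_mul, Nat.floor_zero, aa, zz_zero, Real.log_one, zero_div, liminf_const]
  crude := fun k β hβ κ hκ =>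
    h.crude_gen (continuous_Wk l k).measurable (Wk_nonneg h.hl k) (TT_pos k).le (fun _ x => sum_Wk h.hl k x) hβ hκ
  crudeI := fun β hβ κ hκ => by
    simpa [sigI] using h.crude_gen (continuous_WI h.hl).measurable (WI_nonneg h.hl) (le_refl 0)
      (fun _ x => by simpa using sum_WI h.hl x) hβ hκ
  lp := fun k β hβ A B hA hB hAB κ hκ => h.lp k hβ hA hB hAB hκ
  up := fun k β hβ κ hκ => h.up k hβ hκ
  baseU := fun β hβ A B hA hAB κ hκ => h.baseU hβ hA hAB hκ
  baseL := fun i hi => h.baseL hi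
  lim := fun β hβ K ε hε => h.lim hβ K hε
  ccv := fun β hβ => by
    have h1 := (h.goodI (β := β) (by linarith [hβ.1])).concave
    have hup : 0 < u * p := by linarith [h.hup]
    refine ⟨convex_Ici 0, fun x hx y hy a b ha hb hab => ?_⟩
    have := h1.2 (mem_Ici.2 (mul_nonneg h.hp.le hx)) (mem_Ici.2 (mul_nonneg h.hp.le hy)) ha hb hab
    simp only [smul_eq_mul, sigI] at this ⊢
    have e : p * (a * x + b * y) = a * (p * x) + b * (p * y) := by ring
    rw [e, ← mul_div_assoc, ← mul_div_assoc, ← add_div]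
    exact div_le_div_of_nonneg_right this hup.le

end Crest.Agent.R149
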