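import Crest.Agent.R149.Defs

/-!
# Row 149, task R149-Part: basic facts on `En`, `zz`

Hints.  The measure is `μ A n = Measure.pi fun _ : Fin n => volume.restrict A`; it is finite when `volume A ≠ ∞`;
`∀ᵐ x ∂μ, ∀ i, x i ∈ A` (`Measure.restrict_pi_pi`, `ae_restrict_mem`, or `Measure.ae_pi_le_pi`-type lemmas).
`exp (-En Φ x) ≤ exp (B n)` by stability, hence integrable.  `vol^n / n! ≤ exp vol` is `Real.pow_div_factorial_le_exp`.
Translation: `x ↦ x + v` is measure preserving from `volume.restrict (cube L)` to `volume.restrict (cubeAt v L)`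
(`MeasurePreserving.restrict_preimage`, `measurePreserving_pi`), and `dist` is translation invariant.
Hölder: with `I = ∫ e^f`, `I' = ∫ e^g`, pointwise convexity of `exp` gives
`exp ((1-θ)(f - log I) + θ (g - log I')) ≤ (1-θ) e^f / I + θ e^g / I'`; integrate.
`volume` on `EuclideanSpace ℝ (Fin 3)`: `EuclideanSpace.volume_preserving_symm_measurableEquiv_toLp` /
`PiLp.volume_preserving_ofLp`, `Real.volume_Icc_pi`.
-/

set_option autoImplicit false

open MeasureTheory Filter Topology Set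
open Crest.ProbabilityR.Continuum

namespace Crest.Agent.R149

theorem cube_eq (L : ℝ) : cube L = cubeAt (fun _ => 0) L := by
  ext x; simp [cube, cubeAt]

theorem measurableSet_cubeAt (v : Fin 3 → ℝ) (L : ℝ) : MeasurableSet (cubeAt v L) := by
  have : cubeAt v L = ⋂ k, ({x : Pt | v k ≤ x k} ∩ {x : Pt | x k ≤ v k + L}) := by
    ext x; simp [cubeAt]
  rw [this]
  refine MeasurableSet.iInter fun k => MeasurableSet.inter ?_ ?_
  · exact measurableSet_le measurable_const (by fun_prop)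
  · exact measurableSet_le (by fun_prop) measurable_const

theorem volume_cubeAt (v : Fin 3 → ℝ) {L : ℝ} (hL : 0 ≤ L) :
    volume (cubeAt v L) = ENNReal.ofReal (L ^ 3) := by
  have h1 : cubeAt v L = (@WithLp.ofLp 2 (Fin 3 → ℝ)) ⁻¹' (Icc v (fun k => v k + L)) := by
    ext x; simp [cubeAt, Pi.le_def, forall_and]
  rw [h1, (PiLp.volume_preserving_ofLp (Fin 3)).measure_preimage measurableSet_Icc.nullMeasurableSet,
    Real.volume_Icc_pi]
  simp [ENNReal.ofReal_pow hL]

theorem measurableSet_cube (L : ℝ) : MeasurableSet (cube L) := by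
  rw [cube_eq]; exact measurableSet_cubeAt _ _

theorem volume_cube {L : ℝ} (hL : 0 ≤ L) : volume (cube L) = ENNReal.ofReal (L ^ 3) := by
  rw [cube_eq]; exact volume_cubeAt _ hL

theorem EnS_add (Φ Ψ : ℝ → ℝ) {ι : Type} [DecidableEq ι] (s : Finset ι) (x : ι → Pt) :
    EnS (fun r => Φ r + Ψ r) s x = EnS Φ s x + EnS Ψ s x := by
  unfold EnS
  rw [← add_div, ← Finset.sum_add_distrib]
  congr 1
  refine Finset.sum_congr rfl fun i _ => ?_
  rw [← Finset.sum_add_distrib]
  refine Finset.sum_congr rfl fun j _ => ?_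
  split_ifs <;> simp

theorem EnS_sub (Φ Ψ : ℝ → ℝ) {ι : Type} [DecidableEq ι] (s : Finset ι) (x : ι → Pt) :
    EnS (fun r => Φ r - Ψ r) s x = EnS Φ s x - EnS Ψ s x := by
  unfold EnS
  rw [← sub_div, ← Finset.sum_sub_distrib]
  congr 1
  refine Finset.sum_congr rfl fun i _ => ?_
  rw [← Finset.sum_sub_distrib]
  refine Finset.sum_congr rfl fun j _ => ?_
  split_ifs <;> simp

theorem EnS_smul (c : ℝ) (Φ : ℝ → ℝ) {ι : Type} [DecidableEq ι] (s : Finset ι) (x : ι → Pt) :
    EnS (fun r => c * Φ r) s x = c * EnS Φ s x := by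
  unfold EnS
  rw [← mul_div_assoc, Finset.mul_sum]
  congr 1
  refine Finset.sum_congr rfl fun i _ => ?_
  rw [Finset.mul_sum]
  refine Finset.sum_congr rfl fun j _ => ?_
  split_ifs <;> simp

theorem EnS_mono {Φ Ψ : ℝ → ℝ} (h : ∀ r, 0 ≤ r → Φ r ≤ Ψ r) {ι : Type} [DecidableEq ι] (s : Finset ι)
    (x : ι → Pt) : EnS Φ s x ≤ EnS Ψ s x := by
  unfold EnS
  refine div_le_div_of_nonneg_right (Finset.sum_le_sum fun i _ => Finset.sum_le_sum fun j _ => ?_) (by norm_num)
  split_ifs
  · exact le_rfl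
  · exact h _ dist_nonneg

/-- the energy splits into the energies of the fibres of a labelling and the cross terms -/
theorem En_split (Φ : ℝ → ℝ) {N : ℕ} {C : Type} [Fintype C] [DecidableEq C] (f : Fin N → C)
    (x : Fin N → Pt) :
    En Φ x = ∑ c, EnS Φ (fib f c) x +
      (∑ i, ∑ j, if f i = f j then 0 else Φ (dist (x i) (x j))) / 2 := by
  unfold En EnS
  rw [← Finset.sum_div, ← add_div]
  congr 1
  have h1 : ∑ c, ∑ i ∈ fib f c, ∑ j ∈ fib f c, (if i = j then 0 else Φ (dist (x i) (x j))) =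
      ∑ i, ∑ j, if f i = f j then (if i = j then 0 else Φ (dist (x i) (x j))) else 0 := by
    rw [← Finset.sum_fiberwise (s := Finset.univ) (g := f)]
    refine Finset.sum_congr rfl fun c _ => Finset.sum_congr rfl fun i hi => ?_
    have hi' : f i = c := (Finset.mem_filter.1 hi).2
    rw [fib, Finset.sum_filter]
    refine Finset.sum_congr rfl fun j _ => ?_
    simp only [hi', eq_comm]
  rw [h1, ← Finset.sum_add_distrib]
  refine Finset.sum_congr rfl fun i _ => ?_
  rw [← Finset.sum_add_distrib]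
  refine Finset.sum_congr rfl fun j _ => ?_
  by_cases h : f i = f j
  · simp [h]
  · have : i ≠ j := fun e => h (e ▸ rfl)
    simp [h, this]

theorem En_comp_perm (Φ : ℝ → ℝ) {n : ℕ} (x : Fin n → Pt) (e : Equiv.Perm (Fin n)) :
    En Φ (x ∘ e) = En Φ x := by
  unfold En EnS
  congr 1
  rw [← Equiv.sum_comp e (fun i => ∑ j, if i = j then 0 else Φ (dist (x i) (x j)))]
  refine Finset.sum_congr rfl fun i _ => ?_
  rw [← Equiv.sum_comp e (fun j => if e i = j then 0 else Φ (dist (x (e i)) (x j)))]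
  simp

theorem En_eq_energy (Φ : ℝ → ℝ) {n : ℕ} (x : Fin n → Pt) : En Φ x = energy Φ x := by
  have h1 : energy Φ x = ∑ i, ∑ j, if i < j then Φ (dist (x i) (x j)) else 0 := by
    unfold energy
    rw [← Finset.sum_product', Finset.univ_product_univ, ← Finset.sum_filter]
    exact (Finset.sum_subtype (p := fun p : Fin n × Fin n => p.1 < p.2) _ (by simp)
      (fun p : Fin n × Fin n => Φ (dist (x p.1) (x p.2)))).symm
  have h2 : (∑ i, ∑ j, if i < j then Φ (dist (x i) (x j)) else 0) =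
      ∑ i, ∑ j, if j < i then Φ (dist (x i) (x j)) else 0 := by
    rw [Finset.sum_comm]
    simp only [dist_comm]
  unfold En EnS
  rw [div_eq_iff (by norm_num), mul_two]
  nth_rewrite 1 [h1]
  rw [h1, h2]
  nth_rewrite 1 [← h2]
  rw [← Finset.sum_add_distrib]
  refine Finset.sum_congr rfl fun i _ => ?_
  rw [← Finset.sum_add_distrib]
  refine Finset.sum_congr rfl fun j _ => ?_
  rcases lt_trichotomy i j with h | h | h
  · simp [h, h.ne, h.le]
  · simp [h]
  · simp [h, h.ne', h.le]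

theorem partitionFn_eq (φ : ℝ → ℝ) (L : ℝ) (N : ℕ) (β : ℝ) :
    partitionFn φ L N β = zz (fun r => β * φ r) (cube L) N := by
  unfold partitionFn zz
  rw [← Measure.restrict_pi_pi, ← volume_pi, one_div, inv_mul_eq_div]
  congr 2
  ext x
  rw [← En_eq_energy, En, En, EnS_smul]
  ring_nf

theorem measurable_EnS {Φ : ℝ → ℝ} (h : Measurable Φ) {ι : Type} [DecidableEq ι] (s : Finset ι) :
    Measurable (fun x : ι → Pt => EnS Φ s x) := by
  unfold EnS
  refine Measurable.div_const (Finset.measurable_sum _ fun i _ => Finset.measurable_sum _ fun j _ => ?_) _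
  split_ifs
  · exact measurable_const
  · exact h.comp (by fun_prop)

theorem Stab.integrable {Φ : ℝ → ℝ} (h : Stab Φ) {n : ℕ} (A : Fin n → Set Pt)
    (hA : ∀ i, volume (A i) ≠ ⊤) :
    Integrable (fun x : Fin n → Pt => Real.exp (-En Φ x)) (Measure.pi fun i => volume.restrict (A i)) := by
  obtain ⟨B, hB⟩ := h.stable
  haveI : ∀ i, IsFiniteMeasure (volume.restrict (A i)) := fun i => isFiniteMeasure_restrict.2 (hA i)
  refine Integrable.of_bound (C := Real.exp (B * n)) ?_ (Eventually.of_forall fun x => ?_)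
  · exact (Real.measurable_exp.comp (measurable_EnS h.meas _).neg).aestronglyMeasurable
  · rw [Real.norm_eq_abs, abs_of_pos (Real.exp_pos _)]
    exact Real.exp_le_exp.2 (by linarith [hB n x])

theorem ae_mem_pi {ι : Type} [Fintype ι] (A : ι → Set Pt) (hA : ∀ i, MeasurableSet (A i)) :
    ∀ᵐ x ∂(Measure.pi fun i => volume.restrict (A i)), ∀ i, x i ∈ A i := by
  rw [ae_all_iff]
  intro i
  exact Measure.tendsto_eval_ae_ae (μ := fun i => volume.restrict (A i)) (i := i) (ae_restrict_mem (hA i))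

theorem zz_nonneg (Φ : ℝ → ℝ) (A : Set Pt) (n : ℕ) : 0 ≤ zz Φ A n := by
  unfold zz
  exact div_nonneg (integral_nonneg fun x => (Real.exp_pos _).le) (Nat.cast_nonneg _)

theorem zz_zero (Φ : ℝ → ℝ) (A : Set Pt) : zz Φ A 0 = 1 := by
  unfold zz
  simp [En, EnS, Measure.real]

theorem zz_pos {Φ : ℝ → ℝ} (h : Stab Φ) {A : Set Pt} (h0 : volume A ≠ 0) (hA : volume A ≠ ⊤) (n : ℕ) :
    0 < zz Φ A n := by
  unfold zz
  haveI : NeZero (Measure.pi fun _ : Fin n => volume.restrict A) := ⟨by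
    intro h
    have := congrArg (fun μ : Measure (Fin n → Pt) => μ univ) h
    simp only [Measure.pi_univ, Measure.restrict_apply_univ, Measure.coe_zero, Pi.zero_apply] at this
    exact (Finset.prod_ne_zero_iff.2 fun _ _ => h0) this⟩
  exact div_pos (integral_exp_pos (h.integrable _ fun _ => hA)) (by positivity)

theorem zz_cube_pos {Φ : ℝ → ℝ} (h : Stab Φ) {L : ℝ} (hL : 0 < L) (n : ℕ) : 0 < zz Φ (cube L) n := by
  refine zz_pos h ?_ ?_ n
  · rw [volume_cube hL.le]; simp; positivity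
  · rw [volume_cube hL.le]; simp

theorem zz_mono_set {Φ : ℝ → ℝ} (h : Stab Φ) {A B : Set Pt} (hAB : A ⊆ B) (hB : volume B ≠ ⊤) (n : ℕ) :
    zz Φ A n ≤ zz Φ B n := by
  unfold zz
  refine div_le_div_of_nonneg_right ?_ (Nat.cast_nonneg _)
  refine integral_mono_measure ?_ (Eventually.of_forall fun x => (Real.exp_pos _).le) (h.integrable _ fun _ => hB)
  rw [← Measure.restrict_pi_pi, ← Measure.restrict_pi_pi]
  exact Measure.restrict_mono (Set.pi_mono fun _ _ => hAB) le_rfl

theorem zz_cubeAt (Φ : ℝ → ℝ) (v : Fin 3 → ℝ) (L : ℝ) (n : ℕ) :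
    zz Φ (cubeAt v L) n = zz Φ (cube L) n := by
  unfold zz
  congr 1
  set w : Pt := WithLp.toLp 2 v with hw
  have h1 : MeasurePreserving (MeasurableEquiv.addRight w) (volume.restrict (cube L))
      (volume.restrict (cubeAt v L)) := by
    have := (measurePreserving_add_right (volume : Measure Pt) w).restrict_preimage (measurableSet_cubeAt v L)
    have e : (fun x : Pt => x + w) ⁻¹' cubeAt v L = cube L := by
      ext x
      simp only [cube, cubeAt, mem_setOf_eq, mem_preimage, hw, PiLp.add_apply]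
      refine forall_congr' fun k => ?_
      constructor <;> rintro ⟨h1, h2⟩ <;> constructor <;> linarith
    rw [e] at this
    exact this
  have h2 := measurePreserving_arrowCongr' (fun _ : Fin n => volume.restrict (cube L))
    (fun _ : Fin n => volume.restrict (cubeAt v L)) (Equiv.refl _) (MeasurableEquiv.addRight w) (fun _ => h1)
  rw [← h2.integral_comp']
  congr 1
  ext x
  simp [En, EnS, MeasurableEquiv.arrowCongr', Equiv.arrowCongr', Equiv.arrowCongr]

/-- comparison of two potentials -/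
theorem aa_le_of_En {Φ Ψ : ℝ → ℝ} (hΦ : Stab Φ) (hΨ : Stab Ψ) {L : ℝ} (hL : 0 < L) (n : ℕ) (K : ℝ)
    (h : ∀ x : Fin n → Pt, (∀ i, x i ∈ cube L) → En Ψ x ≤ En Φ x + K) :
    aa Φ L n ≤ aa Ψ L n + K := by
  have hf : volume (cube L) ≠ ⊤ := by rw [volume_cube hL.le]; simp
  have h1 : zz Φ (cube L) n ≤ zz Ψ (cube L) n * Real.exp K := by
    unfold zz
    rw [div_mul_eq_mul_div, ← integral_mul_const]
    refine div_le_div_of_nonneg_right ?_ (Nat.cast_nonneg _)
    refine integral_mono_ae (hΦ.integrable _ fun _ => hf) ((hΨ.integrable _ fun _ => hf).mul_const _) ?_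
    filter_upwards [ae_mem_pi (fun _ : Fin n => cube L) fun _ => measurableSet_cube L] with x hx
    rw [← Real.exp_add]
    exact Real.exp_le_exp.2 (by linarith [h x hx])
  unfold aa
  calc Real.log (zz Φ (cube L) n) ≤ Real.log (zz Ψ (cube L) n * Real.exp K) :=
        Real.log_le_log (zz_cube_pos hΦ hL n) h1
    _ = _ := by rw [Real.log_mul (zz_cube_pos hΨ hL n).ne' (Real.exp_pos _).ne', Real.log_exp]

/-- crude upper bound -/
theorem aa_le_crude {Φ : ℝ → ℝ} (hΦ : Stab Φ) {L : ℝ} (hL : 0 < L) (n : ℕ) (K : ℝ)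
    (h : ∀ x : Fin n → Pt, (∀ i, x i ∈ cube L) → -K ≤ En Φ x) :
    aa Φ L n ≤ L ^ 3 + K := by
  have h0 : Stab (fun _ => 0) := ⟨measurable_const, 0, fun n x => by simp [En, EnS]⟩
  have h1 := aa_le_of_En hΦ h0 hL n K fun x hx => by
    have := h x hx
    simp only [En, EnS, ite_self, Finset.sum_const_zero, zero_div] at this ⊢
    linarith
  have h2 : aa (fun _ => 0) L n ≤ L ^ 3 := by
    unfold aa
    rw [Real.log_le_iff_le_exp (zz_cube_pos h0 hL n)]
    have : zz (fun _ => 0) (cube L) n = (L ^ 3) ^ n / n.factorial := by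
      unfold zz
      have hL3 : 0 ≤ L ^ 3 := by positivity
      simp [En, EnS, Measure.real, Measure.pi_univ, volume_cube hL.le, ENNReal.toReal_ofReal hL3]
    rw [this]
    exact Real.pow_div_factorial_le_exp _ (by positivity) n
  linarith

theorem Stab.combo {Φ Ψ : ℝ → ℝ} (hΦ : Stab Φ) (hΨ : Stab Ψ) {a b : ℝ} (ha : 0 ≤ a) (hb : 0 ≤ b) :
    Stab (fun r => a * Φ r + b * Ψ r) := by
  obtain ⟨B, hB⟩ := hΦ.stable
  obtain ⟨B', hB'⟩ := hΨ.stable
  refine ⟨(hΦ.meas.const_mul a).add (hΨ.meas.const_mul b), a * B + b * B', fun n x => ?_⟩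
  have h1 := mul_le_mul_of_nonneg_left (hB n x) ha
  have h2 := mul_le_mul_of_nonneg_left (hB' n x) hb
  unfold En at *
  rw [EnS_add (fun r => a * Φ r) (fun r => b * Ψ r), EnS_smul, EnS_smul]
  linarith

/-- Hölder interpolation -/
theorem aa_holder {Φ Ψ : ℝ → ℝ} (hΦ : Stab Φ) (hΨ : Stab Ψ) {L : ℝ} (hL : 0 < L) (n : ℕ) {θ : ℝ}
    (h0 : 0 ≤ θ) (h1 : θ ≤ 1) :
    aa (fun r => (1 - θ) * Φ r + θ * Ψ r) L n ≤ (1 - θ) * aa Φ L n + θ * aa Ψ L n := by
  have hf : volume (cube L) ≠ ⊤ := by rw [volume_cube hL.le]; simp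
  have hc := hΦ.combo hΨ (sub_nonneg.2 h1) h0
  have p1 := zz_cube_pos hΦ hL n
  have p2 := zz_cube_pos hΨ hL n
  have key : zz (fun r => (1 - θ) * Φ r + θ * Ψ r) (cube L) n ≤
      Real.exp ((1 - θ) * aa Φ L n + θ * aa Ψ L n) := by
    set E := Real.exp ((1 - θ) * aa Φ L n + θ * aa Ψ L n) with hE
    have i1 := hΦ.integrable (fun _ : Fin n => cube L) fun _ => hf
    have i2 := hΨ.integrable (fun _ : Fin n => cube L) fun _ => hf
    have h3 : zz (fun r => (1 - θ) * Φ r + θ * Ψ r) (cube L) n ≤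
        E * (1 - θ) / zz Φ (cube L) n * zz Φ (cube L) n + E * θ / zz Ψ (cube L) n * zz Ψ (cube L) n := by
      set c1 := E * (1 - θ) / zz Φ (cube L) n with hc1
      set c2 := E * θ / zz Ψ (cube L) n with hc2
      unfold zz
      rw [← mul_div_assoc, ← mul_div_assoc, ← add_div, ← integral_const_mul, ← integral_const_mul,
        ← integral_add (i1.const_mul _) (i2.const_mul _)]
      refine div_le_div_of_nonneg_right ?_ (Nat.cast_nonneg _)
      refine integral_mono (hc.integrable _ fun _ => hf) ((i1.const_mul _).add (i2.const_mul _)) fun x => ?_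
      have e1 : En (fun r => (1 - θ) * Φ r + θ * Ψ r) x = (1 - θ) * En Φ x + θ * En Ψ x := by
        unfold En
        rw [EnS_add (fun r => (1 - θ) * Φ r) (fun r => θ * Ψ r), EnS_smul, EnS_smul]
      have h4 := convexOn_exp.2 (mem_univ (-En Φ x - aa Φ L n)) (mem_univ (-En Ψ x - aa Ψ L n))
        (sub_nonneg.2 h1) h0 (by ring)
      simp only [smul_eq_mul] at h4
      have e2 : Real.exp (-En Φ x - aa Φ L n) = Real.exp (-En Φ x) / zz Φ (cube L) n := by
        rw [Real.exp_sub, aa, Real.exp_log p1]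
      have e3 : Real.exp (-En Ψ x - aa Ψ L n) = Real.exp (-En Ψ x) / zz Ψ (cube L) n := by
        rw [Real.exp_sub, aa, Real.exp_log p2]
      rw [e2, e3] at h4
      have e4 : Real.exp (-En (fun r => (1 - θ) * Φ r + θ * Ψ r) x) =
          E * Real.exp ((1 - θ) * (-En Φ x - aa Φ L n) + θ * (-En Ψ x - aa Ψ L n)) := by
        rw [hE, ← Real.exp_add, e1]; congr 1; ring
      simp only
      rw [e4]
      refine (mul_le_mul_of_nonneg_left h4 (Real.exp_pos _).le).trans (le_of_eq ?_)
      rw [hc1, hc2]; ring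
    rw [div_mul_cancel₀ _ p1.ne', div_mul_cancel₀ _ p2.ne'] at h3
    linarith
  exact (Real.log_le_iff_le_exp (zz_cube_pos hc hL n)).2 key

/-- lower bound from a product set -/
theorem zz_ge_prod {Φ : ℝ → ℝ} (hΦ : Stab Φ) {A : Set Pt} (hA : volume A ≠ ⊤) {n : ℕ}
    (B : Fin n → Set Pt) (hB : ∀ i, MeasurableSet (B i)) (hBA : ∀ i, B i ⊆ A) (E : ℝ)
    (h : ∀ x : Fin n → Pt, (∀ i, x i ∈ B i) → En Φ x ≤ E) :
    Real.exp (-E) * (∏ i, (volume (B i)).toReal) / n.factorial ≤ zz Φ A n := by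
  have hBf : ∀ i, volume (B i) ≠ ⊤ := fun i => ne_top_of_le_ne_top hA (measure_mono (hBA i))
  haveI : ∀ i, IsFiniteMeasure (volume.restrict (B i)) := fun i => isFiniteMeasure_restrict.2 (hBf i)
  unfold zz
  refine div_le_div_of_nonneg_right ?_ (Nat.cast_nonneg _)
  have h1 : Real.exp (-E) * ∏ i, (volume (B i)).toReal =
      ∫ _x : Fin n → Pt, Real.exp (-E) ∂(Measure.pi fun i => volume.restrict (B i)) := by
    simp [Measure.real, Measure.pi_univ, ENNReal.toReal_prod, mul_comm]
  rw [h1]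
  refine le_trans (integral_mono_ae (integrable_const _) (hΦ.integrable B hBf) ?_) ?_
  · filter_upwards [ae_mem_pi B hB] with x hx
    exact Real.exp_le_exp.2 (by linarith [h x hx])
  · refine integral_mono_measure ?_ (Eventually.of_forall fun x => (Real.exp_pos _).le)
      (hΦ.integrable _ fun _ => hA)
    rw [← Measure.restrict_pi_pi, ← Measure.restrict_pi_pi]
    exact Measure.restrict_mono (Set.pi_mono fun i _ => hBA i) le_rfl

/-- all particles in the same one of several disjoint subsets -/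
theorem zz_ge_sum {Φ : ℝ → ℝ} (hΦ : Stab Φ) {A : Set Pt} (hA : volume A ≠ ⊤) {C : Type} [Fintype C]
    (Ac : C → Set Pt) (hm : ∀ c, MeasurableSet (Ac c)) (hsub : ∀ c, Ac c ⊆ A)
    (hdisj : ∀ c c', c ≠ c' → Disjoint (Ac c) (Ac c')) {n : ℕ} (hn : 1 ≤ n) :
    ∑ c, zz Φ (Ac c) n ≤ zz Φ A n := by
  unfold zz
  rw [← Finset.sum_div]
  refine div_le_div_of_nonneg_right ?_ (Nat.cast_nonneg _)
  have hf : ∀ c, volume (Ac c) ≠ ⊤ := fun c => ne_top_of_le_ne_top hA (measure_mono (hsub c))
  have hi : ∀ c, IntegrableOn (fun x : Fin n → Pt => Real.exp (-En Φ x)) (Set.pi univ fun _ => Ac c)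
      (Measure.pi fun _ => volume) := fun c => by
    unfold IntegrableOn; rw [Measure.restrict_pi_pi]; exact hΦ.integrable _ fun _ => hf c
  have hiA : IntegrableOn (fun x : Fin n → Pt => Real.exp (-En Φ x)) (Set.pi univ fun _ => A)
      (Measure.pi fun _ => volume) := by
    unfold IntegrableOn; rw [Measure.restrict_pi_pi]; exact hΦ.integrable _ fun _ => hA
  simp only [← Measure.restrict_pi_pi]
  rw [← integral_biUnion_finset Finset.univ (fun c _ => MeasurableSet.univ_pi fun _ => hm c) ?_ fun c _ => hi c]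
  · refine setIntegral_mono_set hiA (Eventually.of_forall fun x => (Real.exp_pos _).le)
      (HasSubset.Subset.eventuallyLE ?_)
    intro x hx
    simp only [mem_iUnion] at hx
    obtain ⟨c, -, hc⟩ := hx
    exact fun i hi => hsub c (hc i hi)
  · intro c _ c' _ hcc
    refine Set.disjoint_left.2 fun x hx hx' => ?_
    exact Set.disjoint_left.1 (hdisj c c' hcc) (hx ⟨0, hn⟩ trivial) (hx' ⟨0, hn⟩ trivial)

end Crest.Agent.R149
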