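import Crest.Agent.R149.LP

/-!
# Row 149: the hierarchy of scales and the long-range attraction
-/

set_option autoImplicit false

open MeasureTheory Filter Topology Set
open Crest.ProbabilityR.Continuum

namespace Crest.Agent.R149

def nn : ℕ → ℕ
  | 0 => 10 ^ 23
  | j + 1 => nn j ^ 2

noncomputable def TT : ℕ → ℝ
  | 0 => 1
  | j + 1 => 1 / nn j

noncomputable def RR (l : ℝ) (j : ℕ) : ℝ := l * (nn (j + 1) : ℝ) ^ 4

noncomputable def cc (j : ℕ) : ℝ := TT j - TT (j + 1)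

noncomputable def Wk (l : ℝ) (k : ℕ) (r : ℝ) : ℝ := ∑ j ∈ Finset.range k, cc j * JJ (RR l j) r

noncomputable def WI (l : ℝ) (r : ℝ) : ℝ := ∑' j, cc j * JJ (RR l j) r

theorem nn_ge (j : ℕ) : 10 ^ 23 * 8 ^ j ≤ nn j := by
  induction j with
  | zero => simp [nn]
  | succ j ih =>
    have h1 : 1 ≤ 8 ^ j := Nat.one_le_pow _ _ (by norm_num)
    have h2 : 8 ≤ nn j := by omega
    rw [nn, pow_succ 8 j, sq]
    calc 10 ^ 23 * (8 ^ j * 8) = 10 ^ 23 * 8 ^ j * 8 := by ring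
      _ ≤ nn j * nn j := Nat.mul_le_mul ih h2

theorem nn_ge' (j : ℕ) : (10 : ℝ) ^ 23 * 8 ^ j ≤ nn j := by exact_mod_cast nn_ge j

theorem nn_ge'' (j : ℕ) : (10 : ℝ) ^ 23 ≤ nn j := by
  have h1 : (1 : ℝ) ≤ 8 ^ j := one_le_pow₀ (by norm_num)
  have := nn_ge' j
  nlinarith

theorem nn_pos (j : ℕ) : (0 : ℝ) < nn j := lt_of_lt_of_le (by norm_num) (nn_ge'' j)

theorem nn_succ (j : ℕ) : (nn (j + 1) : ℝ) = (nn j : ℝ) ^ 2 := by simp [nn]

theorem nn_mono : Monotone fun j => (nn j : ℝ) := by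
  refine monotone_nat_of_le_succ fun j => ?_
  rw [nn_succ]
  nlinarith [nn_ge'' j]

theorem TT_pos (j : ℕ) : 0 < TT j := by
  cases j with
  | zero => simp [TT]
  | succ j => exact one_div_pos.2 (nn_pos j)

theorem TT_anti (j : ℕ) : TT (j + 1) ≤ TT j := by
  cases j with
  | zero => simp only [TT]; rw [div_le_one (nn_pos 0)]; linarith [nn_ge'' 0]
  | succ j => exact one_div_le_one_div_of_le (nn_pos j) (nn_mono (Nat.le_succ j))

theorem TT_le (j : ℕ) : TT j ≤ 8 * (1 / 8) ^ j := by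
  cases j with
  | zero => simp [TT]
  | succ j =>
    have h1 := nn_ge' j
    have h2 : (0 : ℝ) < 8 ^ j := by positivity
    have : TT (j + 1) ≤ 1 / 8 ^ j := one_div_le_one_div_of_le h2 (by nlinarith)
    refine this.trans (le_of_eq ?_)
    rw [pow_succ, one_div_pow]; ring

theorem TT_le_one (j : ℕ) : TT j ≤ 1 := by
  induction j with
  | zero => simp [TT]
  | succ j ih => exact (TT_anti j).trans ih

theorem TT_lim : Tendsto TT atTop (𝓝 0) := by
  have : Tendsto (fun j : ℕ => 8 * (1 / 8 : ℝ) ^ j) atTop (𝓝 (8 * 0)) :=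
    (tendsto_pow_atTop_nhds_zero_of_lt_one (by norm_num) (by norm_num)).const_mul 8
  rw [mul_zero] at this
  exact squeeze_zero (fun j => (TT_pos j).le) TT_le this

theorem cc_nonneg (j : ℕ) : 0 ≤ cc j := sub_nonneg.2 (TT_anti j)

theorem cc_le (j : ℕ) : cc j ≤ TT j := by unfold cc; linarith [TT_pos (j + 1)]

theorem cc_zero_pos : 0 < cc 0 := by
  simp only [cc, TT]
  rw [sub_pos, div_lt_one (nn_pos 0)]; linarith [nn_ge'' 0]

theorem sum_cc (k : ℕ) : ∑ j ∈ Finset.range k, cc j = 1 - TT k := by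
  induction k with
  | zero => simp [TT]
  | succ k ih => rw [Finset.sum_range_succ, ih, cc]; ring

variable {l : ℝ}

theorem le_RR (hl : 1 ≤ l) (j : ℕ) : l ≤ RR l j := by
  have : (1 : ℝ) ≤ (nn (j + 1) : ℝ) ^ 4 := one_le_pow₀ (by linarith [nn_ge'' (j + 1)])
  unfold RR; nlinarith

theorem RR_pos (hl : 1 ≤ l) (j : ℕ) : 0 < RR l j := by linarith [le_RR hl j]

theorem term_nonneg (hl : 1 ≤ l) (j : ℕ) (r : ℝ) : 0 ≤ cc j * JJ (RR l j) r :=
  mul_nonneg (cc_nonneg j) (JJ_pos (RR_pos hl j) r).le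

theorem term_le (hl : 1 ≤ l) (j : ℕ) (r : ℝ) : cc j * JJ (RR l j) r ≤ 8 * (1 / 8) ^ j := by
  have h1 := JJ_le (RR_pos hl j) r
  have h2 : 1 / RR l j ^ 3 ≤ 1 := by
    rw [div_le_one (pow_pos (RR_pos hl j) 3)]
    exact one_le_pow₀ (hl.trans (le_RR hl j))
  have h3 := mul_le_mul_of_nonneg_left (h1.trans h2) (cc_nonneg j)
  linarith [cc_le j, TT_le j]

theorem summable_geom8 : Summable fun j : ℕ => 8 * (1 / 8 : ℝ) ^ j :=
  (summable_geometric_of_lt_one (by norm_num) (by norm_num)).mul_left 8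

theorem summable_term (hl : 1 ≤ l) (r : ℝ) : Summable fun j => cc j * JJ (RR l j) r :=
  Summable.of_nonneg_of_le (fun j => term_nonneg hl j r) (fun j => term_le hl j r) summable_geom8

theorem continuous_Wk (l : ℝ) (k : ℕ) : Continuous (Wk l k) :=
  continuous_finset_sum _ fun j _ => continuous_const.mul (continuous_JJ _)

theorem continuous_WI (hl : 1 ≤ l) : Continuous (WI l) :=
  continuous_tsum (fun j => continuous_const.mul (continuous_JJ _)) summable_geom8 fun j r => by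
    rw [Real.norm_eq_abs, abs_of_nonneg (term_nonneg hl j r)]; exact term_le hl j r

theorem Wk_nonneg (hl : 1 ≤ l) (k : ℕ) (r : ℝ) : 0 ≤ Wk l k r :=
  Finset.sum_nonneg fun j _ => term_nonneg hl j r

theorem Wk_le_WI (hl : 1 ≤ l) (k : ℕ) (r : ℝ) : Wk l k r ≤ WI l r :=
  (summable_term hl r).sum_le_tsum _ fun j _ => term_nonneg hl j r

theorem WI_nonneg (hl : 1 ≤ l) (r : ℝ) : 0 ≤ WI l r := (Wk_nonneg hl 0 r).trans (Wk_le_WI hl 0 r)

theorem WI_le (hl : 1 ≤ l) (r : ℝ) : WI l r ≤ ∑' j : ℕ, 8 * (1 / 8 : ℝ) ^ j :=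
  (summable_term hl r).tsum_le_tsum (fun j => term_le hl j r) summable_geom8

theorem tendsto_Wk (hl : 1 ≤ l) (r : ℝ) : Tendsto (fun k => Wk l k r) atTop (𝓝 (WI l r)) :=
  (summable_term hl r).hasSum.tendsto_sum_nat

theorem WI_decay (hl : 1 ≤ l) : ∃ C : ℝ, ∀ r : ℝ, 0 < r → WI l r ≤ C * r ^ (-(3 + 1 / 32 : ℝ)) := by
  have hs : Summable fun j => cc j * RR l j ^ (1 / 32 : ℝ) := by
    rw [← summable_nat_add_iff 1]
    refine Summable.of_nonneg_of_le (fun j => mul_nonneg (cc_nonneg _) (Real.rpow_nonneg (RR_pos hl _).le _))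
      (fun j => ?_) ((summable_geometric_of_lt_one (r := 1 / 2) (by norm_num) (by norm_num)).mul_left
        (l ^ (1 / 32 : ℝ)))
    have h0 := nn_pos j
    have h1 : RR l (j + 1) ^ (1 / 32 : ℝ) = l ^ (1 / 32 : ℝ) * √(nn j) := by
      unfold RR
      rw [nn_succ, nn_succ, Real.mul_rpow (by linarith) (by positivity), ← pow_mul, ← pow_mul,
        ← Real.rpow_natCast, ← Real.rpow_mul h0.le, Real.sqrt_eq_rpow]
      norm_num
    have h2 : cc (j + 1) ≤ 1 / nn j := cc_le (j + 1)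
    have h3 : (2 : ℝ) ^ j ≤ √(nn j) := by
      refine Real.le_sqrt_of_sq_le ?_
      have h4 := nn_ge' j
      have h5 : ((2 : ℝ) ^ j) ^ 2 ≤ 8 ^ j := by
        rw [← pow_mul, mul_comm, pow_mul]
        exact pow_le_pow_left₀ (by norm_num) (by norm_num) j
      have h6 : (0 : ℝ) < 8 ^ j := by positivity
      nlinarith
    have h4 : 1 / (nn j : ℝ) * √(nn j) ≤ (1 / 2) ^ j := by
      have e : 1 / (nn j : ℝ) * √(nn j) = 1 / √(nn j) := by
        have := Real.sqrt_pos.2 h0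
        field_simp
        rw [Real.sq_sqrt h0.le]
      rw [e, one_div_pow]
      exact one_div_le_one_div_of_le (by positivity) h3
    rw [h1]
    have h5 : 0 ≤ l ^ (1 / 32 : ℝ) := Real.rpow_nonneg (by linarith) _
    calc cc (j + 1) * (l ^ (1 / 32 : ℝ) * √(nn j)) ≤ 1 / nn j * (l ^ (1 / 32 : ℝ) * √(nn j)) :=
          mul_le_mul_of_nonneg_right h2 (by positivity)
      _ = l ^ (1 / 32 : ℝ) * (1 / nn j * √(nn j)) := by ring
      _ ≤ _ := mul_le_mul_of_nonneg_left h4 h5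
  refine ⟨∑' j, cc j * RR l j ^ (1 / 32 : ℝ), fun r hr => ?_⟩
  rw [← tsum_mul_right]
  refine (summable_term hl r).tsum_le_tsum (fun j => ?_) (hs.mul_right _)
  rw [mul_assoc]
  exact mul_le_mul_of_nonneg_left (JJ_decay (RR_pos hl j) hr) (cc_nonneg j)

theorem WI_ge (hl : 1 ≤ l) : ∃ a : ℝ, 0 < a ∧ ∀ r, 0 ≤ r → r ≤ 3 → a ≤ WI l r := by
  refine ⟨cc 0 * JJ (RR l 0) 3, mul_pos cc_zero_pos (JJ_pos (RR_pos hl 0) _), fun r h0 h3 => ?_⟩
  refine le_trans ?_ (Wk_le_WI hl 1 r)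
  simp only [Wk, Finset.sum_range_one]
  exact mul_le_mul_of_nonneg_left (JJ_anti (RR_pos hl 0) h0 h3) (cc_nonneg 0)

/-- normalised count of pairs in the same small cell -/
noncomputable def QL (l : ℝ) {n : ℕ} (x : Fin n → Pt) : ℝ := QQ (fun i => lab l (x i)) / l ^ 3

theorem QL_nonneg (hl : 1 ≤ l) {n : ℕ} (x : Fin n → Pt) : 0 ≤ QL l x :=
  div_nonneg (QQ_nonneg _) (by have : 0 < l := by linarith
                               positivity)

theorem sum_JJ_RR (hl : 1 ≤ l) (j : ℕ) {n : ℕ} (x : Fin n → Pt) :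
    ∑ i, ∑ i', JJ (RR l j) (dist (x i) (x i')) ≤ 10 / 9 * QL l x := by
  have hl0 : 0 < l := by linarith
  have h1 := GC (RR_pos hl j) hl0 x (fun i => lab l (x i)) (fun i => mem_cell_lab hl0 (x i))
  refine h1.trans ?_
  rw [div_mul_eq_mul_div, mul_div_assoc]
  refine mul_le_mul_of_nonneg_right ?_ (QL_nonneg hl x)
  have h2 : 2 * l / RR l j ≤ 1 / 100 := by
    have h3 := nn_ge'' (j + 1)
    have h4 : (nn (j + 1) : ℝ) ≤ (nn (j + 1) : ℝ) ^ 4 := le_self_pow₀ (by linarith) (by norm_num)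
    rw [div_le_iff₀ (RR_pos hl j)]
    unfold RR
    nlinarith
  have h3 : 0 ≤ 2 * l / RR l j := by have := RR_pos hl j; positivity
  calc (1 + 2 * l / RR l j) ^ 3 ≤ (1 + 1 / 100) ^ 3 := pow_le_pow_left₀ (by linarith) (by linarith) 3
    _ ≤ 10 / 9 := by norm_num

theorem sum_Wk_sub (hl : 1 ≤ l) {k m : ℕ} (hkm : k ≤ m) {n : ℕ} (x : Fin n → Pt) :
    ∑ i, ∑ i', (Wk l m (dist (x i) (x i')) - Wk l k (dist (x i) (x i'))) ≤ (TT k - TT m) * (10 / 9 * QL l x) := by
  induction m, hkm using Nat.le_induction with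
  | base => simp
  | succ m hkm ih =>
    have h1 := mul_le_mul_of_nonneg_left (sum_JJ_RR hl m x) (cc_nonneg m)
    have e : ∑ i, ∑ i', (Wk l (m + 1) (dist (x i) (x i')) - Wk l k (dist (x i) (x i'))) =
        ∑ i, ∑ i', (Wk l m (dist (x i) (x i')) - Wk l k (dist (x i) (x i'))) +
          cc m * ∑ i, ∑ i', JJ (RR l m) (dist (x i) (x i')) := by
      simp only [Finset.mul_sum, ← Finset.sum_add_distrib]
      refine Finset.sum_congr rfl fun i _ => Finset.sum_congr rfl fun i' _ => ?_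
      rw [Wk, Finset.sum_range_succ, ← Wk]; ring
    rw [e]
    unfold cc at h1 ⊢
    linarith

theorem sum_Wk (hl : 1 ≤ l) (k : ℕ) {n : ℕ} (x : Fin n → Pt) :
    ∑ i, ∑ i', Wk l k (dist (x i) (x i')) ≤ (1 - TT k) * (10 / 9 * QL l x) := by
  simpa [Wk, TT] using sum_Wk_sub hl (Nat.zero_le k) x

theorem sum_WI_sub (hl : 1 ≤ l) (k : ℕ) {n : ℕ} (x : Fin n → Pt) :
    ∑ i, ∑ i', (WI l (dist (x i) (x i')) - Wk l k (dist (x i) (x i'))) ≤ TT k * (10 / 9 * QL l x) := by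
  have t : Tendsto (fun m => ∑ i, ∑ i', (Wk l m (dist (x i) (x i')) - Wk l k (dist (x i) (x i')))) atTop
      (𝓝 (∑ i, ∑ i', (WI l (dist (x i) (x i')) - Wk l k (dist (x i) (x i'))))) :=
    tendsto_finset_sum _ fun i _ => tendsto_finset_sum _ fun i' _ => (tendsto_Wk hl _).sub_const _
  refine le_of_tendsto t ?_
  filter_upwards [eventually_ge_atTop k] with m hm
  refine (sum_Wk_sub hl hm x).trans (mul_le_mul_of_nonneg_right (by linarith [TT_pos m]) ?_)
  have := QL_nonneg hl x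
  positivity

theorem sum_WI (hl : 1 ≤ l) {n : ℕ} (x : Fin n → Pt) :
    ∑ i, ∑ i', WI l (dist (x i) (x i')) ≤ 1 * (10 / 9 * QL l x) := by
  simpa [Wk, TT] using sum_WI_sub hl 0 x

theorem sum_weight_Wk (hl : 1 ≤ l) (k : ℕ) {n : ℕ} (x : Fin n → Pt) :
    ∑ i, ∑ i', (dist (x i) (x i') / l + 1) * Wk l k (dist (x i) (x i')) ≤
      128 * (nn (k + 1) : ℝ) ^ 2 * QL l x := by
  have hl0 : 0 < l := by linarith
  have hQ := QL_nonneg hl x
  have h1 : ∀ j ∈ Finset.range k, ∑ i, ∑ i', (dist (x i) (x i') / l + 1) * (cc j * JJ (RR l j) (dist (x i) (x i'))) ≤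
      cc j * (128 * (nn (k + 1) : ℝ) ^ 2 * QL l x) := by
    intro j hj
    have hR := RR_pos hl j
    have h2 := GC (R := 2 * RR l j) (by positivity) hl0 x (fun i => lab l (x i)) (fun i => mem_cell_lab hl0 (x i))
    have h3 : (1 + 2 * l / (2 * RR l j)) ^ 3 ≤ 8 := by
      have : 2 * l / (2 * RR l j) ≤ 1 := by
        rw [div_le_one (by positivity)]; linarith [le_RR hl j]
      calc (1 + 2 * l / (2 * RR l j)) ^ 3 ≤ (1 + 1) ^ 3 := pow_le_pow_left₀ (by positivity) (by linarith) 3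
        _ = 8 := by norm_num
    rw [div_mul_eq_mul_div, mul_div_assoc] at h2
    have h4 : ∑ i, ∑ i', JJ (2 * RR l j) (dist (x i) (x i')) ≤ 8 * QL l x :=
      h2.trans (mul_le_mul_of_nonneg_right h3 hQ)
    have h5 : RR l j / l ≤ (nn (k + 1) : ℝ) ^ 2 := by
      have e : RR l j / l = (nn (j + 1) : ℝ) ^ 4 := by unfold RR; field_simp
      rw [e, nn_succ k, ← pow_mul]
      exact pow_le_pow_left₀ (nn_pos _).le (nn_mono (Finset.mem_range.1 hj)) 4
    calc _ ≤ ∑ i, ∑ i', cc j * (16 * (RR l j / l)) * JJ (2 * RR l j) (dist (x i) (x i')) := by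
          refine Finset.sum_le_sum fun i _ => Finset.sum_le_sum fun i' _ => ?_
          have := mul_le_mul_of_nonneg_left (JJ_weight hl0 (le_RR hl j) (dist_nonneg (x := x i) (y := x i')))
            (cc_nonneg j)
          linarith
      _ = cc j * (16 * (RR l j / l) * ∑ i, ∑ i', JJ (2 * RR l j) (dist (x i) (x i'))) := by
          simp only [Finset.mul_sum, mul_assoc]
      _ ≤ _ := by
          refine mul_le_mul_of_nonneg_left ?_ (cc_nonneg j)
          calc _ ≤ 16 * (nn (k + 1) : ℝ) ^ 2 * (8 * QL l x) :=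
                mul_le_mul (by linarith) h4 (Finset.sum_nonneg fun i _ => Finset.sum_nonneg fun i' _ =>
                  (JJ_pos (by positivity) _).le) (by positivity)
            _ = _ := by ring
  have h2 := Finset.sum_le_sum h1
  rw [← Finset.sum_mul, sum_cc] at h2
  have e : ∑ i, ∑ i', (dist (x i) (x i') / l + 1) * Wk l k (dist (x i) (x i')) = ∑ j ∈ Finset.range k,
      ∑ i, ∑ i', (dist (x i) (x i') / l + 1) * (cc j * JJ (RR l j) (dist (x i) (x i'))) := by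
    simp only [Wk, Finset.mul_sum]
    rw [Finset.sum_comm (s := Finset.range k)]
    refine Finset.sum_congr rfl fun i _ => ?_
    rw [Finset.sum_comm (s := Finset.range k)]
  rw [e]
  refine h2.trans ?_
  have : 0 ≤ 128 * (nn (k + 1) : ℝ) ^ 2 * QL l x := by positivity
  nlinarith [TT_pos k]

end Crest.Agent.R149
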