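import Crest.Agent.R149.Defs

/-!
# Row 149, task R149-TLabs: abstract thermodynamic limit (pure real analysis)

Write `F ρ L = a L ⌊ρ L³⌋₊ / L³`; `F ρ L ≤ |B| ρ + 1` for `L > 0` (`bd`).
**Mixture lemma (*)**: let `L > 0`, `n₁ n₂ n₃ : ℕ`, `θ_i ≥ 0`, `∑ θ_i = 1`, `ρ (L+2)³ = ∑ θ_i n_i`.  Then for every `ε > 0`, eventually in `L'`,
`F ρ L' ≥ ∑ θ_i a L n_i / (L+2)³ - ε`.  Proof: `m = ⌊L'/(L+2)⌋₊`, `M = m³`, `N' = ⌊ρ L'³⌋₊`, small `η ∈ (0,1)`,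
`m_i = ⌊θ_i (1-η) M⌋₊`, `r = M - ∑ m_i ∈ [η M, η M + 3]` remaining cells, `N' - ∑ m_i n_i ≥ 0` remaining particles, at most
`ρ (L+2)³ ((m+1)³ - (1-η) m³) + ∑ n_i ≤ r · n_max` for large `m`, where `n_max = ⌈2ρ(L+2)³⌉₊ + 1` does not depend on `η`; so they
can be written as a list of `≤ r` numbers `≤ n_max`; `sup` for the list `replicate m₁ n₁ ++ replicate m₂ n₂ ++ replicate m₃ n₃ ++ rest`
gives `a L' N' ≥ ∑ m_i a L n_i - (η M + 3) max_{n ≤ n_max} |a L n|`, and `M / L'³ → 1/(L+2)³`.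
Consequences: `F ρ` is eventually bounded below (use (*) with `L = 1`, `n₁ = 0`, `n₂ ≥ 27ρ`), so the liminf is honest;
`a_le`: θ = (1,0,0).  `tendsto`: for large `L` mix `n₁ = ⌊ρL³⌋₊` and `n₂ = ⌊2ρL³⌋₊` (ρ > 0) with `θ₂ → 0`; as `F (2ρ) L` is bounded
below, `slim ρ ≥ F ρ L - o(1)`, i.e. limsup ≤ liminf (ρ = 0: `F = 0`).  `concave`: mix `⌊ρ₁L³⌋₊, ⌊ρ₂L³⌋₊, ⌊(ρ₁+ρ₂+1)·2 L³⌋₊` with weights
`(1-τ)θ, (1-τ)(1-θ), τ`, `τ = τ(L) → 0`, let `L → ∞`.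
-/

set_option autoImplicit false

open Filter Topology Set

namespace Crest.Agent.R149

structure SuperAdd (a : ℝ → ℕ → ℝ) : Prop where
  sup : ∀ (L L' : ℝ) (m : ℕ) (l : List ℕ), 0 < L → 0 < L' → m * (L + 2) ≤ L' → l.length ≤ m ^ 3 →
    (l.map (a L)).sum ≤ a L' l.sum
  bd : ∃ B : ℝ, ∀ (L : ℝ) (n : ℕ), 0 < L → a L n ≤ B * n + L ^ 3
  zero : ∀ L, a L 0 = 0

namespace SuperAdd

variable {a : ℝ → ℕ → ℝ}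

theorem sup5 (h : SuperAdd a) {L L' : ℝ} {m : ℕ} (hL : 0 < L) (hL' : 0 < L')
    (hm : m * (L + 2) ≤ L') (k₁ k₂ k₃ k₄ k₅ n₁ n₂ n₃ n₄ n₅ : ℕ)
    (hk : k₁ + k₂ + k₃ + k₄ + k₅ ≤ m ^ 3) :
    k₁ * a L n₁ + k₂ * a L n₂ + k₃ * a L n₃ + k₄ * a L n₄ + k₅ * a L n₅ ≤
      a L' (k₁ * n₁ + k₂ * n₂ + k₃ * n₃ + k₄ * n₄ + k₅ * n₅) := by
  have := h.sup L L' m (List.replicate k₁ n₁ ++ List.replicate k₂ n₂ ++ List.replicate k₃ n₃ ++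
    List.replicate k₄ n₄ ++ List.replicate k₅ n₅) hL hL' hm (by simpa [add_assoc] using hk)
  simpa [add_assoc] using this

theorem floor_est {θ η M x A : ℝ} (hθ : 0 ≤ θ) (hη : 0 ≤ η) (hη1 : η ≤ 1) (hM : 0 ≤ M)
    (hx : |x| ≤ A) : θ * M * x - (θ * η * M + 1) * A ≤ ⌊θ * (1 - η) * M⌋₊ * x := by
  have h0 : 0 ≤ θ * (1 - η) * M := by
    have := sub_nonneg.2 hη1
    positivity
  have h1 := Nat.floor_le h0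
  have h2 := Nat.lt_floor_add_one (θ * (1 - η) * M)
  have h3 : 0 ≤ θ * η * M := by positivity
  have h4 : |θ * M - ⌊θ * (1 - η) * M⌋₊| ≤ θ * η * M + 1 := by
    rw [abs_le]; constructor <;> nlinarith
  have h5 : |(θ * M - ⌊θ * (1 - η) * M⌋₊) * x| ≤ (θ * η * M + 1) * A := by
    rw [abs_mul]; gcongr
  have := (abs_le.1 h5).2
  nlinarith

theorem mix_core (h : SuperAdd a) {L L' : ℝ} {m : ℕ} (hL : 0 < L) (hL' : 0 < L')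
    (hm : m * (L + 2) ≤ L') (hm' : L' ≤ (m + 1) * (L + 2)) {n₁ n₂ n₃ : ℕ} {θ₁ θ₂ θ₃ ρ η A : ℝ}
    (h₁ : 0 ≤ θ₁) (h₂ : 0 ≤ θ₂) (h₃ : 0 ≤ θ₃) (hθ : θ₁ + θ₂ + θ₃ = 1) (hρ0 : 0 ≤ ρ)
    (hρ : ρ * (L + 2) ^ 3 = θ₁ * n₁ + θ₂ * n₂ + θ₃ * n₃) (hη : 0 < η) (hη1 : η ≤ 1)
    (hmη : 7 ≤ η * m) (hA : ∀ n ≤ 3 * (n₁ + n₂ + n₃) + 1, |a L n| ≤ A) :
    (m : ℝ) ^ 3 * (θ₁ * a L n₁ + θ₂ * a L n₂ + θ₃ * a L n₃ - 2 * η * A) - 6 * A ≤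
      a L' ⌊ρ * L' ^ 3⌋₊ := by
  set M : ℝ := (m : ℝ) ^ 3 with hM
  have hM0 : 0 ≤ M := by positivity
  have hη' : 0 ≤ 1 - η := sub_nonneg.2 hη1
  have f₁ := floor_est (M := M) h₁ hη.le hη1 hM0 (hA n₁ (by omega))
  have f₂ := floor_est (M := M) h₂ hη.le hη1 hM0 (hA n₂ (by omega))
  have f₃ := floor_est (M := M) h₃ hη.le hη1 hM0 (hA n₃ (by omega))
  set m₁ := ⌊θ₁ * (1 - η) * M⌋₊
  set m₂ := ⌊θ₂ * (1 - η) * M⌋₊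
  set m₃ := ⌊θ₃ * (1 - η) * M⌋₊
  have u₁ : (m₁ : ℝ) ≤ θ₁ * (1 - η) * M := Nat.floor_le (by positivity)
  have u₂ : (m₂ : ℝ) ≤ θ₂ * (1 - η) * M := Nat.floor_le (by positivity)
  have u₃ : (m₃ : ℝ) ≤ θ₃ * (1 - η) * M := Nat.floor_le (by positivity)
  have l₁ : θ₁ * (1 - η) * M < m₁ + 1 := Nat.lt_floor_add_one _
  have l₂ : θ₂ * (1 - η) * M < m₂ + 1 := Nat.lt_floor_add_one _
  have l₃ : θ₃ * (1 - η) * M < m₃ + 1 := Nat.lt_floor_add_one _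
  clear_value m₁ m₂ m₃
  have hsum : θ₁ * (1 - η) * M + θ₂ * (1 - η) * M + θ₃ * (1 - η) * M = M - η * M := by
    linear_combination (1 - η) * M * hθ
  have hm1 : (1 : ℝ) ≤ m := by
    have : η * m ≤ m := mul_le_of_le_one_left (Nat.cast_nonneg m) hη1
    linarith
  have hm2 : (m : ℝ) ≤ m ^ 2 := le_self_pow₀ hm1 two_ne_zero
  have hηM : 3 * (m : ℝ) ^ 2 + 3 * m + 1 ≤ η * M := by
    have : 7 * (m : ℝ) ^ 2 ≤ η * M := by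
      rw [hM, pow_succ' (m : ℝ) 2, ← mul_assoc]; gcongr
    linarith
  have hηM1 : 1 ≤ η * M := by linarith
  obtain ⟨r, hr⟩ : ∃ r : ℕ, m₁ + m₂ + m₃ + r = m ^ 3 := by
    refine Nat.exists_eq_add_of_le ?_ |>.imp fun r hr => hr.symm
    have : ((m₁ + m₂ + m₃ : ℕ) : ℝ) ≤ ((m ^ 3 : ℕ) : ℝ) := by push_cast; linarith
    exact_mod_cast this
  have hr' : (m₁ : ℝ) + m₂ + m₃ + r = M := by rw [hM]; exact_mod_cast hr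
  have hr1 : η * M ≤ r := by linarith
  have hr2 : (r : ℝ) ≤ η * M + 3 := by linarith
  have hr0 : 0 < r := by
    have : (0 : ℝ) < r := by linarith
    exact_mod_cast this
  set nb := θ₁ * n₁ + θ₂ * n₂ + θ₃ * n₃ with hnb
  have c₁ : (0 : ℝ) ≤ n₁ := Nat.cast_nonneg _
  have c₂ : (0 : ℝ) ≤ n₂ := Nat.cast_nonneg _
  have c₃ : (0 : ℝ) ≤ n₃ := Nat.cast_nonneg _
  have hnb0 : 0 ≤ nb := by positivity
  have hnb1 : nb ≤ n₁ + n₂ + n₃ := by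
    have e₁ : θ₁ * n₁ ≤ n₁ := mul_le_of_le_one_left c₁ (by linarith)
    have e₂ : θ₂ * n₂ ≤ n₂ := mul_le_of_le_one_left c₂ (by linarith)
    have e₃ : θ₃ * n₃ ≤ n₃ := mul_le_of_le_one_left c₃ (by linarith)
    linarith
  have hlow : M * nb ≤ ρ * L' ^ 3 := by
    rw [← hρ, hM, mul_left_comm, ← mul_pow]; gcongr
  have hupp : ρ * L' ^ 3 ≤ (m + 1) ^ 3 * nb := by
    rw [← hρ, mul_left_comm, ← mul_pow]; gcongr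
  have hs1 : (m₁ : ℝ) * n₁ + m₂ * n₂ + m₃ * n₃ ≤ (1 - η) * M * nb := by
    calc _ ≤ θ₁ * (1 - η) * M * n₁ + θ₂ * (1 - η) * M * n₂ + θ₃ * (1 - η) * M * n₃ := by gcongr
      _ = _ := by rw [hnb]; ring
  have hs2 : (1 - η) * M * nb ≤ (m₁ : ℝ) * n₁ + m₂ * n₂ + m₃ * n₃ + (n₁ + n₂ + n₃) := by
    calc _ = θ₁ * (1 - η) * M * n₁ + θ₂ * (1 - η) * M * n₂ + θ₃ * (1 - η) * M * n₃ := by
          rw [hnb]; ring
      _ ≤ (m₁ + 1) * n₁ + (m₂ + 1) * n₂ + (m₃ + 1) * n₃ := by gcongr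
      _ = _ := by ring
  obtain ⟨R, hR⟩ : ∃ R : ℕ, ⌊ρ * L' ^ 3⌋₊ = m₁ * n₁ + m₂ * n₂ + m₃ * n₃ + R := by
    refine Nat.exists_eq_add_of_le (Nat.le_floor ?_)
    push_cast
    have : 0 ≤ η * M * nb := by positivity
    linarith
  have hR1 : (R : ℝ) ≤ r * (3 * (n₁ + n₂ + n₃)) := by
    have e1 : (⌊ρ * L' ^ 3⌋₊ : ℝ) ≤ ρ * L' ^ 3 := Nat.floor_le (by positivity)
    rw [hR] at e1
    push_cast at e1
    have e2 : ((m : ℝ) + 1) ^ 3 ≤ M + η * M := by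
      have : ((m : ℝ) + 1) ^ 3 = M + (3 * (m : ℝ) ^ 2 + 3 * m + 1) := by rw [hM]; ring
      linarith
    have e3 : ((m : ℝ) + 1) ^ 3 * nb ≤ (M + η * M) * nb := by gcongr
    have e4 : (R : ℝ) ≤ 2 * (η * M) * nb + (n₁ + n₂ + n₃) := by linarith
    have e5 : 2 * (η * M) * nb ≤ 2 * r * (n₁ + n₂ + n₃) := by gcongr
    have e6 : ((n₁ : ℝ) + n₂ + n₃) ≤ r * (n₁ + n₂ + n₃) :=
      le_mul_of_one_le_left (by positivity) (by linarith)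
    linarith
  have hR2 : R / r ≤ 3 * (n₁ + n₂ + n₃) := by
    apply Nat.div_le_of_le_mul
    exact_mod_cast hR1
  obtain ⟨t', ht'⟩ : ∃ t', r = R % r + t' := Nat.exists_eq_add_of_le (Nat.mod_lt _ hr0).le
  have key := h.sup5 hL hL' hm m₁ m₂ m₃ (R % r) t' n₁ n₂ n₃ (R / r + 1) (R / r) (by omega)
  have e : m₁ * n₁ + m₂ * n₂ + m₃ * n₃ + R % r * (R / r + 1) + t' * (R / r) = ⌊ρ * L' ^ 3⌋₊ := by
    have : R % r * (R / r + 1) + t' * (R / r) = R := by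
      rw [mul_add, mul_one, add_right_comm, ← add_mul, ← ht', add_comm]
      exact Nat.mod_add_div R r
    rw [hR, add_assoc, this]
  rw [e] at key
  have f₄ := (abs_le.1 (hA (R / r + 1) (by omega))).1
  have f₅ := (abs_le.1 (hA (R / r) (by omega))).1
  have hA0 : 0 ≤ A := (abs_nonneg _).trans (hA 0 (by omega))
  have g₄ : ((R % r : ℕ) : ℝ) * (-A) ≤ ((R % r : ℕ) : ℝ) * a L (R / r + 1) := by gcongr
  have g₅ : (t' : ℝ) * (-A) ≤ (t' : ℝ) * a L (R / r) := by gcongr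
  have ht'' : (r : ℝ) = ((R % r : ℕ) : ℝ) + t' := by exact_mod_cast ht'
  have g₆ : (r : ℝ) * A ≤ (η * M + 3) * A := by gcongr
  have g₇ : θ₁ * η * M * A + θ₂ * η * M * A + θ₃ * η * M * A = η * M * A := by
    linear_combination η * M * A * hθ
  have g₈ : (r : ℝ) * A = ((R % r : ℕ) : ℝ) * A + t' * A := by rw [ht'']; ring
  linarith

theorem mix (h : SuperAdd a) {L : ℝ} (hL : 0 < L) {n₁ n₂ n₃ : ℕ} {θ₁ θ₂ θ₃ ρ : ℝ}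
    (h₁ : 0 ≤ θ₁) (h₂ : 0 ≤ θ₂) (h₃ : 0 ≤ θ₃) (hθ : θ₁ + θ₂ + θ₃ = 1) (hρ0 : 0 ≤ ρ)
    (hρ : ρ * (L + 2) ^ 3 = θ₁ * n₁ + θ₂ * n₂ + θ₃ * n₃) {b : ℝ}
    (hb : b < (θ₁ * a L n₁ + θ₂ * a L n₂ + θ₃ * a L n₃) / (L + 2) ^ 3) :
    ∀ᶠ L' in atTop, b ≤ a L' ⌊ρ * L' ^ 3⌋₊ / L' ^ 3 := by
  obtain ⟨A, hA⟩ : ∃ A, ∀ n ≤ 3 * (n₁ + n₂ + n₃) + 1, |a L n| ≤ A := by
    obtain ⟨A, hA⟩ := ((Set.finite_Iic (3 * (n₁ + n₂ + n₃) + 1)).image fun n => |a L n|).bddAbove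
    exact ⟨A, fun n hn => hA ⟨n, hn, rfl⟩⟩
  set c := θ₁ * a L n₁ + θ₂ * a L n₂ + θ₃ * a L n₃
  obtain ⟨η, hη, hη1, hηb⟩ : ∃ η : ℝ, 0 < η ∧ η ≤ 1 ∧ b < (c - 2 * η * A) / (L + 2) ^ 3 := by
    have h1 : Tendsto (fun η : ℝ => (c - 2 * η * A) / (L + 2) ^ 3) (𝓝[>] 0)
        (𝓝 ((c - 2 * 0 * A) / (L + 2) ^ 3)) :=
      (Continuous.tendsto (by fun_prop) 0).mono_left nhdsWithin_le_nhds
    simp only [mul_zero, zero_mul, sub_zero] at h1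
    obtain ⟨η, h2, h3⟩ := ((h1.eventually (lt_mem_nhds hb)).and (Ioc_mem_nhdsGT one_pos)).exists
    exact ⟨η, h3.1, h3.2, h2⟩
  have hL2 : 0 < L + 2 := by linarith
  have t1 := tendsto_nat_floor_mul_div_atTop (a := (L + 2)⁻¹) (by positivity)
  have t2 : Tendsto (fun L' : ℝ => L'⁻¹) atTop (𝓝 0) := tendsto_inv_atTop_zero
  have t3 := ((t1.pow 3).mul_const (c - 2 * η * A)).sub ((t2.pow 3).const_mul (6 * A))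
  have e : (L + 2)⁻¹ ^ 3 * (c - 2 * η * A) - 6 * A * 0 ^ 3 = (c - 2 * η * A) / (L + 2) ^ 3 := by
    field_simp; ring
  rw [e] at t3
  have t4 : Tendsto (fun L' : ℝ => η * (⌊(L + 2)⁻¹ * L'⌋₊ : ℝ)) atTop atTop :=
    (tendsto_natCast_atTop_atTop.comp (tendsto_nat_floor_atTop.comp
      (tendsto_id.const_mul_atTop (by positivity)))).const_mul_atTop hη
  filter_upwards [t3.eventually (lt_mem_nhds hηb), t4.eventually_ge_atTop 7,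
    eventually_gt_atTop 0] with L' h5 h6 h7
  have h8 := h.mix_core hL h7 (m := ⌊(L + 2)⁻¹ * L'⌋₊) (by
      rw [← le_div_iff₀ hL2, div_eq_inv_mul]; exact Nat.floor_le (by positivity))
    (by rw [← div_le_iff₀ hL2, div_eq_inv_mul]; exact (Nat.lt_floor_add_one _).le)
    h₁ h₂ h₃ hθ hρ0 hρ hη hη1 h6 hA
  refine h5.le.trans (le_trans (le_of_eq ?_) (div_le_div_of_nonneg_right h8 (by positivity)))
  field_simp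
  rfl

theorem bdd_above (h : SuperAdd a) {ρ : ℝ} (hρ : 0 ≤ ρ) :
    ∃ D, ∀ᶠ L in atTop, a L ⌊ρ * L ^ 3⌋₊ / L ^ 3 ≤ D := by
  obtain ⟨B, hB⟩ := h.bd
  refine ⟨|B| * ρ + 1, ?_⟩
  filter_upwards [eventually_gt_atTop 0] with L hL
  rw [div_le_iff₀ (by positivity)]
  refine (hB L _ hL).trans ?_
  have h1 : (⌊ρ * L ^ 3⌋₊ : ℝ) ≤ ρ * L ^ 3 := Nat.floor_le (by positivity)
  have h2 : B * ⌊ρ * L ^ 3⌋₊ ≤ |B| * (ρ * L ^ 3) :=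
    (mul_le_mul_of_nonneg_right (le_abs_self B) (Nat.cast_nonneg _)).trans (by gcongr)
  nlinarith

theorem bdd_below (h : SuperAdd a) {ρ : ℝ} (hρ : 0 ≤ ρ) :
    ∃ D, ∀ᶠ L in atTop, D ≤ a L ⌊ρ * L ^ 3⌋₊ / L ^ 3 := by
  have h0 : (0 : ℝ) < (⌈27 * ρ⌉₊ + 1 : ℕ) := by positivity
  have h1 : 27 * ρ / (⌈27 * ρ⌉₊ + 1 : ℕ) ≤ 1 := by
    rw [div_le_one h0]; push_cast; linarith [Nat.le_ceil (27 * ρ)]
  exact ⟨_, h.mix one_pos (n₁ := 0) (n₂ := ⌈27 * ρ⌉₊ + 1) (n₃ := 0)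
    (θ₁ := 1 - 27 * ρ / (⌈27 * ρ⌉₊ + 1 : ℕ)) (θ₂ := 27 * ρ / (⌈27 * ρ⌉₊ + 1 : ℕ)) (θ₃ := 0)
    (by linarith) (by positivity) le_rfl (by ring) hρ (by field_simp; norm_num) (sub_one_lt _)⟩

theorem bdd (h : SuperAdd a) {ρ : ℝ} (hρ : 0 ≤ ρ) :
    ∃ D, ∀ᶠ L in atTop, |a L ⌊ρ * L ^ 3⌋₊ / L ^ 3| ≤ D := by
  obtain ⟨D, hD⟩ := h.bdd_above hρ
  obtain ⟨D', hD'⟩ := h.bdd_below hρ
  refine ⟨max D (-D'), ?_⟩
  filter_upwards [hD, hD'] with L h1 h2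
  rw [abs_le]
  exact ⟨by linarith [le_max_right D (-D')], h1.trans (le_max_left _ _)⟩

theorem mix_le (h : SuperAdd a) {L : ℝ} (hL : 0 < L) {n₁ n₂ n₃ : ℕ} {θ₁ θ₂ θ₃ ρ : ℝ}
    (h₁ : 0 ≤ θ₁) (h₂ : 0 ≤ θ₂) (h₃ : 0 ≤ θ₃) (hθ : θ₁ + θ₂ + θ₃ = 1) (hρ0 : 0 ≤ ρ)
    (hρ : ρ * (L + 2) ^ 3 = θ₁ * n₁ + θ₂ * n₂ + θ₃ * n₃) :
    (θ₁ * a L n₁ + θ₂ * a L n₂ + θ₃ * a L n₃) / (L + 2) ^ 3 ≤ slim a ρ := by
  obtain ⟨D, hD⟩ := h.bdd_above hρ0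
  refine le_of_forall_lt_imp_le_of_dense fun b hb => ?_
  exact le_liminf_of_le (isCoboundedUnder_ge_of_eventually_le _ hD)
    (h.mix hL h₁ h₂ h₃ hθ hρ0 hρ hb)

theorem tendsto_floor {ρ : ℝ} (hρ : 0 ≤ ρ) :
    Tendsto (fun L : ℝ => (⌊ρ * L ^ 3⌋₊ : ℝ) / L ^ 3) atTop (𝓝 ρ) :=
  (tendsto_nat_floor_mul_div_atTop hρ).comp (tendsto_pow_atTop three_ne_zero)

theorem alg_aux {n₁ n₂ n₃ τ s P ρ θ₁ θ₂ : ℝ} (hP : P ≠ 0)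
    (h : τ * (n₃ / P - (θ₁ * (n₁ / P) + θ₂ * (n₂ / P))) = ρ * s - (θ₁ * (n₁ / P) + θ₂ * (n₂ / P))) :
    ρ * (s * P) = (1 - τ) * θ₁ * n₁ + (1 - τ) * θ₂ * n₂ + τ * n₃ := by
  field_simp at h
  linear_combination -h

theorem upper (h : SuperAdd a) {ρ₁ ρ₂ θ₁ θ₂ : ℝ} (h₁ : 0 ≤ ρ₁) (h₂ : 0 ≤ ρ₂) (k₁ : 0 ≤ θ₁)
    (k₂ : 0 ≤ θ₂) (hθ : θ₁ + θ₂ = 1) {ε : ℝ} (hε : 0 < ε) :
    ∀ᶠ L in atTop, θ₁ * (a L ⌊ρ₁ * L ^ 3⌋₊ / L ^ 3) + θ₂ * (a L ⌊ρ₂ * L ^ 3⌋₊ / L ^ 3) ≤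
      slim a (θ₁ * ρ₁ + θ₂ * ρ₂) + ε := by
  set ρ := θ₁ * ρ₁ + θ₂ * ρ₂ with hρ
  have hρ0 : 0 ≤ ρ := by positivity
  obtain ⟨D₁, hD₁⟩ := h.bdd h₁
  obtain ⟨D₂, hD₂⟩ := h.bdd h₂
  obtain ⟨D₃, hD₃⟩ := h.bdd (ρ := ρ + 1) (by positivity)
  let x : ℝ → ℝ := fun L => θ₁ * (⌊ρ₁ * L ^ 3⌋₊ / L ^ 3) + θ₂ * (⌊ρ₂ * L ^ 3⌋₊ / L ^ 3)
  have tx : Tendsto x atTop (𝓝 ρ) :=
    ((tendsto_floor h₁).const_mul θ₁).add ((tendsto_floor h₂).const_mul θ₂)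
  let s : ℝ → ℝ := fun L => (1 + 2 * L⁻¹) ^ 3
  have ts : Tendsto s atTop (𝓝 1) := by
    have := ((tendsto_inv_atTop_zero (𝕜 := ℝ)).const_mul 2).const_add 1 |>.pow 3
    simpa using this
  let y : ℝ → ℝ := fun L => ⌊(ρ + 1) * L ^ 3⌋₊ / L ^ 3 - x L
  have ty : Tendsto y atTop (𝓝 1) := by
    have := (tendsto_floor (ρ := ρ + 1) (by positivity)).sub tx
    rwa [add_sub_cancel_left] at this
  let τ : ℝ → ℝ := fun L => (ρ * s L - x L) / y L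
  have tτ : Tendsto τ atTop (𝓝 0) := by
    have := ((ts.const_mul ρ).sub tx).div ty one_ne_zero
    rw [mul_one, sub_self, zero_div] at this
    exact this
  have te : Tendsto (fun L => |(1 - τ L) / s L - 1| * (θ₁ * D₁ + θ₂ * D₂) + |τ L / s L| * D₃)
      atTop (𝓝 0) := by
    have := ((((tτ.const_sub 1).div ts one_ne_zero).sub_const 1).abs.mul_const
      (θ₁ * D₁ + θ₂ * D₂)).add ((tτ.div ts one_ne_zero).abs.mul_const D₃)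
    simpa using this
  filter_upwards [hD₁, hD₂, hD₃, te.eventually (gt_mem_nhds hε), eventually_gt_atTop 0,
    ty.eventually (lt_mem_nhds one_pos), tτ.eventually (gt_mem_nhds one_pos)]
    with L e₁ e₂ e₃ e₄ hL hy hτ1
  have hs : (L + 2) ^ 3 = s L * L ^ 3 := by
    simp only [s]; field_simp
  have hs1 : 1 ≤ s L := one_le_pow₀ (by have := inv_pos.2 hL; linarith)
  have hx : x L ≤ ρ := by
    have f₁ : (⌊ρ₁ * L ^ 3⌋₊ : ℝ) / L ^ 3 ≤ ρ₁ := by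
      rw [div_le_iff₀ (by positivity)]; exact Nat.floor_le (by positivity)
    have f₂ : (⌊ρ₂ * L ^ 3⌋₊ : ℝ) / L ^ 3 ≤ ρ₂ := by
      rw [div_le_iff₀ (by positivity)]; exact Nat.floor_le (by positivity)
    simp only [x, hρ]; gcongr
  have hτ0 : 0 ≤ τ L := div_nonneg (by nlinarith) hy.le
  have hτy : τ L * y L = ρ * s L - x L := div_mul_cancel₀ _ hy.ne'
  have h1τ : 0 ≤ 1 - τ L := by linarith
  have key := h.mix_le hL (n₁ := ⌊ρ₁ * L ^ 3⌋₊) (n₂ := ⌊ρ₂ * L ^ 3⌋₊) (n₃ := ⌊(ρ + 1) * L ^ 3⌋₊)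
    (θ₁ := (1 - τ L) * θ₁) (θ₂ := (1 - τ L) * θ₂) (θ₃ := τ L) (by positivity) (by positivity) hτ0
    (by linear_combination (1 - τ L) * hθ) hρ0 (by
      rw [hs]
      exact alg_aux (by positivity) hτy)
  set F₁ := a L ⌊ρ₁ * L ^ 3⌋₊ / L ^ 3 with hF₁
  set F₂ := a L ⌊ρ₂ * L ^ 3⌋₊ / L ^ 3 with hF₂
  set F₃ := a L ⌊(ρ + 1) * L ^ 3⌋₊ / L ^ 3 with hF₃
  have e : ((1 - τ L) * θ₁ * a L ⌊ρ₁ * L ^ 3⌋₊ + (1 - τ L) * θ₂ * a L ⌊ρ₂ * L ^ 3⌋₊ +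
      τ L * a L ⌊(ρ + 1) * L ^ 3⌋₊) / (L + 2) ^ 3 =
      θ₁ * F₁ + θ₂ * F₂ + (((1 - τ L) / s L - 1) * (θ₁ * F₁ + θ₂ * F₂) + τ L / s L * F₃) := by
    rw [hs, hF₁, hF₂, hF₃]; field_simp; ring
  rw [e] at key
  have g₁ : |θ₁ * F₁ + θ₂ * F₂| ≤ θ₁ * D₁ + θ₂ * D₂ := by
    refine (abs_add_le _ _).trans ?_
    rw [abs_mul, abs_mul, abs_of_nonneg k₁, abs_of_nonneg k₂]
    gcongr
  have g₂ : |((1 - τ L) / s L - 1) * (θ₁ * F₁ + θ₂ * F₂) + τ L / s L * F₃| ≤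
      |(1 - τ L) / s L - 1| * (θ₁ * D₁ + θ₂ * D₂) + |τ L / s L| * D₃ := by
    refine (abs_add_le _ _).trans ?_
    rw [abs_mul, abs_mul]
    gcongr
  have := (abs_le.1 g₂).1
  linarith

end SuperAdd

theorem SuperAdd.tendsto {a : ℝ → ℕ → ℝ} (h : SuperAdd a) {ρ : ℝ} (hρ : 0 ≤ ρ) :
    Tendsto (fun L : ℝ => a L ⌊ρ * L ^ 3⌋₊ / L ^ 3) atTop (𝓝 (slim a ρ)) := by
  refine tendsto_order.2 ⟨fun b hb => ?_, fun b hb => ?_⟩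
  · obtain ⟨D, hD⟩ := h.bdd_below hρ
    exact eventually_lt_of_lt_liminf hb (isBoundedUnder_of_eventually_ge hD)
  · have := h.upper hρ hρ zero_le_one le_rfl (add_zero 1) (ε := (b - slim a ρ) / 2) (by linarith)
    filter_upwards [this] with L hL
    simp only [one_mul, zero_mul, add_zero] at hL
    linarith

theorem SuperAdd.le_slim {a : ℝ → ℕ → ℝ} (h : SuperAdd a) {L : ℝ} (hL : 0 < L) (n : ℕ) :
    a L n ≤ (L + 2) ^ 3 * slim a (n / (L + 2) ^ 3) := by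
  have hL2 : 0 < (L + 2) ^ 3 := by positivity
  have := h.mix_le hL (n₁ := n) (n₂ := 0) (n₃ := 0) (ρ := n / (L + 2) ^ 3) zero_le_one le_rfl le_rfl
    (by ring) (by positivity) (by field_simp; ring)
  rw [div_le_iff₀ hL2] at this
  linarith

theorem SuperAdd.concave {a : ℝ → ℕ → ℝ} (h : SuperAdd a) : ConcaveOn ℝ (Ici 0) (slim a) := by
  refine ⟨convex_Ici 0, fun x hx y hy s t hs ht hst => ?_⟩
  simp only [smul_eq_mul]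
  refine le_of_forall_pos_le_add fun ε hε => ?_
  exact le_of_tendsto (((h.tendsto hx).const_mul s).add ((h.tendsto hy).const_mul t))
    (h.upper hx hy hs ht hst hε)

theorem SuperAdd.slim_zero {a : ℝ → ℕ → ℝ} (h : SuperAdd a) : slim a 0 = 0 := by
  simp [slim, h.zero]

end Crest.Agent.R149
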