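import Crest.Agent.R149.Dec
import Crest.Agent.R149.TLabs

/-!
# Row 149: thermodynamic limit for `Good` potentials
-/

set_option autoImplicit false

open MeasureTheory Filter Topology Set
open Crest.ProbabilityR.Continuum

namespace Crest.Agent.R149

theorem abs_sub_le_dist (x y : Pt) (k : Fin 3) : |x k - y k| ≤ dist x y := by
  have := PiLp.dist_apply_le x y k
  rwa [Real.dist_eq] at this

theorem Good.superAdd {Φ : ℝ → ℝ} (h : Good Φ) : SuperAdd (aa Φ) where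
  sup := by
    intro L L' m l hL hL' hm hl
    obtain ⟨e⟩ : Nonempty (Fin l.length ↪ (Fin 3 → Fin m)) :=
      Function.Embedding.nonempty_of_card_le (by simpa using hl)
    have hfar : ∀ c c' : Fin l.length, c ≠ c' → ∀ x ∈ cubeAt (fun k => (L + 2) * (e c k : ℕ)) L,
        ∀ y ∈ cubeAt (fun k => (L + 2) * (e c' k : ℕ)) L, 2 ≤ dist x y := by
      intro c c' hcc x hx y hy
      obtain ⟨k, hk⟩ : ∃ k, e c k ≠ e c' k := Function.ne_iff.1 (e.injective.ne hcc)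
      refine le_trans ?_ (abs_sub_le_dist x y k)
      have h1 := hx k
      have h2 := hy k
      simp only at h1 h2
      rcases lt_or_gt_of_ne hk with hlt | hlt
      · have : ((e c k : ℕ) : ℝ) + 1 ≤ (e c' k : ℕ) := by exact_mod_cast hlt
        rw [abs_sub_comm]
        refine le_trans ?_ (le_abs_self _)
        nlinarith
      · have : ((e c' k : ℕ) : ℝ) + 1 ≤ (e c k : ℕ) := by exact_mod_cast hlt
        refine le_trans ?_ (le_abs_self _)
        nlinarith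
    have hD := DL h.toStab (A := cube L') (by rw [volume_cube hL'.le]; simp)
      (fun c : Fin l.length => cubeAt (fun k => (L + 2) * (e c k : ℕ)) L) (fun c => measurableSet_cubeAt _ _)
      (by
        intro c x hx k
        have h1 := hx k
        simp only at h1
        have h2 : ((e c k : ℕ) : ℝ) + 1 ≤ m := by exact_mod_cast (e c k).2
        have h3 : (0 : ℝ) ≤ (e c k : ℕ) := Nat.cast_nonneg _
        constructor <;> nlinarith)
      (by
        intro c c' hcc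
        refine Set.disjoint_left.2 fun x hx hx' => ?_
        have := hfar c c' hcc x hx x hx'
        simp at this; linarith)
      (fun c c' hcc x hx y hy => h.neg _ (hfar c c' hcc x hx y hy)) (fun c => l[c])
    simp only [zz_cubeAt] at hD
    have e1 : ∑ c : Fin l.length, l[c] = l.sum := by simp
    have e2 : (l.map (aa Φ L)).sum = ∑ c : Fin l.length, aa Φ L l[c] := by simp
    rw [e1] at hD
    rw [e2]
    unfold aa
    rw [← Real.log_prod fun c _ => (zz_cube_pos h.toStab hL _).ne']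
    exact Real.log_le_log (Finset.prod_pos fun c _ => zz_cube_pos h.toStab hL _) hD
  bd := by
    obtain ⟨B, hB⟩ := h.stable
    refine ⟨B, fun L n hL => ?_⟩
    have := aa_le_crude h.toStab hL n (B * n) fun x _ => by linarith [hB n x]
    linarith
  zero := fun L => by simp [aa, zz_zero]

theorem Good.tendsto {Φ : ℝ → ℝ} (h : Good Φ) {ρ : ℝ} (hρ : 0 ≤ ρ) :
    Tendsto (fun L : ℝ => aa Φ L ⌊ρ * L ^ 3⌋₊ / L ^ 3) atTop (𝓝 (ss Φ ρ)) :=
  h.superAdd.tendsto hρ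

theorem Good.aa_le {Φ : ℝ → ℝ} (h : Good Φ) {L : ℝ} (hL : 0 < L) (n : ℕ) :
    aa Φ L n ≤ (L + 2) ^ 3 * ss Φ (n / (L + 2) ^ 3) :=
  h.superAdd.le_slim hL n

theorem Good.concave {Φ : ℝ → ℝ} (h : Good Φ) : ConcaveOn ℝ (Ici 0) (ss Φ) := h.superAdd.concave

theorem Good.ss_zero {Φ : ℝ → ℝ} (h : Good Φ) : ss Φ 0 = 0 := h.superAdd.slim_zero

theorem tendsto_floor_div {ρ : ℝ} (hρ : 0 ≤ ρ) :
    Tendsto (fun L : ℝ => (⌊ρ * L ^ 3⌋₊ : ℝ) / L ^ 3) atTop (𝓝 ρ) :=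
  (tendsto_nat_floor_mul_div_atTop hρ).comp (tendsto_pow_atTop (by norm_num))

theorem Good.combo {Φ Ψ : ℝ → ℝ} (hΦ : Good Φ) (hΨ : Good Ψ) {a b : ℝ} (ha : 0 ≤ a) (hb : 0 ≤ b) :
    Good (fun r => a * Φ r + b * Ψ r) where
  toStab := hΦ.toStab.combo hΨ.toStab ha hb
  neg := fun r hr => by nlinarith [hΦ.neg r hr, hΨ.neg r hr]

theorem Good.smul {Φ : ℝ → ℝ} (hΦ : Good Φ) {a : ℝ} (ha : 0 ≤ a) : Good (fun r => a * Φ r) := by
  simpa using hΦ.combo hΦ ha le_rfl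

/-- an upper bound for `ss` from an eventual upper bound of the finite-volume quantities -/
theorem Good.ss_le {Φ : ℝ → ℝ} (h : Good Φ) {ρ : ℝ} (hρ : 0 ≤ ρ) {F : ℝ → ℝ} {c : ℝ}
    (hF : Tendsto F atTop (𝓝 c)) (hle : ∀ᶠ L in atTop, aa Φ L ⌊ρ * L ^ 3⌋₊ / L ^ 3 ≤ F L) : ss Φ ρ ≤ c :=
  le_of_tendsto_of_tendsto (h.tendsto hρ) hF hle

theorem ss_holder {Φ Ψ : ℝ → ℝ} (hΦ : Good Φ) (hΨ : Good Ψ) {θ ρ : ℝ} (h0 : 0 ≤ θ) (h1 : θ ≤ 1) (hρ : 0 ≤ ρ) :
    ss (fun r => (1 - θ) * Φ r + θ * Ψ r) ρ ≤ (1 - θ) * ss Φ ρ + θ * ss Ψ ρ := by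
  refine (hΦ.combo hΨ (sub_nonneg.2 h1) h0).ss_le hρ
    (((hΦ.tendsto hρ).const_mul (1 - θ)).add ((hΨ.tendsto hρ).const_mul θ)) ?_
  filter_upwards [eventually_gt_atTop 0] with L hL
  have := aa_holder hΦ.toStab hΨ.toStab hL ⌊ρ * L ^ 3⌋₊ h0 h1
  rw [← mul_div_assoc, ← mul_div_assoc, ← add_div]
  exact div_le_div_of_nonneg_right this (by positivity)

theorem ss_convex {φ : ℝ → ℝ} (h : Good φ) {ρ : ℝ} (hρ : 0 ≤ ρ) :
    ConvexOn ℝ (Ioi 0) (fun β => ss (fun r => β * φ r) ρ) := by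
  refine ⟨convex_Ioi 0, fun β hβ β' hβ' a b ha hb hab => ?_⟩
  have := ss_holder (h.smul (le_of_lt hβ)) (h.smul (le_of_lt hβ')) hb (by linarith) hρ
  have e : a = 1 - b := by linarith
  subst e
  simp only [smul_eq_mul]
  have e : (fun r => ((1 - b) * β + b * β') * φ r) = fun r => (1 - b) * (β * φ r) + b * (β' * φ r) := by
    ext r; ring
  rw [e]; exact this

theorem ss_mono {Φ Ψ : ℝ → ℝ} (hΦ : Good Φ) (hΨ : Good Ψ) (h : ∀ r, 0 ≤ r → Ψ r ≤ Φ r) {ρ : ℝ} (hρ : 0 ≤ ρ) :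
    ss Φ ρ ≤ ss Ψ ρ := by
  refine hΦ.ss_le hρ (hΨ.tendsto hρ) ?_
  filter_upwards [eventually_gt_atTop 0] with L hL
  have := aa_le_of_En hΦ.toStab hΨ.toStab hL ⌊ρ * L ^ 3⌋₊ 0 fun x _ => by
    simpa [En] using EnS_mono h Finset.univ x
  exact div_le_div_of_nonneg_right (by linarith) (by positivity)

/-- crude bound from superstability -/
theorem ss_le_crude {Φ : ℝ → ℝ} (hΦ : Good Φ) {α B l ρ : ℝ} (hρ : 0 ≤ ρ)
    (h : ∀ (L : ℝ) (n : ℕ) (x : Fin n → Pt), 0 < L → (∀ i, x i ∈ cube L) →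
      α * (n : ℝ) ^ 2 / (L + l) ^ 3 - B * n ≤ En Φ x) :
    ss Φ ρ ≤ 1 + B * ρ - α * ρ ^ 2 := by
  have t1 := tendsto_floor_div hρ
  have t2 : Tendsto (fun L : ℝ => L / (L + l)) atTop (𝓝 1) := by
    have : Tendsto (fun L : ℝ => 1 - l / (L + l)) atTop (𝓝 (1 - 0)) :=
      tendsto_const_nhds.sub (tendsto_const_nhds.div_atTop (tendsto_atTop_add_const_right _ _ tendsto_id))
    rw [sub_zero] at this
    refine this.congr' ?_
    filter_upwards [eventually_gt_atTop (-l)] with L hL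
    have : L + l ≠ 0 := by linarith
    field_simp; ring
  have t3 : Tendsto (fun L : ℝ => 1 + B * ((⌊ρ * L ^ 3⌋₊ : ℝ) / L ^ 3) -
      α * ((⌊ρ * L ^ 3⌋₊ : ℝ) / L ^ 3) ^ 2 * (L / (L + l)) ^ 3) atTop (𝓝 (1 + B * ρ - α * ρ ^ 2 * 1 ^ 3)) :=
    (tendsto_const_nhds.add (t1.const_mul B)).sub (((t1.pow 2).const_mul α).mul (t2.pow 3))
  rw [one_pow, mul_one] at t3
  refine hΦ.ss_le hρ t3 ?_
  filter_upwards [eventually_gt_atTop 0, eventually_gt_atTop (-l)] with L hL hL'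
  set n := ⌊ρ * L ^ 3⌋₊
  have := aa_le_crude hΦ.toStab hL n (B * n - α * (n : ℝ) ^ 2 / (L + l) ^ 3) fun x hx => by
    linarith [h L n x hL hx]
  have hl : L + l ≠ 0 := by linarith
  rw [div_le_iff₀ (by positivity)]
  refine this.trans (le_of_eq ?_)
  field_simp
  ring

end Crest.Agent.R149
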